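import Crest.Agent.R34.Basic

/-! Row 34: product spaces and counting. -/

set_option autoImplicit false
set_option linter.unusedSectionVars false

namespace Crest.Agent.R34

open Finset

section Pi

variable {ι : Type} [Fintype ι] [DecidableEq ι] {α : ι → Type} [∀ i, Fintype (α i)]

/-- Independence of coordinates (`Finset.prod_univ_sum`, `Fintype.card_pi`). -/
theorem Ex_pi (g : ∀ i, α i → ℝ) :
    Ex (fun ω : ∀ i, α i => ∏ i, g i (ω i)) = ∏ i, Ex (g i) := by
  unfold Ex
  rw [prod_div_distrib, Fintype.prod_sum, Fintype.card_pi, Nat.cast_prod]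

theorem Pr_pi (A : ∀ i, α i → Prop) :
    Pr (fun ω : ∀ i, α i => ∀ i, A i (ω i)) = ∏ i, Pr (A i) := by
  classical
  simp only [Pr_eq_Ex]
  rw [← Ex_pi]
  congr 1
  funext ω
  rw [Fintype.prod_boole]

/-- The same with conditions on a subset of the coordinates. -/
theorem Pr_pi_on [∀ i, Nonempty (α i)] (H : Finset ι) (A : ∀ i, α i → Prop) :
    Pr (fun ω : ∀ i, α i => ∀ i ∈ H, A i (ω i)) = ∏ i ∈ H, Pr (A i) := by
  rw [Pr_pi fun i a => i ∈ H → A i a, ← prod_subset (subset_univ H)]
  · exact prod_congr rfl fun i hi => Pr_congr fun a => by simp [hi]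
  · exact fun i _ hi => Pr_true fun a h => absurd h hi

/-- One coordinate is uniform. -/
theorem Pr_coord [∀ i, Nonempty (α i)] (i : ι) (A : α i → Prop) :
    Pr (fun ω : ∀ i, α i => A (ω i)) = Pr A := by
  have := Pr_pi_on {i} (Function.update (β := fun j => α j → Prop) (fun _ _ => True) i A)
  simpa using this

/-- At least `k` of the independent events happen.
`1[k ≤ #] ≤ x^# / x^k = ∏ (1 + (x-1) 1_A) / x^k`, then `Ex_pi` and `1 + x p ≤ exp (x p)`. -/
theorem esym [∀ i, Nonempty (α i)] (A : ∀ i, α i → Prop) (k : ℕ) {x S : ℝ} (hx : 1 ≤ x)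
    (hS : ∑ i, Pr (A i) ≤ S) :
    Pr (fun ω : ∀ i, α i => k ≤ (flt univ fun i => A i (ω i)).card) ≤
      Real.exp (x * S) / x ^ k := by
  classical
  have hx0 : 0 < x := by linarith
  have h1 : Pr (fun ω : ∀ i, α i => k ≤ (flt univ fun i => A i (ω i)).card) ≤
      Pr (fun ω : ∀ i, α i => x ^ k ≤ ∏ i, (1 + (x - 1) * if A i (ω i) then 1 else 0)) := by
    refine Pr_mono fun ω h => (pow_le_pow_right₀ hx h).trans_eq ?_
    rw [flt_eq, ← prod_const, prod_filter]
    exact prod_congr rfl fun i _ => by split_ifs <;> ring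
  refine h1.trans ((Pr_markov _ (fun ω => prod_nonneg fun i _ => ?_) (by positivity)).trans ?_)
  · split_ifs <;> linarith
  refine div_le_div_of_nonneg_right ?_ (by positivity)
  rw [Ex_pi fun i a => 1 + (x - 1) * if A i a then 1 else 0]
  calc ∏ i, Ex (fun a => 1 + (x - 1) * if A i a then 1 else 0)
      ≤ ∏ i, Real.exp (x * Pr (A i)) := by
        have e : ∀ i, Ex (fun a => 1 + (x - 1) * if A i a then 1 else 0) =
            1 + (x - 1) * Pr (A i) := fun i => by rw [Ex_add, Ex_mul, Ex_const, Pr_eq_Ex]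
        refine prod_le_prod (fun i _ => ?_) fun i _ => ?_
        · rw [e]; nlinarith [Pr_nonneg (A i)]
        · rw [e]; nlinarith [Pr_nonneg (A i), Real.add_one_le_exp (x * Pr (A i))]
    _ ≤ Real.exp (x * S) := by
        rw [← Real.exp_sum, ← mul_sum, Real.exp_le_exp]
        exact mul_le_mul_of_nonneg_left hS hx0.le

/-- Conditioning on the coordinates outside `H`.  The map
`(ω, ω₀) ↦ (H.piecewise ω ω₀, H.piecewise ω₀ ω)` is an involution of the square. -/
theorem Pr_fiber [∀ i, Nonempty (α i)] (H : Finset ι) (P : (∀ i, α i) → Prop) (b : ℝ)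
    (h : ∀ ω₀ : ∀ i, α i, Pr (fun ω : ∀ i, α i => P (H.piecewise ω ω₀)) ≤ b) : Pr P ≤ b := by
  classical
  have hinv : Function.Involutive fun p : (∀ i, α i) × ∀ i, α i =>
      (H.piecewise p.1 p.2, H.piecewise p.2 p.1) := fun p => by
    ext i <;> by_cases hi : i ∈ H <;> simp [piecewise, hi]
  have h1 : Ex (fun ω₀ : ∀ i, α i => Pr fun ω : ∀ i, α i => P (H.piecewise ω ω₀)) =
      Ex fun _ : ∀ i, α i => Pr P := by
    simp only [Pr_eq_Ex, Ex, ← sum_div]
    congr 2
    rw [← Fintype.sum_prod_type_right', ← Fintype.sum_prod_type_right']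
    exact hinv.bijective.sum_comp fun p => if P p.1 then (1 : ℝ) else 0
  rw [← Ex_const (α := ∀ i, α i) (Pr P), ← h1, ← Ex_const (α := ∀ i, α i) b]
  exact Ex_mono h

end Pi

/-- A set of values with at most `M` elements. -/
theorem Pr_le_of_card {α : Type} [Fintype α] (A : α → Prop) (M : ℝ)
    (h : ((flt univ A).card : ℝ) ≤ M) : Pr A ≤ M / Fintype.card α :=
  div_le_div_of_nonneg_right h (by positivity)

theorem Pr_eq_val {α : Type} [Fintype α] (a : α) : Pr (fun b => b = a) = 1 / Fintype.card α := by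
  unfold Pr
  have : (flt univ fun b => b = a) = {a} := by ext b; simp
  rw [this, card_singleton, Nat.cast_one]

/-- Probabilities of disjoint events add. -/
theorem Pr_exists_disj {α κ : Type} [Fintype α] (s : Finset κ) (P : κ → α → Prop)
    (h : ∀ k ∈ s, ∀ k' ∈ s, ∀ a, P k a → P k' a → k = k') :
    Pr (fun a => ∃ k ∈ s, P k a) = ∑ k ∈ s, Pr (P k) := by
  classical
  unfold Pr
  have : (flt univ fun a => ∃ k ∈ s, P k a) = s.biUnion fun k => flt univ (P k) := by
    ext a; simp
  rw [this, card_biUnion, Nat.cast_sum, sum_div]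
  intro k hk k' hk' hne
  refine disjoint_left.2 fun a h1 h2 => hne (h k hk k' hk' a ?_ ?_)
  exacts [(mem_flt.1 h1).2, (mem_flt.1 h2).2]

/-- Subsets with at most `r` elements: `∑_{S ⊆ A} x^|S| = (1+x)^|A|`. -/
theorem card_small_le {β : Type} (A : Finset β) (r : ℕ) {x : ℝ} (h0 : 0 < x) (h1 : x ≤ 1) :
    ((flt A.powerset fun S => S.card ≤ r).card : ℝ) ≤ Real.exp (x * A.card) / x ^ r := by
  classical
  rw [le_div_iff₀ (by positivity)]
  calc ((flt A.powerset fun S => S.card ≤ r).card : ℝ) * x ^ r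
      = ∑ _S ∈ flt A.powerset fun S => S.card ≤ r, x ^ r := by simp
    _ ≤ ∑ S ∈ flt A.powerset fun S => S.card ≤ r, x ^ S.card :=
        sum_le_sum fun S hS => pow_le_pow_of_le_one h0.le h1 (mem_flt.1 hS).2
    _ ≤ ∑ S ∈ A.powerset, x ^ S.card :=
        sum_le_sum_of_subset_of_nonneg (flt_subset _ _) fun _ _ _ => by positivity
    _ = (1 + x) ^ A.card := by
        rw [← prod_const, prod_one_add]; simp
    _ ≤ Real.exp x ^ A.card :=
        pow_le_pow_left₀ (by positivity) (by linarith [Real.add_one_le_exp x]) _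
    _ = _ := by rw [← Real.exp_nat_mul, mul_comm]

/-- Subsets with at most `r` elements, crude form (each is the image of a map
`Fin r → Option A`; or induct on `r`). -/
theorem card_small_le_pow {β : Type} (A : Finset β) (r : ℕ) :
    (flt A.powerset fun S => S.card ≤ r).card ≤ (A.card + 1) ^ r := by
  classical
  induction r with
  | zero =>
    rw [pow_zero]
    refine card_le_one.2 fun S hS S' hS' => ?_
    rw [card_eq_zero.1 (Nat.le_zero.1 (mem_flt.1 hS).2),
      card_eq_zero.1 (Nat.le_zero.1 (mem_flt.1 hS').2)]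
  | succ r ih =>
    have hsub : (flt A.powerset fun S => S.card ≤ r + 1) ⊆ (flt A.powerset fun S => S.card ≤ r) ∪
        image₂ insert A (flt A.powerset fun S => S.card ≤ r) := by
      intro S hS
      obtain ⟨h1, h2⟩ := mem_flt.1 hS
      rcases S.eq_empty_or_nonempty with rfl | ⟨a, ha⟩
      · simp
      · refine mem_union_right _ (mem_image₂.2 ⟨a, mem_powerset.1 h1 ha, S.erase a, mem_flt.2
          ⟨mem_powerset.2 ((erase_subset _ _).trans (mem_powerset.1 h1)), ?_⟩, insert_erase ha⟩)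
        rw [card_erase_of_mem ha]; omega
    have h1 := (card_le_card hsub).trans (card_union_le _ _)
    have h2 := card_image₂_le (insert : β → Finset β → Finset β) A
      (flt A.powerset fun S => S.card ≤ r)
    rw [pow_succ]
    nlinarith

/-- Balanced partitions (number the elements and reduce mod `r`). -/
theorem exists_bal (α κ : Type) [Fintype α] [Fintype κ] [Nonempty κ] :
    ∃ f : α → κ, ∀ j, Fintype.card α / Fintype.card κ ≤ (flt univ fun a => f a = j).card ∧
      (flt univ fun a => f a = j).card ≤ Fintype.card α / Fintype.card κ + 1 := by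
  classical
  have hr : 0 < Fintype.card κ := Fintype.card_pos
  refine ⟨fun a => (Fintype.equivFin κ).symm
    ⟨(Fintype.equivFin α a : ℕ) % Fintype.card κ, Nat.mod_lt _ hr⟩, fun j => ?_⟩
  have h1 : (flt univ fun a => (Fintype.equivFin κ).symm
      ⟨(Fintype.equivFin α a : ℕ) % Fintype.card κ, Nat.mod_lt _ hr⟩ = j).card =
      Nat.count (· ≡ (Fintype.equivFin κ j : ℕ) [MOD Fintype.card κ]) (Fintype.card α) := by
    rw [Nat.count_eq_card_filter_range]
    refine card_bij (fun a _ => (Fintype.equivFin α a : ℕ)) (fun a ha => ?_)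
      (fun a _ b _ e => (Fintype.equivFin α).injective (Fin.ext e)) fun i hi => ?_
    · rw [mem_flt, Equiv.symm_apply_eq, Fin.ext_iff] at ha
      exact mem_filter.2 ⟨mem_range.2 (Fin.is_lt _),
        ha.2.trans (Nat.mod_eq_of_lt (Fin.is_lt _)).symm⟩
    · obtain ⟨h1, h2⟩ := mem_filter.1 hi
      refine ⟨(Fintype.equivFin α).symm ⟨i, mem_range.1 h1⟩, ?_, by simp⟩
      rw [mem_flt, Equiv.symm_apply_eq, Fin.ext_iff, Equiv.apply_symm_apply]
      exact ⟨mem_univ _, Eq.trans h2 (Nat.mod_eq_of_lt (Fin.is_lt _))⟩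
  rw [h1, Nat.count_modEq_card _ hr]
  split_ifs <;> omega

/-- A set of tuples in which one coordinate is determined by the others. -/
theorem card_det {α : Type} [Fintype α] {n : ℕ} (T : Finset (Fin (n + 1) → α)) (s : Fin (n + 1))
    (h : ∀ u ∈ T, ∀ v ∈ T, (∀ r, r ≠ s → u r = v r) → u s = v s) :
    T.card ≤ Fintype.card α ^ n := by
  classical
  have h1 : T.card ≤ (univ : Finset (Fin n → α)).card := by
    refine card_le_card_of_injOn (fun u => s.removeNth u) (fun _ _ => mem_univ _)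
      fun u hu v hv e => ?_
    have h2 : ∀ r, r ≠ s → u r = v r := fun r hr => by
      obtain ⟨r', rfl⟩ := Fin.exists_succAbove_eq hr
      exact congrFun e r'
    funext r
    by_cases hr : r = s
    · exact hr ▸ h u hu v hv h2
    · exact h2 r hr
  simpa using h1

/-- AM-GM in the form used for heavy lines. -/
theorem prod_le_avg_pow {κ : Type} (H : Finset κ) (a : κ → ℝ) (ha : ∀ t ∈ H, 0 ≤ a t) {M : ℝ}
    (hM : ∑ t ∈ H, a t ≤ M) : ∏ t ∈ H, a t ≤ (M / H.card) ^ H.card := by
  rcases H.eq_empty_or_nonempty with rfl | hne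
  · simp
  have hc : (0 : ℝ) < H.card := by exact_mod_cast hne.card_pos
  have h1 := Real.geom_mean_le_arith_mean H (fun _ => 1) a (fun _ _ => zero_le_one)
    (by simpa using hne.card_pos) ha
  simp only [Real.rpow_one, sum_const, nsmul_eq_mul, mul_one, one_mul] at h1
  have h0 := prod_nonneg ha
  calc ∏ t ∈ H, a t = ((∏ t ∈ H, a t) ^ ((H.card : ℝ)⁻¹)) ^ H.card :=
        (Real.rpow_inv_natCast_pow h0 hne.card_pos.ne').symm
    _ ≤ _ := pow_le_pow_left₀ (Real.rpow_nonneg h0 _)
        (h1.trans (div_le_div_of_nonneg_right hM hc.le)) _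

theorem exp_le_one_sub {x : ℝ} (h0 : 0 ≤ x) (h1 : x ≤ 1 / 2) : Real.exp (-(2 * x)) ≤ 1 - x := by
  rw [Real.exp_neg, inv_le_iff_one_le_mul₀ (Real.exp_pos _)]
  nlinarith [Real.add_one_le_exp (2 * x), mul_nonneg h0 (sub_nonneg.2 h1)]

theorem quarter_le {q : ℕ} (hq : 2 ≤ q) : (1 / 4 : ℝ) ≤ (1 - 1 / (q : ℝ)) ^ q := by
  induction q, hq using Nat.le_induction with
  | base => norm_num
  | succ q hq ih =>
    have h2 : (2 : ℝ) ≤ q := by exact_mod_cast hq
    have h3 : (0 : ℝ) < 1 - 1 / q := by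
      rw [sub_pos, div_lt_one (by linarith)]; linarith
    have h4 : (0 : ℝ) < (q : ℝ) ^ 2 - 1 := by nlinarith
    have h5 := one_add_mul_le_pow (a := 1 / ((q : ℝ) ^ 2 - 1))
      (by have := one_div_pos.2 h4; linarith) (q + 1)
    have h6 : (1 - 1 / ((q + 1 : ℕ) : ℝ)) = (1 - 1 / q) * (1 + 1 / ((q : ℝ) ^ 2 - 1)) := by
      push_cast; field_simp; ring
    have h7 : (1 - 1 / (q : ℝ)) * (1 + ((q + 1 : ℕ) : ℝ) * (1 / ((q : ℝ) ^ 2 - 1))) = 1 := by
      push_cast; field_simp; ring
    rw [h6, mul_pow, pow_succ (1 - 1 / (q : ℝ)), mul_assoc]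
    refine ih.trans (le_mul_of_one_le_right (pow_nonneg h3.le _) ?_)
    exact h7.symm.trans_le (mul_le_mul_of_nonneg_left h5 h3.le)

end Crest.Agent.R34
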