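import Crest.Agent.R34.Defs
import Crest.Agent.R34.Pi

/-! Row 34: asymptotic toolbox. -/

set_option autoImplicit false
set_option linter.unusedSectionVars false

namespace Crest.Agent.R34

open Finset

open Filter

theorem yy_pow {q : ℕ} (hq : 1 ≤ q) : yy q ^ 3 = Real.log q := by
  rw [yy, ← Real.rpow_natCast, ← Real.rpow_mul (Real.log_natCast_nonneg q)]
  norm_num

theorem ev_yy (C : ℝ) : ∀ᶠ q : ℕ in atTop, C ≤ yy q := by
  exact ((tendsto_rpow_atTop (by norm_num : (0 : ℝ) < 1 / 3)).comp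
    (Real.tendsto_log_atTop.comp tendsto_natCast_atTop_atTop)).eventually_ge_atTop C

theorem ev_eps {c : ℝ} (hc : 0 < c) : ∀ᶠ q : ℕ in atTop, 0 < eps q ∧ eps q ≤ c := by
  filter_upwards [ev_yy 1, ev_yy c⁻¹] with q h1 h2
  refine ⟨by unfold eps; positivity, ?_⟩
  rw [eps, one_div]
  exact inv_le_of_inv_le₀ hc (by nlinarith)

theorem ev_pow (C : ℝ) (k : ℕ) {a : ℝ} (ha : 0 < a) :
    ∀ᶠ q : ℕ in atTop, C * yy q ^ k ≤ (q : ℝ) ^ a := by
  have h := ((isLittleO_log_rpow_rpow_atTop ((1 / 3 : ℝ) * k) ha).comp_tendsto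
    (tendsto_natCast_atTop_atTop (R := ℝ))).bound (c := (|C| + 1)⁻¹) (by positivity)
  filter_upwards [h] with q hq
  have h0 := Real.log_natCast_nonneg q
  simp only [Function.comp] at hq
  rw [Real.norm_of_nonneg (by positivity), Real.norm_of_nonneg (by positivity),
    Real.rpow_mul h0, Real.rpow_natCast, ← div_eq_inv_mul, le_div_iff₀ (by positivity)] at hq
  have h1 : 0 ≤ yy q ^ k := by unfold yy; positivity
  refine le_trans ?_ hq
  rw [mul_comm]
  exact mul_le_mul_of_nonneg_left (by linarith [le_abs_self C]) h1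

theorem ev_rpow (C : ℝ) {a b : ℝ} (hab : a < b) :
    ∀ᶠ q : ℕ in atTop, C * (q : ℝ) ^ a ≤ (q : ℝ) ^ b := by
  filter_upwards [((tendsto_rpow_atTop (sub_pos.2 hab)).comp
    (tendsto_natCast_atTop_atTop (R := ℝ))).eventually_ge_atTop C, eventually_gt_atTop 0]
    with q h1 h2
  have hq : (0 : ℝ) < q := by exact_mod_cast h2
  calc _ ≤ (q : ℝ) ^ (b - a) * (q : ℝ) ^ a := mul_le_mul_of_nonneg_right h1 (by positivity)
    _ = _ := by rw [← Real.rpow_add hq, sub_add_cancel]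

theorem ev_exp (C : ℝ) (k : ℕ) {c a η : ℝ} (hc : 0 < c) (ha : 0 < a) (hη : 0 < η) :
    ∀ᶠ q : ℕ in atTop, C * (q : ℝ) ^ k * Real.exp (-(c * (q : ℝ) ^ a)) ≤ η := by
  have h := ((tendsto_rpow_mul_exp_neg_mul_atTop_nhds_zero (k / a) c hc).comp
    ((tendsto_rpow_atTop ha).comp (tendsto_natCast_atTop_atTop (R := ℝ)))).const_mul C
  rw [mul_zero] at h
  filter_upwards [h.eventually_le_const hη] with q hq
  simp only [Function.comp] at hq
  rw [← Real.rpow_mul (Nat.cast_nonneg q), mul_div_cancel₀ _ ha.ne', Real.rpow_natCast,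
    neg_mul] at hq
  rwa [mul_assoc]

theorem ev_dev {c : ℝ} (hc : 0 < c) (C : ℝ) :
    ∀ᶠ q : ℕ in atTop, C ≤ dev q ∧ dev q ≤ c * q := by
  filter_upwards [ev_rpow C (by norm_num : (0 : ℝ) < 3 / 4),
    ev_rpow c⁻¹ (by norm_num : (3 / 4 : ℝ) < 1)] with q h1 h2
  rw [Real.rpow_zero, mul_one] at h1
  rw [Real.rpow_one, inv_mul_le_iff₀ hc] at h2
  exact ⟨h1, h2⟩

theorem del_ge (K : ℕ) {q : ℕ} (hq : 2 ≤ q) : (1 / 4 : ℝ) ^ K ≤ del K q := by
  have hq' : (2 : ℝ) ≤ q := by exact_mod_cast hq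
  have h0 : 1 / (q : ℝ) ≤ 1 := by rw [div_le_one (by linarith)]; linarith
  have h1 := one_add_mul_self_le_rpow_one_add (s := -(1 / (q : ℝ))) (by linarith)
    (p := (q : ℝ) / 2) (by linarith)
  have h2 : 1 + (q : ℝ) / 2 * -(1 / (q : ℝ)) = 1 / 2 := by field_simp; ring
  rw [h2, ← sub_eq_add_neg] at h1
  have h3 := pow_le_pow_left₀ (by norm_num) h1 2
  rw [← Real.rpow_natCast (_ ^ _), ← Real.rpow_mul (by linarith), Nat.cast_ofNat,
    div_mul_cancel₀ _ two_ne_zero, Real.rpow_natCast] at h3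
  rw [del, mul_comm, pow_mul]
  exact pow_le_pow_left₀ (by norm_num) (by linarith) K

theorem del_le_one (K : ℕ) {q : ℕ} (hq : 1 ≤ q) : del K q ≤ 1 := by
  have hq' : (1 : ℝ) ≤ q := by exact_mod_cast hq
  have h0 : 1 / (q : ℝ) ≤ 1 := by rw [div_le_one (by linarith)]; linarith
  have h1 : 0 ≤ 1 / (q : ℝ) := by positivity
  exact pow_le_one₀ (by linarith) (by linarith)

/-- The bound of `conc` with `s = dev q`, times a polynomial. -/
theorem ev_conc {K : ℕ} (hK : 0 < K) (C : ℝ) (k : ℕ) :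
    ∀ᶠ q : ℕ in atTop, C * (q : ℝ) ^ k *
      (2 * Real.exp (-(dev q ^ 2 / (2 * ((K * (q + 1) : ℕ) : ℝ) * 2 ^ 2)))) ≤ 1 / 20 := by
  have hK' : (0 : ℝ) < K := by exact_mod_cast hK
  filter_upwards [ev_exp (2 * |C|) k (c := 1 / (16 * K)) (a := 1 / 2) (η := 1 / 20)
    (by positivity) (by norm_num) (by norm_num), eventually_ge_atTop 1] with q h1 h2
  have hq : (1 : ℝ) ≤ q := by exact_mod_cast h2
  refine le_trans ?_ h1
  have e : dev q ^ 2 = (q : ℝ) ^ (1 / 2 : ℝ) * q := by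
    rw [dev, ← Real.rpow_natCast, ← Real.rpow_mul (by linarith),
      ← Real.rpow_add_one (by linarith)]
    norm_num
  have h3 : 1 / (16 * K) * (q : ℝ) ^ (1 / 2 : ℝ) ≤
      dev q ^ 2 / (2 * ((K * (q + 1) : ℕ) : ℝ) * 2 ^ 2) := by
    have hs : 0 ≤ (q : ℝ) ^ (1 / 2 : ℝ) := by positivity
    rw [e, le_div_iff₀ (by positivity)]
    push_cast
    calc _ = (q : ℝ) ^ (1 / 2 : ℝ) * ((q + 1) / 2) := by field_simp; ring
      _ ≤ _ := by gcongr; linarith
  calc _ ≤ |C| * (q : ℝ) ^ k * (2 * Real.exp (-(1 / (16 * K) * (q : ℝ) ^ (1 / 2 : ℝ)))) := by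
        gcongr
        exact le_abs_self C
    _ = _ := by ring

end Crest.Agent.R34
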