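import Mathlib

/-! Row 34 (Ryser counterexample): uniform probability on finite types, and the affine plane. -/

set_option autoImplicit false
set_option linter.unusedSectionVars false

namespace Crest.Agent.R34

open Finset

/-- `Finset.filter` with a classical decidability instance. -/
noncomputable def flt {α : Type} (s : Finset α) (P : α → Prop) : Finset α := by
  classical exact s.filter P

@[simp] theorem mem_flt {α : Type} {s : Finset α} {P : α → Prop} {a : α} :
    a ∈ flt s P ↔ a ∈ s ∧ P a := by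
  unfold flt; simp

theorem flt_eq {α : Type} (s : Finset α) (P : α → Prop) [DecidablePred P] :
    flt s P = s.filter P := by
  ext a; simp

theorem flt_subset {α : Type} (s : Finset α) (P : α → Prop) : flt s P ⊆ s :=
  fun _ h => (mem_flt.1 h).1

/-- Uniform probability. -/
noncomputable def Pr {α : Type} [Fintype α] (P : α → Prop) : ℝ :=
  ((flt univ P).card : ℝ) / Fintype.card α

/-- Uniform expectation. -/
noncomputable def Ex {α : Type} [Fintype α] (f : α → ℝ) : ℝ := (∑ a, f a) / Fintype.card α

section Prob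

variable {α : Type} [Fintype α]

theorem Pr_nonneg (P : α → Prop) : 0 ≤ Pr P := by unfold Pr; positivity

theorem Pr_mono {P Q : α → Prop} (h : ∀ a, P a → Q a) : Pr P ≤ Pr Q := by
  unfold Pr
  refine div_le_div_of_nonneg_right ?_ (by positivity)
  exact_mod_cast card_le_card fun a ha => by
    simp only [mem_flt, mem_univ, true_and] at ha ⊢; exact h a ha

theorem Pr_congr {P Q : α → Prop} (h : ∀ a, P a ↔ Q a) : Pr P = Pr Q :=
  le_antisymm (Pr_mono fun a => (h a).1) (Pr_mono fun a => (h a).2)

theorem Pr_le_one (P : α → Prop) : Pr P ≤ 1 := by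
  unfold Pr
  refine div_le_one_of_le₀ ?_ (by positivity)
  exact_mod_cast card_le_univ _

theorem Pr_false {P : α → Prop} (h : ∀ a, ¬ P a) : Pr P = 0 := by
  unfold Pr
  have : flt univ P = ∅ := by ext a; simp [h a]
  simp [this]

theorem Pr_true [Nonempty α] {P : α → Prop} (h : ∀ a, P a) : Pr P = 1 := by
  unfold Pr
  have : flt univ P = univ := by ext a; simp [h a]
  rw [this, card_univ, div_self]
  exact_mod_cast Fintype.card_ne_zero

theorem Pr_eq_Ex (P : α → Prop) [DecidablePred P] :
    Pr P = Ex (fun a => if P a then (1 : ℝ) else 0) := by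
  unfold Pr Ex; rw [flt_eq]; simp

theorem Pr_or_le (P Q : α → Prop) : Pr (fun a => P a ∨ Q a) ≤ Pr P + Pr Q := by
  classical
  unfold Pr
  rw [← add_div]
  refine div_le_div_of_nonneg_right ?_ (by positivity)
  have : flt univ (fun a => P a ∨ Q a) = flt univ P ∪ flt univ Q := by ext a; simp
  rw [this]
  exact_mod_cast card_union_le _ _

theorem Pr_not [Nonempty α] (P : α → Prop) : Pr (fun a => ¬ P a) = 1 - Pr P := by
  classical
  unfold Pr
  have h : (0 : ℝ) < Fintype.card α := by exact_mod_cast Fintype.card_pos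
  have h2 := Finset.card_filter_add_card_filter_not (s := (univ : Finset α)) P
  rw [flt_eq, flt_eq, eq_sub_iff_add_eq, ← add_div, div_eq_one_iff_eq h.ne']
  rw [card_univ] at h2
  rw [add_comm]
  exact_mod_cast h2

/-- Union bound. -/
theorem Pr_exists_le {κ : Type} (s : Finset κ) (P : κ → α → Prop) :
    Pr (fun a => ∃ k ∈ s, P k a) ≤ ∑ k ∈ s, Pr (P k) := by
  classical
  induction s using Finset.induction_on with
  | empty => rw [Pr_false (by simp)]; simp
  | insert k s hk ih =>
    rw [sum_insert hk]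
    calc _ ≤ Pr (fun a => P k a ∨ ∃ k ∈ s, P k a) := Pr_mono fun a ha => by simpa using ha
      _ ≤ _ := (Pr_or_le _ _).trans (by linarith)

theorem Pr_exists_le_card {κ : Type} (s : Finset κ) (P : κ → α → Prop) (b : ℝ)
    (h : ∀ k ∈ s, Pr (P k) ≤ b) : Pr (fun a => ∃ k ∈ s, P k a) ≤ s.card * b :=
  (Pr_exists_le s P).trans (by simpa using sum_le_card_nsmul s _ b h)

theorem Pr_exists_le_univ {κ : Type} [Fintype κ] (P : κ → α → Prop) (b : ℝ)
    (h : ∀ k, Pr (P k) ≤ b) : Pr (fun a => ∃ k, P k a) ≤ Fintype.card κ * b := by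
  have := Pr_exists_le_card (univ : Finset κ) P b fun k _ => h k
  rw [card_univ] at this
  exact (Pr_mono fun a ha => by simpa using ha).trans this

theorem exists_not_of_Pr_lt_one [Nonempty α] {P : α → Prop} (h : Pr P < 1) : ∃ a, ¬ P a := by
  by_contra hn
  push Not at hn
  rw [Pr_true hn] at h
  exact lt_irrefl _ h

theorem Ex_mono {f g : α → ℝ} (h : ∀ a, f a ≤ g a) : Ex f ≤ Ex g :=
  div_le_div_of_nonneg_right (sum_le_sum fun a _ => h a) (by positivity)

theorem Ex_const [Nonempty α] (c : ℝ) : Ex (fun _ : α => c) = c := by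
  have h : (0 : ℝ) < Fintype.card α := by exact_mod_cast Fintype.card_pos
  unfold Ex; simp

theorem Ex_add (f g : α → ℝ) : Ex (fun a => f a + g a) = Ex f + Ex g := by
  unfold Ex; rw [sum_add_distrib, add_div]

theorem Ex_sub (f g : α → ℝ) : Ex (fun a => f a - g a) = Ex f - Ex g := by
  unfold Ex; rw [sum_sub_distrib, sub_div]

theorem Ex_mul (c : ℝ) (f : α → ℝ) : Ex (fun a => c * f a) = c * Ex f := by
  unfold Ex; rw [← mul_sum, mul_div_assoc]

theorem Ex_neg (f : α → ℝ) : Ex (fun a => -f a) = -Ex f := by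
  unfold Ex; rw [sum_neg_distrib, neg_div]

theorem Ex_sum {κ : Type} (s : Finset κ) (f : κ → α → ℝ) :
    Ex (fun a => ∑ k ∈ s, f k a) = ∑ k ∈ s, Ex (f k) := by
  unfold Ex; rw [sum_comm, sum_div]

/-- Expected size of a random subset. -/
theorem Ex_card_flt {X : Type} (S : Finset X) (P : X → α → Prop) :
    Ex (fun a => ((flt S fun x => P x a).card : ℝ)) = ∑ x ∈ S, Pr (P x) := by
  classical
  simp only [Pr_eq_Ex]
  rw [← Ex_sum]
  congr 1
  funext a
  rw [flt_eq]; simp

/-- Markov's inequality. -/
theorem Pr_markov (f : α → ℝ) (hf : ∀ a, 0 ≤ f a) {s : ℝ} (hs : 0 < s) :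
    Pr (fun a => s ≤ f a) ≤ Ex f / s := by
  classical
  rw [Pr_eq_Ex, le_div_iff₀ hs, mul_comm, ← Ex_mul]
  refine Ex_mono fun a => ?_
  split_ifs with h
  · simpa using h
  · simpa using hf a

end Prob

/-! ### The affine plane over `F` -/

abbrev Pt (F : Type) := F × F
/-- Directions: `none` is vertical, `some a` has slope `a`. -/
abbrev Dir (F : Type) := Option F
/-- A line is a direction and an offset. -/
abbrev Line (F : Type) := Option F × F

variable {F : Type} [Field F] [Fintype F] [DecidableEq F]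

/-- The linear form that is constant on the lines of a direction. -/
def pr : Dir F → Pt F → F
  | none, p => p.1
  | some a, p => p.2 - a * p.1

def On (p : Pt F) (l : Line F) : Prop := pr l.1 p = l.2

instance (p : Pt F) (l : Line F) : Decidable (On p l) := inferInstanceAs (Decidable (_ = _))

/-- The points of a line. -/
def pts (l : Line F) : Finset (Pt F) := univ.filter fun p => On p l

/-- The points on no line of `L`. -/
noncomputable def unc (L : Finset (Line F)) : Finset (Pt F) := flt univ fun p => ∀ l ∈ L, ¬ On p l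

/-- The number of points of `l` that lie on a line of `L` other than `l`. -/
noncomputable def cov (L : Finset (Line F)) (l : Line F) : ℕ :=
  (flt (pts l) fun p => ∃ l' ∈ L, l' ≠ l ∧ On p l').card

/-- A line passes through a projective point (an affine point, or a direction). -/
def Thr (l : Line F) : Pt F ⊕ Dir F → Prop
  | .inl p => On p l
  | .inr d => l.1 = d

/-- A direction vector. -/
def vec : Dir F → Pt F
  | none => (0, 1)
  | some a => (1, a)

/-- A point of a line. -/
def base : Line F → Pt F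
  | (none, c) => (c, 0)
  | (some _, c) => (0, c)

@[simp] theorem mem_pts {p : Pt F} {l : Line F} : p ∈ pts l ↔ On p l := by simp [pts]

@[simp] theorem mem_unc {p : Pt F} {L : Finset (Line F)} : p ∈ unc L ↔ ∀ l ∈ L, ¬ On p l := by
  simp [unc]

theorem on_mk {p : Pt F} {d : Dir F} {c : F} : On p (d, c) ↔ pr d p = c := Iff.rfl

theorem on_self (p : Pt F) (d : Dir F) : On p (d, pr d p) := rfl

theorem pr_add (d : Dir F) (p p' : Pt F) : pr d (p + p') = pr d p + pr d p' := by
  cases d <;> simp [pr]; ring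

theorem pr_sub (d : Dir F) (p p' : Pt F) : pr d (p - p') = pr d p - pr d p' := by
  cases d <;> simp [pr]; ring

theorem pr_smul (d : Dir F) (u : F) (p : Pt F) : pr d (u • p) = u * pr d p := by
  cases d <;> simp [pr]; ring

theorem pr_vec (d : Dir F) : pr d (vec d) = 0 := by cases d <;> simp [pr, vec]

theorem vec_ne_zero (d : Dir F) : (vec d : Pt F) ≠ 0 := by cases d <;> simp [vec]

theorem on_base (l : Line F) : On (base l) l := by
  obtain ⟨d, c⟩ := l
  cases d <;> simp [On, pr, base]

/-- Two different directions separate points. -/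
theorem eq_of_pr {d d' : Dir F} (h : d ≠ d') {p p' : Pt F} (h1 : pr d p = pr d p')
    (h2 : pr d' p = pr d' p') : p = p' := by
  obtain ⟨x, y⟩ := p
  obtain ⟨x', y'⟩ := p'
  rcases d with _ | a <;> rcases d' with _ | a' <;> simp only [pr] at h1 h2
  · exact absurd rfl h
  · subst h1; simpa using h2
  · subst h2; simpa using h1
  · have hne : a - a' ≠ 0 := sub_ne_zero.2 fun e => h (by rw [e])
    have hx : x = x' := by
      have : (a - a') * (x - x') = 0 := by linear_combination h2 - h1
      exact sub_eq_zero.1 ((mul_eq_zero.1 this).resolve_left hne)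
    subst hx; simpa using h1

/-- A nonzero vector has one direction. -/
theorem pr_ne_zero {d d' : Dir F} (h : d ≠ d') {v : Pt F} (hv : v ≠ 0) (h0 : pr d v = 0) :
    pr d' v ≠ 0 := fun h1 => by
  have z : ∀ e : Dir F, pr e (0 : Pt F) = 0 := fun e => by cases e <;> simp [pr]
  exact hv (eq_of_pr h (h0.trans (z d).symm) (h1.trans (z d').symm))

theorem pr_vec_ne {d d' : Dir F} (h : d ≠ d') : pr d' (vec d) ≠ 0 :=
  pr_ne_zero h (vec_ne_zero d) (pr_vec d)

theorem exists_meet {l l' : Line F} (h : l.1 ≠ l'.1) : ∃ p, On p l ∧ On p l' := by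
  refine ⟨base l + ((l'.2 - pr l'.1 (base l)) / pr l'.1 (vec l.1)) • vec l.1, ?_, ?_⟩
  · have := on_base l
    unfold On at *
    rw [pr_add, pr_smul, pr_vec, this]; ring
  · have := pr_vec_ne h
    unfold On
    rw [pr_add, pr_smul]; field_simp; ring

theorem exists_dir (p p' : Pt F) : ∃ d : Dir F, pr d p = pr d p' := by
  by_cases h : p.1 = p'.1
  · exact ⟨none, h⟩
  · refine ⟨some ((p.2 - p'.2) / (p.1 - p'.1)), ?_⟩
    have := sub_ne_zero.2 h
    simp only [pr]; field_simp; ring

theorem line_eq_of_dir {l l' : Line F} (h : l.1 = l'.1) {p : Pt F} (h1 : On p l) (h2 : On p l') :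
    l = l' := Prod.ext h (by unfold On at *; rw [← h1, ← h2, h])

/-- Two different lines share at most one point. -/
theorem eq_of_on {l l' : Line F} (h : l ≠ l') {p p' : Pt F} (h1 : On p l) (h2 : On p l')
    (h3 : On p' l) (h4 : On p' l') : p = p' := by
  by_cases hd : l.1 = l'.1
  · exact absurd (line_eq_of_dir hd h1 h2) h
  · exact eq_of_pr hd (h1.trans h3.symm) (h2.trans h4.symm)

theorem card_inter_le_one {l l' : Line F} (h : l ≠ l') : (pts l ∩ pts l').card ≤ 1 :=
  card_le_one.2 fun p hp p' hp' => by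
    simp only [mem_inter, mem_pts] at hp hp'
    exact eq_of_on h hp.1 hp.2 hp'.1 hp'.2

theorem par_inj {v : Pt F} (hv : v ≠ 0) (a : Pt F) : Function.Injective fun u : F => a + u • v :=
  fun u u' h => by
    have h1 : (u - u') • v = 0 := by
      rw [sub_smul]; exact sub_eq_zero.2 (add_left_cancel h)
    exact sub_eq_zero.1 ((smul_eq_zero.1 h1).resolve_right hv)

theorem on_par (l : Line F) (u : F) : On (base l + u • vec l.1) l := by
  have := on_base l
  unfold On at *
  rw [pr_add, pr_smul, pr_vec, this]; ring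

theorem exists_par {l : Line F} {p : Pt F} (h : On p l) : ∃ u : F, p = base l + u • vec l.1 := by
  obtain ⟨d, c⟩ := l
  obtain ⟨x, y⟩ := p
  rcases d with _ | a <;> simp only [On, pr] at h
  · exact ⟨y, by simp [base, vec, h]⟩
  · exact ⟨x, by simp [base, vec, ← h]; ring⟩

theorem pts_eq_image (l : Line F) : pts l = univ.image fun u : F => base l + u • vec l.1 := by
  ext p
  simp only [mem_pts, mem_image, mem_univ, true_and]
  exact ⟨fun h => (exists_par h).imp fun _ e => e.symm, fun ⟨u, e⟩ => e ▸ on_par l u⟩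

theorem card_pts (l : Line F) : (pts l).card = Fintype.card F := by
  rw [pts_eq_image, card_image_of_injective _ (par_inj (vec_ne_zero _) _), card_univ]

theorem card_dir : Fintype.card (Dir F) = Fintype.card F + 1 := Fintype.card_option

theorem card_line : Fintype.card (Line F) = (Fintype.card F + 1) * Fintype.card F := by
  rw [Fintype.card_prod, Fintype.card_option]

theorem card_pt : Fintype.card (Pt F) = Fintype.card F ^ 2 := by rw [Fintype.card_prod, sq]

theorem two_le_q : (2 : ℝ) ≤ Fintype.card F := by exact_mod_cast Fintype.one_lt_card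

theorem card_line_le : (Fintype.card (Line F) : ℝ) + 1 ≤ 2 * (Fintype.card F : ℝ) ^ 2 := by
  have := two_le_q (F := F)
  rw [card_line]; push_cast; nlinarith

/-- The lines through a point. -/
theorem filter_on (p : Pt F) :
    (univ.filter fun l : Line F => On p l) = univ.image fun d : Dir F => (d, pr d p) := by
  ext ⟨d, c⟩
  simp only [mem_filter, mem_univ, true_and, mem_image, Prod.mk.injEq, On]
  exact ⟨fun h => ⟨d, rfl, h⟩, fun ⟨_, h1, h2⟩ => h1 ▸ h2⟩

theorem card_thru (p : Pt F) : (univ.filter fun l : Line F => On p l).card = Fintype.card F + 1 := by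
  rw [filter_on, card_image_of_injective _ fun d d' h => (Prod.ext_iff.1 h).1, card_univ, card_dir]

theorem card_thru_two {p p' : Pt F} (h : p ≠ p') :
    (univ.filter fun l : Line F => On p l ∧ On p' l).card = 1 := by
  obtain ⟨d, hd⟩ := exists_dir p p'
  refine card_eq_one.2 ⟨(d, pr d p), ?_⟩
  ext l
  simp only [mem_filter, mem_univ, true_and, mem_singleton]
  refine ⟨fun ⟨h1, h2⟩ => ?_, fun e => e ▸ ⟨rfl, hd.symm⟩⟩
  by_contra hne
  exact h (eq_of_on hne h1 (on_self p d) h2 hd.symm)

/-- Second moment of line sums (expander mixing). -/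
theorem mix (w : Pt F → ℝ) :
    ∑ l : Line F, ((∑ p ∈ pts l, w p) - (∑ p, w p) / Fintype.card F) ^ 2 ≤
      Fintype.card F * ∑ p, w p ^ 2 := by
  have hq : (0 : ℝ) < Fintype.card F := by linarith [two_le_q (F := F)]
  set q : ℝ := (Fintype.card F : ℝ) with hqd
  set W := ∑ p, w p with hW
  have e0 : ∀ l : Line F, ∑ p ∈ pts l, w p = ∑ p, if On p l then w p else 0 := fun l => by
    rw [pts, sum_filter]
  have e1 : ∑ l : Line F, ∑ p ∈ pts l, w p = (q + 1) * W := by
    simp only [e0]
    rw [sum_comm, hW, mul_sum]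
    refine sum_congr rfl fun p _ => ?_
    rw [← sum_filter, sum_const, card_thru]; simp [hqd]
  have e2 : ∑ l : Line F, (∑ p ∈ pts l, w p) ^ 2 = q * ∑ p, w p ^ 2 + W ^ 2 := by
    have : ∀ l : Line F, (∑ p ∈ pts l, w p) ^ 2 =
        ∑ p, ∑ p', if On p l ∧ On p' l then w p * w p' else 0 := fun l => by
      rw [e0, sq, sum_mul_sum]
      refine sum_congr rfl fun p _ => sum_congr rfl fun p' _ => ?_
      by_cases h1 : On p l <;> by_cases h2 : On p' l <;> simp [h1, h2]
    simp only [this]
    rw [sum_comm, hW, sq (∑ p, w p), sum_mul_sum, mul_sum, ← sum_add_distrib]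
    refine sum_congr rfl fun p _ => ?_
    rw [sum_comm]
    have : ∀ p', ∑ l : Line F, (if On p l ∧ On p' l then w p * w p' else 0) =
        (if p = p' then q * w p ^ 2 else 0) + w p * w p' := fun p' => by
      rw [← sum_filter, sum_const]
      by_cases h : p = p'
      · subst h
        simp only [and_self, card_thru, if_true, hqd]; simp; ring
      · rw [card_thru_two h]; simp [h]
    simp only [this]
    rw [sum_add_distrib]; simp
  have e3 : ∑ l : Line F, ((∑ p ∈ pts l, w p) - W / q) ^ 2 =
      ∑ l : Line F, (∑ p ∈ pts l, w p) ^ 2 - 2 * (W / q) * ∑ l : Line F, ∑ p ∈ pts l, w p +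
        ((q + 1) * q) * (W / q) ^ 2 := by
    rw [mul_sum, ← sum_sub_distrib]
    have : ((q + 1) * q) * (W / q) ^ 2 = ∑ _l : Line F, (W / q) ^ 2 := by
      rw [sum_const, card_univ, card_line]; simp [hqd]
    rw [this, ← sum_add_distrib]
    exact sum_congr rfl fun l _ => by ring
  rw [e3, e1, e2]
  have : W ^ 2 - 2 * (W / q) * ((q + 1) * W) + (q + 1) * q * (W / q) ^ 2 = -(W ^ 2 / q) := by
    field_simp; ring
  have h2 : 0 ≤ W ^ 2 / q := by positivity
  linarith

/-- Few lines deviate from the average. -/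
theorem few_atyp (w : Pt F → ℝ) (A : Finset (Line F)) {a : ℝ} (ha : 0 ≤ a)
    (h : ∀ l ∈ A, a ≤ |(∑ p ∈ pts l, w p) - (∑ p, w p) / Fintype.card F|) :
    A.card * a ^ 2 ≤ Fintype.card F * ∑ p, w p ^ 2 := by
  refine le_trans ?_ (mix w)
  calc (A.card : ℝ) * a ^ 2 = ∑ _l ∈ A, a ^ 2 := by simp
    _ ≤ ∑ l ∈ A, ((∑ p ∈ pts l, w p) - (∑ p, w p) / Fintype.card F) ^ 2 :=
        sum_le_sum fun l hl => by
          rw [← sq_abs (_ - _)]; exact pow_le_pow_left₀ ha (h l hl) 2
    _ ≤ _ := sum_le_sum_of_subset_of_nonneg (subset_univ _) fun _ _ _ => sq_nonneg _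

/-- The same for a set of points. -/
theorem few_atyp_set (R : Finset (Pt F)) (A : Finset (Line F)) {a : ℝ} (ha : 0 ≤ a)
    (h : ∀ l ∈ A, a ≤ |((pts l ∩ R).card : ℝ) - (R.card : ℝ) / Fintype.card F|) :
    A.card * a ^ 2 ≤ Fintype.card F * R.card := by
  have := few_atyp (fun p => if p ∈ R then (1 : ℝ) else 0) A ha fun l hl => by
    have e1 : ∑ p ∈ pts l, (if p ∈ R then (1 : ℝ) else 0) = (pts l ∩ R).card := by
      rw [← filter_mem_eq_inter, card_filter]; simp
    have e2 : ∑ p, (if p ∈ R then (1 : ℝ) else 0) = R.card := by simp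
    rw [e1, e2]; exact h l hl
  simpa using this

end Crest.Agent.R34
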