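import Crest.Agent.R34.Defs
import Crest.Agent.R34.Pi

/-! Row 34: batches of random lines, and heavy lines. -/

set_option autoImplicit false
set_option linter.unusedSectionVars false

namespace Crest.Agent.R34

open Finset

variable {F : Type} [Field F] [Fintype F] [DecidableEq F]
variable {Λ : Type} [Fintype Λ] [DecidableEq Λ]

/-- The points of `U` that survive the batches before `b`. -/
noncomputable def rem {ι : Type} {J : ℕ} (bat : ι → Fin J) (l : ι → Line F) (U : Finset (Pt F))
    (b : ℕ) : Finset (Pt F) := flt U fun x => ∀ t, (bat t : ℕ) < b → ¬ On x (l t)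

/-- The lines with more than twice the average number of points of `R`. -/
noncomputable def heavy (R : Finset (Pt F)) : Finset (Line F) :=
  flt univ fun l => 2 * R.card < Fintype.card F * (pts l ∩ R).card

/-- `few_atyp_set` with `a = |R| / q`. -/
theorem card_heavy (R : Finset (Pt F)) (hR : R.Nonempty) :
    ((heavy R).card : ℝ) * R.card ≤ (Fintype.card F : ℝ) ^ 3 := by
  have hq : (0 : ℝ) < Fintype.card F := by linarith [two_le_q (F := F)]
  have hr : (0 : ℝ) < R.card := by exact_mod_cast hR.card_pos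
  have h := few_atyp_set R (heavy R) (a := R.card / Fintype.card F) (by positivity) fun l hl => by
    have h1 : (2 * R.card : ℝ) < Fintype.card F * (pts l ∩ R).card := by
      exact_mod_cast (mem_flt.1 hl).2
    refine le_trans ?_ (le_abs_self _)
    rw [le_sub_iff_add_le, ← add_div, div_le_iff₀ hq]
    linarith
  rw [div_pow, ← mul_div_assoc, div_le_iff₀ (by positivity)] at h
  refine le_of_mul_le_mul_right ?_ hr
  nlinarith

/-- With `r b = |rem b|` and `h b` the number of heavy lines of batch `b`: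
`r (b+1) ≥ r b - (q/4)(2 r b / q) - q h b`.  If `4 q h b < r b` then `r b < 4 r (b+1)`.  Since
`r 0 = |U| > 0` and `r J = 0`, take the first `b` with `r b ≤ 4 q h b`. -/
theorem batch {ι : Type} [Fintype ι] {J : ℕ} (bat : ι → Fin J) (l : ι → Line F)
    (hb : ∀ b, 4 * (flt univ fun t => bat t = b).card ≤ Fintype.card F) (U : Finset (Pt F))
    (hU : ∀ x ∈ U, ∃ t, On x (l t)) (hne : U.Nonempty) :
    ∃ b : Fin J, U.card ≤ 4 ^ J * (rem bat l U b).card ∧
      (rem bat l U b).card ≤ 4 * Fintype.card F *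
        (flt univ fun t => bat t = b ∧ l t ∈ heavy (rem bat l U b)).card := by
  classical
  by_contra hn
  push Not at hn
  have hq : 0 < Fintype.card F := Fintype.card_pos
  have step : ∀ b : Fin J, 4 * Fintype.card F *
      (flt univ fun t => bat t = b ∧ l t ∈ heavy (rem bat l U b)).card < (rem bat l U b).card →
      (rem bat l U b).card ≤ 4 * (rem bat l U (b + 1)).card := fun b hlt => by
    set R := rem bat l U b with hR
    set B := flt univ fun t => bat t = b with hB
    have h1 : R ⊆ rem bat l U (b + 1) ∪ B.biUnion fun t => pts (l t) ∩ R := by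
      intro x hx
      by_cases h : ∃ t, bat t = b ∧ On x (l t)
      · obtain ⟨t, h1, h2⟩ := h
        exact mem_union_right _ (mem_biUnion.2 ⟨t, mem_flt.2 ⟨mem_univ _, h1⟩,
          mem_inter.2 ⟨mem_pts.2 h2, hx⟩⟩)
      · refine mem_union_left _ (mem_flt.2 ⟨(mem_flt.1 hx).1, fun t ht ho => ?_⟩)
        rcases Nat.lt_succ_iff_lt_or_eq.1 ht with h2 | h2
        · exact (mem_flt.1 hx).2 t h2 ho
        · exact h ⟨t, Fin.ext h2, ho⟩
    have h2 : R.card ≤ (rem bat l U (b + 1)).card + ∑ t ∈ B, (pts (l t) ∩ R).card :=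
      (card_le_card h1).trans ((card_union_le _ _).trans (Nat.add_le_add_left card_biUnion_le _))
    have h3 : Fintype.card F * ∑ t ∈ B, (pts (l t) ∩ R).card ≤ B.card * (2 * R.card) +
        (flt univ fun t => bat t = b ∧ l t ∈ heavy R).card * (Fintype.card F * Fintype.card F) := by
      have e : (flt univ fun t => bat t = b ∧ l t ∈ heavy R) = B.filter fun t => l t ∈ heavy R := by
        ext t; simp [hB]
      rw [e, mul_sum, ← smul_eq_mul, ← smul_eq_mul (B.filter _).card, ← sum_const, ← sum_const,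
        sum_filter, ← sum_add_distrib]
      refine sum_le_sum fun t _ => ?_
      split_ifs with h
      · have : (pts (l t) ∩ R).card ≤ Fintype.card F :=
          (card_le_card inter_subset_left).trans_eq (card_pts _)
        nlinarith
      · have : ¬ 2 * R.card < Fintype.card F * (pts (l t) ∩ R).card := fun k =>
          h (mem_flt.2 ⟨mem_univ _, k⟩)
        omega
    have h4 := hb b
    rw [← hB] at h4
    refine Nat.le_of_mul_le_mul_left ?_ hq
    nlinarith
  have key : ∀ b, b ≤ J → U.card ≤ 4 ^ b * (rem bat l U b).card := fun b hbJ => by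
    induction b with
    | zero =>
      rw [pow_zero, one_mul]
      exact card_le_card fun x hx => mem_flt.2 ⟨hx, fun t ht => absurd ht (Nat.not_lt_zero _)⟩
    | succ b ih =>
      have h1 := ih (by omega)
      have h2 : U.card ≤ 4 ^ J * (rem bat l U b).card :=
        h1.trans (Nat.mul_le_mul_right _ (Nat.pow_le_pow_right (by norm_num) (by omega)))
      have h3 := step ⟨b, hbJ⟩ (hn ⟨b, hbJ⟩ h2)
      calc U.card ≤ 4 ^ b * (rem bat l U b).card := h1
        _ ≤ 4 ^ b * (4 * (rem bat l U (b + 1)).card) := Nat.mul_le_mul_left _ h3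
        _ = _ := by ring
  have h0 : rem bat l U J = ∅ := by
    refine eq_empty_of_forall_notMem fun x hx => ?_
    obtain ⟨t, ht⟩ := hU x (mem_flt.1 hx).1
    exact (mem_flt.1 hx).2 t (bat t).is_lt ht
  have := key J le_rfl
  rw [h0, card_empty, mul_zero] at this
  exact absurd hne.card_pos (by omega)

/-- Split the directions into five balanced classes (`exists_bal`); a batch is a layer and a
class. -/
theorem exists_bat (hq : 24 ≤ Fintype.card F) :
    ∃ bat : Λ × Dir F → Fin (5 * Fintype.card Λ), ∀ b,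
      4 * (flt univ fun t => bat t = b).card ≤ Fintype.card F ∧
        ∀ t t', bat t = b → bat t' = b → t.2 = t'.2 → t = t' := by
  classical
  obtain ⟨f, hf⟩ := exists_bal (Dir F) (Fin 5)
  have inj : ∀ t t' : Λ × Dir F, finProdFinEquiv (f t.2, Fintype.equivFin Λ t.1) =
      finProdFinEquiv (f t'.2, Fintype.equivFin Λ t'.1) → t.2 = t'.2 → t = t' := fun t t' h h2 =>
    Prod.ext ((Fintype.equivFin Λ).injective (Prod.ext_iff.1 (finProdFinEquiv.injective h)).2) h2
  refine ⟨fun t => finProdFinEquiv (f t.2, Fintype.equivFin Λ t.1), fun b => ⟨?_,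
    fun t t' h h' => inj t t' (h.trans h'.symm)⟩⟩
  have h1 : (flt univ fun t : Λ × Dir F => finProdFinEquiv (f t.2, Fintype.equivFin Λ t.1) = b).card ≤
      (flt univ fun a => f a = (finProdFinEquiv.symm b).1).card := by
    refine card_le_card_of_injOn Prod.snd (fun t ht => ?_) fun t ht t' ht' e => ?_
    · have := (mem_flt.1 ht).2
      exact mem_flt.2 ⟨mem_univ _, by rw [← this, Equiv.symm_apply_apply]⟩
    · exact inj t t' ((mem_flt.1 ht).2.trans (mem_flt.1 ht').2.symm) e
  have h2 := (hf (finProdFinEquiv.symm b).1).2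
  rw [card_dir, Fintype.card_fin] at h2
  beta_reduce
  omega

/-- The chance that a random line of direction `d` is in `D`. -/
theorem Pr_dir (D : Finset (Line F)) (d : Dir F) :
    Pr (fun c : F => (d, c) ∈ D) = ((D.filter fun l => l.1 = d).card : ℝ) / Fintype.card F := by
  unfold Pr
  congr 2
  refine card_bij (fun c _ => (d, c)) (fun c hc => ?_) (fun c _ c' _ e => (Prod.ext_iff.1 e).2)
    fun l hl => ?_
  · exact mem_filter.2 ⟨(mem_flt.1 hc).2, rfl⟩
  · obtain ⟨h1, rfl⟩ := mem_filter.1 hl
    exact ⟨l.2, mem_flt.2 ⟨mem_univ _, h1⟩, rfl⟩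

/-- `Pr_pi_on` gives `∏ t ∈ H, a t / q` with `a t` the number of lines of `Hv` of direction `t.2`;
`∑ a t ≤ M` since the directions differ; `prod_le_avg_pow`. -/
theorem Pr_all_mem (H : Finset (Λ × Dir F)) (hH : ∀ t ∈ H, ∀ t' ∈ H, t.2 = t'.2 → t = t')
    (Hv : Finset (Line F)) {M : ℝ} (hM : (Hv.card : ℝ) ≤ M) :
    Pr (fun ω : Cfg Λ F => ∀ t ∈ H, ln ω t ∈ Hv) ≤ (M / (H.card * Fintype.card F)) ^ H.card := by
  classical
  have hq : (0 : ℝ) < Fintype.card F := by linarith [two_le_q (F := F)]
  have h1 := Pr_pi_on (α := fun _ : Λ × Dir F => F) H fun t c => (t.2, c) ∈ Hv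
  refine h1.trans_le ?_
  rw [mul_comm, ← div_div]
  refine prod_le_avg_pow H _ (fun t _ => Pr_nonneg _) ?_
  simp only [Pr_dir]
  rw [← sum_div]
  refine div_le_div_of_nonneg_right (le_trans ?_ hM) hq.le
  rw [← Nat.cast_sum, Nat.cast_le, ← card_biUnion]
  · exact card_le_card (biUnion_subset.2 fun t _ => filter_subset _ _)
  · intro t ht t' ht' hne
    exact disjoint_left.2 fun a h1 h2 =>
      hne (hH t ht t' ht' ((mem_filter.1 h1).2.symm.trans (mem_filter.1 h2).2))

/-- `|D ∩ Sp ω| ≤ #{t | ln ω t ∈ D}`, and `esym` with `∑ t, Pr (ln ω t ∈ D) = K |D| / q ≤ 2K`. -/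
theorem Pr_hit (D : Finset (Line F)) (hD : D.card ≤ 2 * Fintype.card F) (h : ℕ) {x : ℝ}
    (hx : 1 ≤ x) :
    Pr (fun ω : Cfg Λ F => h ≤ (D ∩ Sp ω).card) ≤
      Real.exp (x * (2 * Fintype.card Λ)) / x ^ h := by
  classical
  have hq : (0 : ℝ) < Fintype.card F := by linarith [two_le_q (F := F)]
  refine le_trans (Pr_mono fun ω hω => hω.trans ?_)
    (esym (α := fun _ : Λ × Dir F => F) (fun t c => (t.2, c) ∈ D) h hx ?_)
  · refine le_trans (card_le_card fun l hl => ?_) (card_image_le (f := ln ω))
    obtain ⟨h1, h2⟩ := mem_inter.1 hl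
    obtain ⟨t, rfl⟩ := mem_Sp.1 h2
    exact mem_image.2 ⟨t, mem_flt.2 ⟨mem_univ _, h1⟩, rfl⟩
  · simp only [Pr_dir]
    rw [Fintype.sum_prod_type]
    have e : ∑ d : Dir F, ((D.filter fun l => l.1 = d).card : ℝ) / Fintype.card F =
        D.card / Fintype.card F := by
      rw [← sum_div, ← Nat.cast_sum, ← card_eq_sum_card_fiberwise fun _ _ => mem_univ _]
    simp only [e]
    rw [sum_const, card_univ, nsmul_eq_mul, mul_comm]
    refine mul_le_mul_of_nonneg_right ?_ (by positivity)
    rw [div_le_iff₀ hq]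
    exact_mod_cast hD

/-- `Q1` bounds the number of plain points from below: sum `Yl` over the `≥ q - K` lines of one
direction that are not in `Sp ω` (`Yl_eq`). -/
theorem card_plain (ω : Cfg Λ F) {a : ℝ} (ha : 0 ≤ a) (h : ∀ l, a ≤ (Yl (Sp ω) l).card) :
    ((Fintype.card F : ℝ) - Fintype.card Λ) * a ≤ (unc (Sp ω)).card := by
  classical
  set C : Finset F := univ.filter fun c => ((none, c) : Line F) ∉ Sp ω with hC
  have h1 : Fintype.card F ≤ C.card + Fintype.card Λ := by
    have : (univ : Finset F) ⊆ C ∪ univ.image fun k : Λ => ω (k, none) := by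
      intro c _
      by_cases hc : ((none, c) : Line F) ∈ Sp ω
      · obtain ⟨⟨k, d⟩, ht⟩ := mem_Sp.1 hc
        obtain ⟨e1, e2⟩ := Prod.ext_iff.1 ht
        simp only [ln] at e1 e2
        subst e1
        exact mem_union_right _ (mem_image.2 ⟨k, mem_univ _, e2⟩)
      · exact mem_union_left _ (mem_filter.2 ⟨mem_univ _, hc⟩)
    exact (card_le_card this).trans ((card_union_le _ _).trans
      (Nat.add_le_add_left (card_image_le.trans_eq card_univ) _))
  have h2 : ∑ c ∈ C, (Yl (Sp ω) (none, c)).card ≤ (unc (Sp ω)).card := by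
    rw [← card_biUnion]
    · refine card_le_card (biUnion_subset.2 fun c hc => ?_)
      rw [Yl_eq (mem_filter.1 hc).2]
      exact inter_subset_right
    · intro c _ c' _ hne
      refine disjoint_left.2 fun p h1 h2 => hne ?_
      have k1 := mem_pts.1 (mem_flt.1 h1).1
      have k2 := mem_pts.1 (mem_flt.1 h2).1
      exact k1.symm.trans k2
  calc ((Fintype.card F : ℝ) - Fintype.card Λ) * a ≤ C.card * a := by
        refine mul_le_mul_of_nonneg_right ?_ ha
        rw [sub_le_iff_le_add]
        exact_mod_cast h1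
    _ = ∑ _c ∈ C, a := by simp
    _ ≤ ∑ c ∈ C, ((Yl (Sp ω) (none, c)).card : ℝ) := sum_le_sum fun c _ => h _
    _ ≤ _ := by exact_mod_cast h2

end Crest.Agent.R34
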