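import Crest.Agent.R34.Defs

/-! Row 34: Bruen's bound for covers of the affine plane. -/

set_option autoImplicit false
set_option linter.unusedSectionVars false

namespace Crest.Agent.R34

open Finset

variable {F : Type} [Field F] [Fintype F] [DecidableEq F]

theorem bruen_sum (D : Finset (Line F)) (g : Pt F → ℝ) :
    ∑ x, ((D.filter fun l => On x l).card : ℝ) * g x = ∑ l ∈ D, ∑ x ∈ pts l, g x := by
  simp only [card_filter, pts, sum_filter, Nat.cast_sum, sum_mul]
  rw [sum_comm]
  refine sum_congr rfl fun l _ => sum_congr rfl fun x _ => ?_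
  split_ifs <;> simp

theorem bruen_inj {D E : Finset (Line F)} (hc : unc D = ∅) {l₀ : Line F} (h0 : l₀ ∉ D)
    {T : Finset (Pt F)} (hT : T ⊆ pts l₀) (hE : E ⊆ D) (h : ∀ p ∈ T, ∀ l ∈ E, ¬ On p l) :
    T.card + E.card ≤ D.card := by
  rw [← card_sdiff_add_card_eq_card hE, add_le_add_iff_right]
  refine card_le_card_of_forall_subsingleton (fun p l => On p l) (fun p hp => ?_)
    fun l hl p hp p' hp' => ?_
  · have : p ∉ unc D := by simp [hc]
    rw [mem_unc] at this
    push Not at this
    obtain ⟨l, hl, hpl⟩ := this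
    exact ⟨l, mem_sdiff.2 ⟨hl, fun h' => h p hp l h' hpl⟩, hpl⟩
  · have hne : l ≠ l₀ := fun e => h0 (e ▸ (mem_sdiff.1 hl).1)
    exact eq_of_on hne hp.2 (mem_pts.1 (hT hp.1)) hp'.2 (mem_pts.1 (hT hp'.1))

/-- An affine point is on at most `h + 1` lines of `D` (take a line through it that is not in `D`:
its other `q - 1` points need different lines of `D`), a direction has at most `h` lines of `D`.
With `m x ≥ 1` the number of lines through `x` and `n = |D| ≥ q`:
`n (n - h) ≤ #(ordered non-parallel pairs) = ∑ m (m-1) ≤ (h+1) ∑ (m-1) = (h+1)(nq - q²) ≤ (h+1)hq`,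
so `q - h ≤ (h+1) h`. -/
theorem bruen (D : Finset (Line F)) (h : ℕ) (hD : D.card ≤ Fintype.card F + h)
    (hc : unc D = ∅) (hno : ¬ ∃ o, ∀ l, Thr l o → l ∈ D) : Fintype.card F ≤ (h + 1) ^ 2 := by
  push Not at hno
  have hq := two_le_q (F := F)
  have ha : ∀ x, ((D.filter fun l => On x l).card : ℝ) ≤ h + 1 := fun x => by
    obtain ⟨l₀, h1, h2⟩ := hno (.inl x)
    have h3 := bruen_inj hc h2 (erase_subset x _) (filter_subset (fun l => On x l) D)
      fun p hp l hl hpl => (mem_erase.1 hp).1 (eq_of_on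
        (fun e : l = l₀ => h2 (e ▸ (mem_filter.1 hl).1))
        hpl (mem_pts.1 (mem_erase.1 hp).2) (mem_filter.1 hl).2 h1)
    rw [card_erase_of_mem (mem_pts.2 h1), card_pts] at h3
    exact_mod_cast (by omega : (D.filter fun l => On x l).card ≤ h + 1)
  have hb : ∀ d : Dir F, (D.filter fun l => l.1 = d).card ≤ h := fun d => by
    obtain ⟨l₀, h1, h2⟩ := hno (.inr d)
    have h3 := bruen_inj hc h2 Subset.rfl (filter_subset (fun l => l.1 = d) D)
      fun p hp l hl hpl => h2 (line_eq_of_dir ((mem_filter.1 hl).2.trans (Eq.symm h1)) hpl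
        (mem_pts.1 hp) ▸ (mem_filter.1 hl).1)
    rw [card_pts] at h3
    omega
  have h1 : ∀ x, (1 : ℝ) ≤ (D.filter fun l => On x l).card := fun x => by
    have : x ∉ unc D := by simp [hc]
    rw [mem_unc] at this
    push Not at this
    obtain ⟨l, hl, hpl⟩ := this
    exact_mod_cast one_le_card.2 ⟨l, mem_filter.2 ⟨hl, hpl⟩⟩
  have e1 : ∑ x, ((D.filter fun l => On x l).card : ℝ) = D.card * Fintype.card F := by
    simpa [card_pts] using bruen_sum D fun _ => 1
  have e2 : ∑ x : Pt F, (((D.filter fun l => On x l).card : ℝ) - 1) =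
      D.card * Fintype.card F - (Fintype.card F : ℝ) ^ 2 := by
    rw [sum_sub_distrib, e1, sum_const, card_univ, card_pt]; simp
  have h2 : ∀ l ∈ D, (D.card : ℝ) - h ≤
      ∑ x ∈ pts l, (((D.filter fun l => On x l).card : ℝ) - 1) := fun l hl => by
    have e3 := bruen_sum D fun x => if x ∈ pts l then 1 else 0
    simp only [mul_ite, mul_one, mul_zero, sum_ite_mem, univ_inter, sum_const, nsmul_eq_mul] at e3
    rw [sum_sub_distrib, e3, sum_const, card_pts, ← add_sum_erase _ _ hl, inter_self, card_pts,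
      nsmul_eq_mul, mul_one, add_sub_cancel_left]
    have h4 : (D.filter fun l' => ¬ l'.1 = l.1) ⊆ D.erase l := fun l' hl' =>
      mem_erase.2 ⟨fun e => (mem_filter.1 hl').2 (by rw [e]), (mem_filter.1 hl').1⟩
    refine le_trans ?_ (sum_le_sum_of_subset_of_nonneg h4 fun _ _ _ => Nat.cast_nonneg _)
    have h5 := card_nsmul_le_sum (D.filter fun l' => ¬ l'.1 = l.1)
      (fun l' => ((pts l' ∩ pts l).card : ℝ)) 1 fun l' hl' => by
        obtain ⟨p, hp, hp'⟩ := exists_meet (mem_filter.1 hl').2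
        exact_mod_cast one_le_card.2 ⟨p, mem_inter.2 ⟨mem_pts.2 hp, mem_pts.2 hp'⟩⟩
    have h6 : (D.card : ℝ) ≤ h + (D.filter fun l' => ¬ l'.1 = l.1).card := by
      have := card_filter_add_card_filter_not (s := D) fun l' => l'.1 = l.1
      have := hb l.1
      exact_mod_cast (by omega : D.card ≤ h + (D.filter fun l' => ¬ l'.1 = l.1).card)
    rw [nsmul_eq_mul, mul_one] at h5
    linarith
  have h3 := card_nsmul_le_sum D _ _ h2
  rw [← bruen_sum, nsmul_eq_mul] at h3
  have h4 : ∑ x : Pt F, ((D.filter fun l => On x l).card : ℝ) *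
      (((D.filter fun l => On x l).card : ℝ) - 1) ≤
      (h + 1) * (D.card * Fintype.card F - (Fintype.card F : ℝ) ^ 2) := by
    rw [← e2, mul_sum]
    exact sum_le_sum fun x _ => mul_le_mul_of_nonneg_right (ha x) (sub_nonneg.2 (h1 x))
  have h5 : 0 ≤ D.card * Fintype.card F - (Fintype.card F : ℝ) ^ 2 := by
    rw [← e2]; exact sum_nonneg fun x _ => sub_nonneg.2 (h1 x)
  have hD' : (D.card : ℝ) ≤ Fintype.card F + h := by exact_mod_cast hD
  have hh : (0 : ℝ) ≤ h := Nat.cast_nonneg h
  suffices H : (Fintype.card F : ℝ) ≤ (h + 1) ^ 2 by exact_mod_cast H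
  generalize (Fintype.card F : ℝ) = q at *
  generalize (D.card : ℝ) = n at *
  have hn : q ≤ n := le_of_mul_le_mul_right (by nlinarith) (by linarith : 0 < q)
  rcases le_or_gt q h with h6 | h6
  · nlinarith
  · have h7 : q * (q - h) ≤ n * (n - h) := by gcongr; linarith
    have h8 : (h + 1) * (n * q - q ^ 2) ≤ q * ((h + 1) * h) := by
      calc _ = (h + 1) * q * (n - q) := by ring
        _ ≤ (h + 1) * q * h := by gcongr; linarith
        _ = _ := by ring
    have h9 : q - h ≤ (h + 1) * h := le_of_mul_le_mul_left (by linarith) (by linarith : 0 < q)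
    nlinarith

/-- Few lines of `L` are met by the others in many points.  With `n = |L|`, `z = |unc L|`:
`#{m = 1} ≥ 2 (q² - z) - n q ≥ q² - 2z`, and `#{m = 1} = ∑_{l ∈ L} (q - cov L l)`. -/
theorem card_junk (L J : Finset (Line F)) (hL : L.card ≤ Fintype.card F) (hJ : J ⊆ L)
    (h : ∀ l ∈ J, (Fintype.card F : ℝ) / 2 ≤ cov L l) :
    (J.card : ℝ) ≤ 4 * (unc L).card / Fintype.card F := by
  classical
  have hq : (0 : ℝ) < Fintype.card F := by linarith [two_le_q (F := F)]
  have hL' : (L.card : ℝ) ≤ Fintype.card F := by exact_mod_cast hL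
  have e1 : ∑ x, ((L.filter fun l => On x l).card : ℝ) = L.card * Fintype.card F := by
    simpa [card_pts] using bruen_sum L fun _ => 1
  have h1 : ∀ l ∈ L, (cov L l : ℝ) ≤
      ∑ x ∈ pts l, if 2 ≤ (L.filter fun l => On x l).card then (1 : ℝ) else 0 := fun l hl => by
    rw [sum_boole, cov, Nat.cast_le]
    refine card_le_card fun x hx => ?_
    obtain ⟨h1, l', h2, h3, h4⟩ := mem_flt.1 hx
    exact mem_filter.2 ⟨h1, one_lt_card.2 ⟨l', mem_filter.2 ⟨h2, h4⟩, l,
      mem_filter.2 ⟨hl, mem_pts.1 h1⟩, h3⟩⟩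
  have h2 := sum_le_sum h1
  rw [← bruen_sum] at h2
  have h3 : ∀ x, ((L.filter fun l => On x l).card : ℝ) *
      (if 2 ≤ (L.filter fun l => On x l).card then (1 : ℝ) else 0) ≤
      2 * (L.filter fun l => On x l).card - 2 + 2 * if x ∈ unc L then (1 : ℝ) else 0 := fun x => by
    by_cases hx : x ∈ unc L
    · have : (L.filter fun l => On x l) = ∅ := filter_eq_empty_iff.2 (mem_unc.1 hx)
      simp [this, hx]
    · rw [if_neg hx]
      rw [mem_unc] at hx
      push Not at hx
      obtain ⟨l, hl, hpl⟩ := hx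
      have h4 : (1 : ℝ) ≤ (L.filter fun l => On x l).card := by
        exact_mod_cast one_le_card.2 ⟨l, mem_filter.2 ⟨hl, hpl⟩⟩
      split_ifs with h5
      · have : (2 : ℝ) ≤ (L.filter fun l => On x l).card := by exact_mod_cast h5
        linarith
      · linarith
  have h4 := sum_le_sum fun x (_ : x ∈ univ) => h3 x
  rw [sum_add_distrib, sum_sub_distrib, ← mul_sum, ← mul_sum, e1, sum_const, card_univ, card_pt,
    sum_ite_mem, univ_inter, sum_const] at h4
  simp only [nsmul_eq_mul, mul_one, Nat.cast_pow] at h4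
  have h5 := card_nsmul_le_sum J _ _ h
  have h6 := sum_le_sum_of_subset_of_nonneg (f := fun l => (cov L l : ℝ)) hJ
    fun _ _ _ => Nat.cast_nonneg _
  rw [nsmul_eq_mul] at h5
  rw [le_div_iff₀ hq]
  have h7 : (L.card : ℝ) * Fintype.card F ≤ Fintype.card F * Fintype.card F := by gcongr
  nlinarith

end Crest.Agent.R34
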