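import Crest.Agent.R34.Pi

/-! Row 34: McDiarmid's inequality and the survival lemma. -/

set_option autoImplicit false
set_option linter.unusedSectionVars false

namespace Crest.Agent.R34

open Finset

variable {ι α : Type} [Fintype ι] [DecidableEq ι] [Fintype α] [Nonempty α]

theorem mcd_abs_Ex_le {X : α → ℝ} {c : ℝ} (h : ∀ a, |X a| ≤ c) : |Ex X| ≤ c := by
  rw [abs_le]
  constructor
  · rw [← Ex_const (α := α) (-c)]
    exact Ex_mono fun a => (abs_le.1 (h a)).1
  · rw [← Ex_const (α := α) c]
    exact Ex_mono fun a => (abs_le.1 (h a)).2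

theorem mcd_hoeff {X : α → ℝ} {c : ℝ} (hc : 0 < c) (l : ℝ) (h0 : Ex X = 0) (h : ∀ a, |X a| ≤ c) :
    Ex (fun a => Real.exp (l * X a)) ≤ Real.exp (l ^ 2 * c ^ 2 / 2) := by
  have h1 : ∀ a, Real.exp (l * X a) ≤ Real.cosh (l * c) + Real.sinh (l * c) / c * X a := fun a => by
    obtain ⟨h2, h3⟩ := abs_le.1 (h a)
    have h4 := convexOn_exp.2 (Set.mem_univ (l * c)) (Set.mem_univ (-(l * c)))
      (show 0 ≤ (c + X a) / (2 * c) from div_nonneg (by linarith) (by positivity))
      (show 0 ≤ (c - X a) / (2 * c) from div_nonneg (by linarith) (by positivity))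
      (by field_simp; ring)
    simp only [smul_eq_mul] at h4
    have h5 : (c + X a) / (2 * c) * (l * c) + (c - X a) / (2 * c) * -(l * c) = l * X a := by
      field_simp; ring
    rw [h5] at h4
    refine h4.trans (le_of_eq ?_)
    rw [Real.cosh_eq, Real.sinh_eq]
    field_simp
    ring
  refine (Ex_mono h1).trans ?_
  rw [Ex_add, Ex_const, Ex_mul, h0, mul_zero, add_zero, ← mul_pow]
  exact Real.cosh_le_exp_half_sq _

theorem mcd_resample (g : (ι → α) → ℝ) (t : ι) :
    Ex (fun ω => Ex fun a => g (Function.update ω t a)) = Ex g := by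
  have hα : (Fintype.card α : ℝ) ≠ 0 := by exact_mod_cast Fintype.card_ne_zero
  have hinv : Function.Involutive fun p : (ι → α) × α => (Function.update p.1 t p.2, p.1 t) :=
    fun p => by simp
  have h1 : ∑ ω : ι → α, ∑ a, g (Function.update ω t a) = ∑ ω : ι → α, ∑ _a : α, g ω := by
    rw [← Fintype.sum_prod_type', ← Fintype.sum_prod_type']
    exact Equiv.sum_comp hinv.toPerm fun p => g p.1
  unfold Ex
  rw [← sum_div, h1]
  simp only [sum_const, card_univ, nsmul_eq_mul]
  rw [← mul_sum, mul_div_cancel_left₀ _ hα]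

theorem mcd_mgf {c : ℝ} (hc : 0 < c) (l : ℝ) (s : Finset ι) : ∀ f : (ι → α) → ℝ,
    (∀ ω t a, |f (Function.update ω t a) - f ω| ≤ c) →
    (∀ t ∉ s, ∀ ω a, f (Function.update ω t a) = f ω) →
    Ex (fun ω => Real.exp (l * (f ω - Ex f))) ≤ Real.exp (s.card * (l ^ 2 * c ^ 2 / 2)) := by
  induction s using Finset.induction_on with
  | empty =>
    intro f _ hf
    have h1 : ∀ ω ω', f ω' = f ω := fun ω ω' => by
      have h2 : ∀ u : Finset ι, f (u.piecewise ω' ω) = f ω := fun u => by
        induction u using Finset.induction_on with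
        | empty => simp
        | insert j u _ ih => rw [piecewise_insert, hf j (notMem_empty j), ih]
      simpa using h2 univ
    have h2 : ∀ ω, Ex f = f ω := fun ω => by
      rw [← Ex_const (α := ι → α) (f ω)]
      exact congrArg Ex (funext (h1 ω))
    have h3 : (fun ω => Real.exp (l * (f ω - Ex f))) = fun _ => 1 := funext fun ω => by
      rw [h2 ω]; simp
    rw [h3, Ex_const]
    simp
  | insert t s ht ih =>
    intro f hf hs
    set g : (ι → α) → ℝ := fun ω => Ex fun a => f (Function.update ω t a) with hg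
    have hgt : ∀ ω a, g (Function.update ω t a) = g ω := fun ω a => by simp [hg]
    have hg1 : ∀ ω t' a, |g (Function.update ω t' a) - g ω| ≤ c := fun ω t' a => by
      by_cases h : t' = t
      · rw [h, hgt, sub_self, abs_zero]
        exact hc.le
      · simp only [hg]
        rw [← Ex_sub]
        refine mcd_abs_Ex_le fun b => ?_
        rw [Function.update_comm h]
        exact hf _ _ _
    have hg2 : ∀ t' ∉ s, ∀ ω a, g (Function.update ω t' a) = g ω := fun t' ht' ω a => by
      by_cases h : t' = t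
      · rw [h, hgt]
      · simp only [hg]
        refine congrArg Ex (funext fun b => ?_)
        rw [Function.update_comm h]
        exact hs t' (by simp [h, ht']) _ _
    have hE : Ex g = Ex f := mcd_resample f t
    have h1 := ih g hg1 hg2
    rw [← mcd_resample _ t, card_insert_of_notMem ht, Nat.cast_succ, add_mul, one_mul,
      Real.exp_add, mul_comm]
    refine le_trans (Ex_mono (g := fun ω => Real.exp (l ^ 2 * c ^ 2 / 2) *
      Real.exp (l * (g ω - Ex g))) fun ω => ?_) ?_
    · have h2 : (fun a => Real.exp (l * (f (Function.update ω t a) - Ex f))) = fun a =>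
          Real.exp (l * (g ω - Ex g)) * Real.exp (l * (f (Function.update ω t a) - g ω)) :=
        funext fun a => by
          rw [← Real.exp_add, hE]
          congr 1
          ring
      rw [h2, Ex_mul, mul_comm]
      refine mul_le_mul_of_nonneg_right (mcd_hoeff hc l ?_ fun a => ?_) (Real.exp_pos _).le
      · rw [Ex_sub, Ex_const]
        exact sub_self _
      · rw [← Ex_const (α := α) (f (Function.update ω t a))]
        simp only [hg]
        rw [← Ex_sub]
        refine mcd_abs_Ex_le fun b => ?_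
        have h3 := hf (Function.update ω t a) t b
        rwa [Function.update_idem, abs_sub_comm] at h3
    · rw [Ex_mul]
      exact mul_le_mul_of_nonneg_left h1 (Real.exp_pos _).le

/-- McDiarmid's inequality (weak constant).  Prove `Ex (exp (l (f - Ex f))) ≤ exp (n l² c² / 2)` by
induction on the set of coordinates on which `f` depends (or on `Fin n → α`): average out one
coordinate; a centred variable bounded by `c` has `Ex exp (l X) ≤ cosh (l c) ≤ exp (l² c² / 2)`
(convexity of `exp`, `Real.cosh_le_exp_half_sq`).  Then Markov with `l = s / (n c²)`. -/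
theorem mcd (f : (ι → α) → ℝ) {c s : ℝ} (hc : 0 < c) (hs : 0 ≤ s)
    (hf : ∀ ω t a, |f (Function.update ω t a) - f ω| ≤ c) :
    Pr (fun ω => Ex f + s ≤ f ω) ≤ Real.exp (-(s ^ 2 / (2 * Fintype.card ι * c ^ 2))) := by
  rcases Nat.eq_zero_or_pos (Fintype.card ι) with h0 | h0
  · rw [h0]
    simpa using Pr_le_one _
  have hn : (0 : ℝ) < Fintype.card ι := by exact_mod_cast h0
  set l : ℝ := s / (Fintype.card ι * c ^ 2) with hl
  have hl0 : 0 ≤ l := by positivity
  have h1 := mcd_mgf hc l univ f hf fun t ht => absurd (mem_univ t) ht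
  have h2 := Pr_markov (fun ω => Real.exp (l * (f ω - Ex f))) (fun _ => (Real.exp_pos _).le)
    (Real.exp_pos (l * s))
  refine (Pr_mono fun ω hω => ?_).trans (h2.trans ?_)
  · exact Real.exp_le_exp.2 (mul_le_mul_of_nonneg_left (by linarith) hl0)
  · refine (div_le_div_of_nonneg_right h1 (Real.exp_pos _).le).trans (le_of_eq ?_)
    rw [← Real.exp_sub, card_univ, hl]
    congr 1
    field_simp
    ring

theorem mcd_lo (f : (ι → α) → ℝ) {c s : ℝ} (hc : 0 < c) (hs : 0 ≤ s)
    (hf : ∀ ω t a, |f (Function.update ω t a) - f ω| ≤ c) :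
    Pr (fun ω => f ω ≤ Ex f - s) ≤ Real.exp (-(s ^ 2 / (2 * Fintype.card ι * c ^ 2))) := by
  refine le_trans (Pr_mono fun ω hω => ?_) (mcd (fun ω => -f ω) hc hs fun ω t a => ?_)
  · rw [Ex_neg]
    linarith
  · rw [neg_sub_neg, abs_sub_comm]
    exact hf ω t a

theorem mcd_abs (f : (ι → α) → ℝ) {c s : ℝ} (hc : 0 < c) (hs : 0 ≤ s)
    (hf : ∀ ω t a, |f (Function.update ω t a) - f ω| ≤ c) :
    Pr (fun ω => s ≤ |f ω - Ex f|) ≤ 2 * Real.exp (-(s ^ 2 / (2 * Fintype.card ι * c ^ 2))) := by
  have h1 := mcd f hc hs hf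
  have h2 := mcd_lo f hc hs hf
  have h3 := Pr_or_le (fun ω => Ex f + s ≤ f ω) fun ω => f ω ≤ Ex f - s
  refine le_trans (Pr_mono fun ω hω => ?_) (h3.trans (by linarith))
  rcases le_abs'.1 hω with h | h
  · exact Or.inr (by linarith)
  · exact Or.inl (by linarith)

/-- Survival lemma.  Each value of each coordinate kills at most `Δ` items, and each item is killed
by a coordinate with probability at most `p ≤ 1/2`.  The mean number of survivors is at least
`(1-p)^n |S| ≥ exp (-2 p n) |S|` (`Ex_card_flt`, `Pr_pi`, `Pr_not`, `exp_le_one_sub`), changing a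
coordinate changes the number by at most `Δ`; use `mcd_lo`. -/
theorem surv {X : Type} (S : Finset X) (kill : ι → α → X → Prop) {p Δ θ : ℝ} (hΔ : 0 < Δ)
    (hp0 : 0 ≤ p) (hp : p ≤ 1 / 2) (hθ0 : 0 ≤ θ)
    (hθ : θ ≤ Real.exp (-(2 * p * Fintype.card ι)))
    (h1 : ∀ t a, ((flt S (kill t a)).card : ℝ) ≤ Δ)
    (h2 : ∀ x ∈ S, ∀ t, Pr (fun a => kill t a x) ≤ p) :
    Pr (fun ω : ι → α => ((flt S fun x => ∀ t, ¬ kill t (ω t) x).card : ℝ) ≤ θ * S.card / 2) ≤
      Real.exp (-((θ * S.card / 2) ^ 2 / (2 * Fintype.card ι * Δ ^ 2))) := by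
  classical
  set f : (ι → α) → ℝ := fun ω => ((flt S fun x => ∀ t, ¬ kill t (ω t) x).card : ℝ) with hf
  have key : ∀ (ω ω' : ι → α) (t : ι), (∀ t', t' ≠ t → ω t' = ω' t') → f ω' - f ω ≤ Δ := by
    intro ω ω' t h
    have h3 : (flt S fun x => ∀ t, ¬ kill t (ω' t) x) ⊆
        (flt S fun x => ∀ t, ¬ kill t (ω t) x) ∪ flt S (kill t (ω t)) := by
      intro x hx
      simp only [mem_flt, mem_union] at hx ⊢
      by_cases h4 : kill t (ω t) x
      · exact Or.inr ⟨hx.1, h4⟩
      · refine Or.inl ⟨hx.1, fun t' => ?_⟩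
        by_cases h5 : t' = t
        · rwa [h5]
        · rw [h t' h5]
          exact hx.2 t'
    have h4 := (card_le_card h3).trans (card_union_le _ _)
    have h5 : f ω' ≤ f ω + (flt S (kill t (ω t))).card := by
      simp only [hf]
      exact_mod_cast h4
    linarith [h1 t (ω t)]
  have hE : θ * S.card ≤ Ex f := by
    rw [hf, Ex_card_flt S fun x (ω : ι → α) => ∀ t, ¬ kill t (ω t) x, mul_comm, ← nsmul_eq_mul]
    refine card_nsmul_le_sum _ _ _ fun x hx => hθ.trans ?_
    rw [Pr_pi (α := fun _ => α) fun t a => ¬ kill t a x]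
    calc Real.exp (-(2 * p * Fintype.card ι)) = ∏ _t : ι, Real.exp (-(2 * p)) := by
          rw [prod_const, card_univ, ← Real.exp_nat_mul]
          congr 1
          ring
      _ ≤ _ := by
          refine prod_le_prod (fun _ _ => (Real.exp_pos _).le) fun t _ => ?_
          rw [Pr_not]
          linarith [exp_le_one_sub hp0 hp, h2 x hx t]
  refine le_trans (Pr_mono fun ω hω => ?_) (mcd_lo f hΔ (by positivity) fun ω t a => ?_)
  · change f ω ≤ _ at hω
    linarith
  · rw [abs_sub_le_iff]
    exact ⟨key _ _ t fun t' ht' => (Function.update_of_ne ht' _ _).symm,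
      key _ _ t fun t' ht' => Function.update_of_ne ht' _ _⟩

end Crest.Agent.R34
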