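import Crest.Agent.R34.Asym
import Crest.Agent.R34.Mcd

/-! Row 34: concentration of point counts along a line. -/

set_option autoImplicit false
set_option linter.unusedSectionVars false

namespace Crest.Agent.R34

open Finset

variable {F : Type} [Field F] [Fintype F] [DecidableEq F]
variable {Λ : Type} [Fintype Λ] [DecidableEq Λ]

private theorem cc_one (l : Line F) (ω : Cfg Λ F) (t : Λ × Dir F) :
    (flt (pts l) fun x => Inc ω l.1 x t).card ≤ 1 := by
  refine card_le_one.2 fun x hx x' hx' => ?_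
  simp only [mem_flt, mem_pts, Inc] at hx hx'
  have hne : l ≠ ln ω t := fun e => hx.2.1 (congrArg Prod.fst e).symm
  exact eq_of_on hne hx.1 hx.2.2 hx'.1 hx'.2.2

private theorem cc_key (l : Line F) (Φ : (Λ × Dir F → Prop) → Prop) (ω ω' : Cfg Λ F)
    (t : Λ × Dir F) (h : ∀ t', t' ≠ t → ω t' = ω' t') :
    ((flt (pts l) fun x => Φ (Inc ω' l.1 x)).card : ℝ) -
      (flt (pts l) fun x => Φ (Inc ω l.1 x)).card ≤ 2 := by
  have h1 : (flt (pts l) fun x => Φ (Inc ω' l.1 x)) ⊆ (flt (pts l) fun x => Φ (Inc ω l.1 x)) ∪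
      ((flt (pts l) fun x => Inc ω l.1 x t) ∪ flt (pts l) fun x => Inc ω' l.1 x t) := by
    intro x hx
    simp only [mem_flt, mem_union] at hx ⊢
    by_cases k1 : Inc ω l.1 x t
    · exact .inr (.inl ⟨hx.1, k1⟩)
    by_cases k2 : Inc ω' l.1 x t
    · exact .inr (.inr ⟨hx.1, k2⟩)
    refine .inl ⟨hx.1, ?_⟩
    have : Inc ω l.1 x = Inc ω' l.1 x := by
      funext t'
      by_cases e : t' = t
      · rw [e]; exact propext (iff_of_false k1 k2)
      · simp only [Inc, ln, h t' e]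
    rw [this]
    exact hx.2
  have h2 := (card_le_card h1).trans ((card_union_le _ _).trans
    (Nat.add_le_add_left (card_union_le _ _) _))
  have h3 := cc_one l ω t
  have h4 := cc_one l ω' t
  have h5 : (flt (pts l) fun x => Φ (Inc ω' l.1 x)).card ≤
      (flt (pts l) fun x => Φ (Inc ω l.1 x)).card + 2 := by omega
  have h6 : ((flt (pts l) fun x => Φ (Inc ω' l.1 x)).card : ℝ) ≤
      (flt (pts l) fun x => Φ (Inc ω l.1 x)).card + 2 := by exact_mod_cast h5
  linarith

/-- `mcd_abs` with `c = 2` and `Ex_card_flt`: changing the coordinate `t` changes nothing if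
`t.2 = l.1`, and otherwise changes `Inc ω l.1 x` only for the two points `x` of `l` on the old and
on the new line. -/
theorem conc (l : Line F) (Φ : (Λ × Dir F → Prop) → Prop) {s : ℝ} (hs : 0 ≤ s) :
    Pr (fun ω : Cfg Λ F => s ≤ |((flt (pts l) fun x => Φ (Inc ω l.1 x)).card : ℝ) -
        ∑ x ∈ pts l, Pr fun ω : Cfg Λ F => Φ (Inc ω l.1 x)|) ≤
      2 * Real.exp (-(s ^ 2 /
        (2 * ((Fintype.card Λ * (Fintype.card F + 1) : ℕ) : ℝ) * 2 ^ 2))) := by
  rw [← card_idx, ← Ex_card_flt (pts l) fun x (ω : Cfg Λ F) => Φ (Inc ω l.1 x)]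
  refine mcd_abs (fun ω : Cfg Λ F => ((flt (pts l) fun x => Φ (Inc ω l.1 x)).card : ℝ))
    two_pos hs fun ω t a => ?_
  rw [abs_sub_le_iff]
  exact ⟨cc_key l Φ _ _ t fun t' ht' => (Function.update_of_ne ht' _ _).symm,
    cc_key l Φ _ _ t fun t' ht' => Function.update_of_ne ht' _ _⟩

/-- Prescribed incidences at a point (`Pr_pi`, `Pr_eq_val`, `Pr_not`). -/
theorem Pr_pat (x : Pt F) (A B : Finset (Λ × Dir F)) (h : Disjoint A B) :
    Pr (fun ω : Cfg Λ F => (∀ t ∈ A, On x (ln ω t)) ∧ ∀ t ∈ B, ¬ On x (ln ω t)) =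
      (1 / (Fintype.card F : ℝ)) ^ A.card * (1 - 1 / (Fintype.card F : ℝ)) ^ B.card := by
  have h1 := Pr_pi_on (α := fun _ : Λ × Dir F => F) (A ∪ B)
    fun t a => if t ∈ A then a = pr t.2 x else ¬ a = pr t.2 x
  rw [prod_union h] at h1
  have h2 : ∏ t ∈ A, Pr (fun a : F => if t ∈ A then a = pr t.2 x else ¬ a = pr t.2 x) =
      (1 / (Fintype.card F : ℝ)) ^ A.card := by
    rw [← prod_const]
    refine prod_congr rfl fun t ht => ?_
    simp only [if_pos ht]
    exact Pr_eq_val _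
  have h3 : ∏ t ∈ B, Pr (fun a : F => if t ∈ A then a = pr t.2 x else ¬ a = pr t.2 x) =
      (1 - 1 / (Fintype.card F : ℝ)) ^ B.card := by
    rw [← prod_const]
    refine prod_congr rfl fun t ht => ?_
    simp only [if_neg (disjoint_right.1 h ht)]
    rw [Pr_not, Pr_eq_val]
  rw [← h2, ← h3, ← h1]
  refine Pr_congr fun ω => ⟨fun ⟨k1, k2⟩ t ht => ?_, fun k => ⟨fun t ht => ?_, fun t ht => ?_⟩⟩
  · by_cases hA : t ∈ A
    · rw [if_pos hA]
      exact (k1 t hA).symm
    · rw [if_neg hA]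
      exact fun e => k2 t ((mem_union.1 ht).resolve_left hA) e.symm
  · have := k t (mem_union_left _ ht)
    rw [if_pos ht] at this
    exact this.symm
  · have := k t (mem_union_right _ ht)
    rw [if_neg (disjoint_right.1 h ht)] at this
    exact fun e => this e.symm

theorem card_idx_ne (d : Dir F) :
    (flt univ fun t : Λ × Dir F => t.2 ≠ d).card = Fintype.card Λ * Fintype.card F := by
  have : (flt univ fun t : Λ × Dir F => t.2 ≠ d) = univ ×ˢ univ.erase d := by
    ext t; simp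
  rw [this, card_product, card_erase_of_mem (mem_univ _), card_univ, card_univ, card_dir,
    Nat.add_sub_cancel]

/-- `conc` with `Φ I = ∀ t, ¬ I t`; the mean is `q * del K q` by `Pr_pat`; `ev_conc`. -/
theorem rare_Q1 (Λ : Type) [Fintype Λ] [DecidableEq Λ] [Nonempty Λ] :
    Rare Λ fun _ _ _ _ ω => ¬ Q1 ω := by
  obtain ⟨q₀, hq₀⟩ := Filter.eventually_atTop.1 (ev_conc (K := Fintype.card Λ) Fintype.card_pos 2 2)
  refine ⟨q₀, fun F _ _ _ hq => le_trans ?_ (hq₀ _ hq)⟩
  have hd : 0 ≤ dev (Fintype.card F) := by unfold dev; positivity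
  have h1 := Pr_exists_le_univ (fun (l : Line F) (ω : Cfg Λ F) => dev (Fintype.card F) ≤
    |((flt (pts l) fun x => ∀ t, ¬ Inc ω l.1 x t).card : ℝ) -
      ∑ x ∈ pts l, Pr fun ω : Cfg Λ F => ∀ t, ¬ Inc ω l.1 x t|) _
    fun l => conc l (fun I => ∀ t, ¬ I t) hd
  refine le_trans (Pr_mono fun ω hω => ?_) (h1.trans ?_)
  · simp only [Q1, not_forall, not_le] at hω
    obtain ⟨l, hl⟩ := hω
    refine ⟨l, le_trans hl.le (le_of_eq ?_)⟩
    have e1 : Yl (Sp ω) l = flt (pts l) fun x => ∀ t, ¬ Inc ω l.1 x t := by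
      ext x
      simp only [Yl, mem_flt, Inc, not_and]
      refine and_congr_right fun _ => ⟨fun k t ht => k _ (ln_mem ω t) ht, fun k l' hl' hne => ?_⟩
      obtain ⟨t, rfl⟩ := mem_Sp.1 hl'
      exact k t hne
    have e2 : ∀ x : Pt F, Pr (fun ω : Cfg Λ F => ∀ t, ¬ Inc ω l.1 x t) =
        del (Fintype.card Λ) (Fintype.card F) := fun x => by
      have := Pr_pat (Λ := Λ) x ∅ (flt univ fun t : Λ × Dir F => t.2 ≠ l.1) (disjoint_empty_left _)
      rw [card_empty, pow_zero, one_mul, card_idx_ne] at this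
      rw [del, ← this]
      refine Pr_congr fun ω => ?_
      simp [Inc]
    simp only [e1, e2, sum_const, card_pts, nsmul_eq_mul, mul_comm]
  · refine mul_le_mul_of_nonneg_right ?_ (by positivity)
    linarith [card_line_le (F := F)]

end Crest.Agent.R34
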