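import Crest.Agent.R34.Wt

/-! Row 34: containers for efficient covers. -/

set_option autoImplicit false
set_option linter.unusedSectionVars false

namespace Crest.Agent.R34

open Finset

variable {F : Type} [Field F] [Fintype F] [DecidableEq F]

private theorem pos_of_mul_pos_of_pos_right_aux {k δ : ℝ} (h : 10 ≤ k * δ) (hδ : 0 < δ) :
    0 < k := by
  by_contra hk
  nlinarith [not_lt.1 hk]

/-- Existence of a good sample.  `lam = δq/(40k)`.  Sample `B : Fin k → L`.  A line `l ∈ L` outside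
the junk set of `junk` has at most `2h` values of `phi P' l` on `L` (at most `h` in `P`, at most
`h` in `P' \ P`).  `stat_hi` with `N = 2h`, `s = kδ/10`: `2h/lam ≤ kδ/10`, `1 ≤ kδ/10`, exponent
`≥ k³/(2q²)` as `1 + 2 lam ≤ 3 lam`; union over at most `q` lines is `< 1/2`.  `Ex_rep_le`,
`q ≤ 2|L|` and Markov: `Pr (8k²/q ≤ rep) ≤ 1/4`.  `S` is the junk set together with the image of
`B`; use `wt_line` for the other lines. -/
theorem exists_sample {δ e h : ℝ} {k j : ℕ} (hδ0 : 0 < δ) (he0 : 0 ≤ e)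
    (he : 10 * e ≤ δ * Fintype.card F) (hh0 : 0 < h) (hh : 800 * h ≤ δ ^ 2 * Fintype.card F)
    (hk1 : 10 ≤ k * δ) (hk2 : 40 * (k : ℝ) ≤ δ * Fintype.card F)
    (hk3 : 2 * Fintype.card F * Real.exp (-((k : ℝ) ^ 3 / (2 * (Fintype.card F : ℝ) ^ 2))) < 1)
    (hj : 6 * Fintype.card F * e ≤ j * h) (P P' : Finset (Pt F)) (L : Finset (Line F))
    (hL : L.card ≤ Fintype.card F)
    (h1 : ∀ l ∈ L, ((pts l ∩ P).card : ℝ) ≤ δ * Fintype.card F + e)
    (h2 : ∀ l ∈ L, ((pts l ∩ (P' \ P)).card : ℝ) ≤ h) (hc : Covers L P)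
    (hP : δ * (Fintype.card F : ℝ) ^ 2 - 2 * Fintype.card F * e ≤ P.card) :
    ∃ (B : Fin k → Line F) (S : Finset (Line F)), (∀ i, B i ∈ L) ∧
      (rep B : ℝ) ≤ 8 * (k : ℝ) ^ 2 / Fintype.card F ∧ S.card ≤ k + j ∧
      ∀ l ∈ L, l ∈ S ∨ l ∈ atyp δ P' B := by
  classical
  have hq : (0 : ℝ) < Fintype.card F := by linarith [two_le_q (F := F)]
  have hL' : (L.card : ℝ) ≤ Fintype.card F := by exact_mod_cast hL
  obtain ⟨hj1, hj2⟩ := junk hδ0 he0 he hh0.le P L hL h1 hc hP
  obtain ⟨J, hJ⟩ : ∃ J, J = flt L fun l =>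
    h < (flt (pts l ∩ P) fun x => ∃ l' ∈ L, l' ≠ l ∧ On x l').card := ⟨_, rfl⟩
  rw [← hJ] at hj2
  have hJj : J.card ≤ j := by exact_mod_cast le_of_mul_le_mul_right (hj2.trans hj) hh0
  have hj1' : (Fintype.card F : ℝ) ≤ 2 * L.card := by exact_mod_cast hj1
  have hL0 : (0 : ℝ) < L.card := by linarith
  have : Nonempty L := (card_pos.1 (by exact_mod_cast hL0)).coe_sort
  have hk0 : (0 : ℝ) < k := pos_of_mul_pos_of_pos_right_aux hk1 hδ0
  obtain ⟨lam, hlam⟩ : ∃ lam : ℝ, lam = δ * Fintype.card F / (40 * k) := ⟨_, rfl⟩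
  have hlk : lam * k = δ * Fintype.card F / 40 := by rw [hlam]; field_simp
  have hl1 : 1 ≤ lam := by rw [hlam, le_div_iff₀ (by positivity)]; linarith
  have hl0 : 0 < lam := by linarith
  have hbad : ∀ l ∈ L \ J, Pr (fun B : Fin k → L =>
      3 / 10 * (k * δ) < stat lam (fun a : L => phi P' l a) B) ≤
      Real.exp (-((k : ℝ) ^ 3 / (2 * (Fintype.card F : ℝ) ^ 2))) := fun l hl => by
    obtain ⟨hlL, hlJ⟩ := mem_sdiff.1 hl
    have hv : ((vals fun a : L => phi P' l a).card : ℝ) ≤ 2 * h := by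
      have h3 : (vals fun a : L => phi P' l a) ⊆
          (flt (pts l ∩ P) fun x => ∃ l' ∈ L, l' ≠ l ∧ On x l') ∪ (pts l ∩ (P' \ P)) :=
        fun p hp => by
          obtain ⟨a, ha⟩ := mem_vals.1 hp
          obtain ⟨a1, a2, a3, a4⟩ := phi_eq_some.1 ha
          by_cases hP : p ∈ P
          · exact mem_union_left _
              (mem_flt.2 ⟨mem_inter.2 ⟨mem_pts.2 a3, hP⟩, a, a.2, a2, a4⟩)
          · exact mem_union_right _ (mem_inter.2 ⟨mem_pts.2 a3, mem_sdiff.2 ⟨a1, hP⟩⟩)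
      have h4 : ((vals fun a : L => phi P' l a).card : ℝ) ≤
          (flt (pts l ∩ P) fun x => ∃ l' ∈ L, l' ≠ l ∧ On x l').card +
            (pts l ∩ (P' \ P)).card := by
        exact_mod_cast (card_le_card h3).trans (card_union_le _ _)
      have h5 := not_lt.1 fun h' => hlJ (hJ ▸ mem_flt.2 ⟨hlL, h'⟩)
      linarith [h2 l hlL]
    refine ((Pr_mono fun B hB => ?_).trans (stat_hi (s := k * δ / 10) hl0 (by positivity)
      (fun a : L => phi P' l a) hv)).trans ?_
    · have h3 : 2 * h / lam ≤ k * δ / 10 := by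
        rw [div_le_iff₀ hl0]
        calc 2 * h ≤ δ * (δ * Fintype.card F / 40) / 10 := by linarith
          _ = _ := by rw [← hlk]; ring
      linarith
    · rw [Real.exp_le_exp, neg_le_neg_iff, div_le_div_iff₀ (by positivity) (by positivity)]
      calc _ = 2 * (k : ℝ) ^ 2 * ((1 + 2 * lam) * k) ^ 2 := by ring
        _ ≤ 2 * (k : ℝ) ^ 2 * ((3 * lam) * k) ^ 2 := by gcongr; linarith
        _ = 18 / 1600 * (k * δ * Fintype.card F) ^ 2 := by rw [mul_assoc 3, hlk]; ring
        _ ≤ 2 / 100 * (k * δ * Fintype.card F) ^ 2 :=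
            mul_le_mul_of_nonneg_right (by norm_num) (by positivity)
        _ = _ := by ring
  have p1 := Pr_exists_le_card _ _ _ hbad
  have p2 := Pr_markov (fun B : Fin k → L => (rep B : ℝ)) (fun _ => Nat.cast_nonneg _)
    (s := 8 * (k : ℝ) ^ 2 / Fintype.card F) (by positivity)
  have p3 : Ex (fun B : Fin k → L => (rep B : ℝ)) / (8 * (k : ℝ) ^ 2 / Fintype.card F) ≤
      1 / 4 := by
    rw [div_le_iff₀ (by positivity)]
    refine Ex_rep_le.trans ?_
    rw [Fintype.card_coe, div_le_iff₀ hL0]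
    calc (k : ℝ) ^ 2 = (k : ℝ) ^ 2 / Fintype.card F * Fintype.card F := by field_simp
      _ ≤ (k : ℝ) ^ 2 / Fintype.card F * (2 * L.card) :=
          mul_le_mul_of_nonneg_left hj1' (by positivity)
      _ = _ := by ring
  have p4 : ((L \ J).card : ℝ) ≤ Fintype.card F :=
    le_trans (by exact_mod_cast card_le_card sdiff_subset) hL'
  have p5 := mul_le_mul_of_nonneg_right p4
    (Real.exp_pos (-((k : ℝ) ^ 3 / (2 * (Fintype.card F : ℝ) ^ 2)))).le
  obtain ⟨B, hB⟩ := exists_not_of_Pr_lt_one ((Pr_or_le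
    (fun B : Fin k → L => ∃ l ∈ L \ J, 3 / 10 * (k * δ) < stat lam (fun a : L => phi P' l a) B)
    (fun B => 8 * (k : ℝ) ^ 2 / Fintype.card F ≤ (rep B : ℝ))).trans_lt (by linarith))
  push Not at hB
  have hrep : rep (fun i => (B i : Line F)) = rep B := by
    simp only [rep, Subtype.ext_iff]
  refine ⟨fun i => B i, J ∪ univ.image fun i => (B i : Line F), fun i => (B i).2,
    hrep ▸ hB.2.le, ?_, fun l hl => ?_⟩
  · refine (card_union_le _ _).trans ?_
    have := card_image_le (s := univ) (f := fun i => (B i : Line F))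
    rw [card_univ, Fintype.card_fin] at this
    omega
  · by_cases hS : l ∈ J ∪ univ.image fun i => (B i : Line F)
    · exact .inl hS
    · rw [mem_union, not_or] at hS
      refine .inr (mem_flt.2 ⟨mem_univ _, ?_⟩)
      rw [← hlam, wt_line _ _ _ _ fun i e => hS.2 (mem_image.2 ⟨i, mem_univ _, e⟩)]
      exact hB.1 l (mem_sdiff.2 ⟨hl, hS.1⟩)

/-- The container lemma.  `𝓛` is the set of all `A ∪ S` with `A ⊆ atyp δ P' B`, `|A| ≤ q`, for
some `B` with `|atyp δ P' B| ≤ M = 9q³/(kδ)²`, and `|S| ≤ k + j`.  Count with `card_line_le`,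
`card_small_le` (`x = q / M ≤ 1`, `9 e ≤ 25`) and `card_small_le_pow`. -/
theorem cont {δ e h : ℝ} {k j : ℕ} (hδ0 : 0 < δ) (hδ1 : δ ≤ 1) (he0 : 0 ≤ e)
    (he : 10 * e ≤ δ * Fintype.card F) (hh0 : 0 < h) (hh : 800 * h ≤ δ ^ 2 * Fintype.card F)
    (hk1 : 10 ≤ k * δ) (hk2 : 40 * (k : ℝ) ≤ δ * Fintype.card F)
    (hk3 : 2 * Fintype.card F * Real.exp (-((k : ℝ) ^ 3 / (2 * (Fintype.card F : ℝ) ^ 2))) < 1)
    (hj : 6 * Fintype.card F * e ≤ j * h) (P' : Finset (Pt F)) :
    ∃ 𝓛 : Finset (Finset (Line F)),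
      (𝓛.card : ℝ) ≤ (2 * (Fintype.card F : ℝ) ^ 2) ^ (2 * k + j) *
        (25 * (Fintype.card F : ℝ) ^ 2 / (k * δ) ^ 2) ^ Fintype.card F ∧
      ∀ (P : Finset (Pt F)) (L : Finset (Line F)), P ⊆ P' → L.card ≤ Fintype.card F →
        (∀ l ∈ L, |((pts l ∩ P).card : ℝ) - δ * Fintype.card F| ≤ e) →
        (∀ l ∈ L, ((pts l ∩ (P' \ P)).card : ℝ) ≤ h) → Covers L P →
        δ * (Fintype.card F : ℝ) ^ 2 - 2 * Fintype.card F * e ≤ P.card → L ∈ 𝓛 := by
  classical
  have hq : (0 : ℝ) < Fintype.card F := by linarith [two_le_q (F := F)]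
  have hk0 : (0 : ℝ) < k := pos_of_mul_pos_of_pos_right_aux hk1 hδ0
  have hkδ : 0 < k * δ := by linarith
  have hline := card_line_le (F := F)
  obtain ⟨M, hM⟩ : ∃ M : ℝ, M = 9 * (Fintype.card F : ℝ) ^ 3 / (k * δ) ^ 2 := ⟨_, rfl⟩
  have hM0 : 0 < M := by rw [hM]; positivity
  have hx : Fintype.card F / M ≤ 1 := by
    rw [div_le_one hM0, hM, le_div_iff₀ (by positivity)]
    have h1 : k * δ ≤ k := mul_le_of_le_one_right hk0.le hδ1
    have h2 : δ * Fintype.card F ≤ Fintype.card F := mul_le_of_le_one_left hq.le hδ1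
    have h3 : (k * δ) ^ 2 ≤ (Fintype.card F : ℝ) ^ 2 := by gcongr; linarith
    have h4 := mul_le_mul_of_nonneg_left h3 hq.le
    have h5 : 0 ≤ (Fintype.card F : ℝ) ^ 3 := by positivity
    linarith
  refine ⟨(flt univ fun B : Fin k → Line F => ((atyp δ P' B).card : ℝ) ≤ M).biUnion fun B =>
    image₂ (· ∪ ·) (flt (atyp δ P' B).powerset fun A => A.card ≤ Fintype.card F)
      (flt (univ : Finset (Line F)).powerset fun S => S.card ≤ k + j), ?_,
    fun P L hPP hL h1 h2 hc hP => ?_⟩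
  · have c1 : ∀ B ∈ flt univ fun B : Fin k → Line F => ((atyp δ P' B).card : ℝ) ≤ M,
        ((image₂ (· ∪ ·) (flt (atyp δ P' B).powerset fun A => A.card ≤ Fintype.card F)
          (flt (univ : Finset (Line F)).powerset fun S => S.card ≤ k + j)).card : ℝ) ≤
        (25 * (Fintype.card F : ℝ) ^ 2 / (k * δ) ^ 2) ^ Fintype.card F *
          (2 * (Fintype.card F : ℝ) ^ 2) ^ (k + j) := fun B hB => by
      refine le_trans (Nat.cast_le.2 (card_image₂_le _ _ _)) ?_
      rw [Nat.cast_mul]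
      refine mul_le_mul ?_ ?_ (Nat.cast_nonneg _) (by positivity)
      · refine (card_small_le _ _ (div_pos hq hM0) hx).trans ?_
        have h1 : Fintype.card F / M * (atyp δ P' B).card ≤ Fintype.card F * 1 := by
          calc _ ≤ Fintype.card F / M * M :=
                mul_le_mul_of_nonneg_left (mem_flt.1 hB).2 (div_pos hq hM0).le
            _ = _ := by field_simp
        calc _ ≤ Real.exp (Fintype.card F * 1) / (Fintype.card F / M) ^ Fintype.card F :=
              div_le_div_of_nonneg_right (Real.exp_le_exp.2 h1) (by positivity)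
          _ = (9 * Real.exp 1 * ((Fintype.card F : ℝ) ^ 2 / (k * δ) ^ 2)) ^ Fintype.card F := by
              rw [Real.exp_nat_mul, ← div_pow, hM]
              congr 1
              field_simp
          _ ≤ _ := by
              rw [mul_div_assoc]
              gcongr
              linarith [Real.exp_one_lt_d9]
      · refine le_trans (Nat.cast_le.2 (card_small_le_pow _ _)) ?_
        rw [card_univ]
        push_cast
        gcongr
    refine le_trans (Nat.cast_le.2 card_biUnion_le) ?_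
    rw [Nat.cast_sum]
    refine (sum_le_card_nsmul _ _ _ c1).trans ?_
    have c2 : ((flt univ fun B : Fin k → Line F => ((atyp δ P' B).card : ℝ) ≤ M).card : ℝ) ≤
        (2 * (Fintype.card F : ℝ) ^ 2) ^ k := by
      calc _ ≤ ((univ : Finset (Fin k → Line F)).card : ℝ) := by
            exact_mod_cast card_le_card (subset_univ _)
        _ = (Fintype.card (Line F) : ℝ) ^ k := by simp only [card_univ, Fintype.card_fun,
            Fintype.card_fin, Nat.cast_pow]
        _ ≤ _ := by gcongr; linarith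
    rw [nsmul_eq_mul]
    refine (mul_le_mul_of_nonneg_right c2 (by positivity)).trans (le_of_eq ?_)
    ring
  · obtain ⟨B, S, hB, hrep, hS, hLS⟩ := exists_sample hδ0 he0 he hh0 hh hk1 hk2 hk3 hj P P' L hL
      (fun l hl => by linarith [(abs_le.1 (h1 l hl)).2]) h2 hc hP
    have hat := card_atyp hδ0 hδ1 he (by exact_mod_cast hk0) hk2 P' B (fun i => by
      have : ((pts (B i) ∩ P).card : ℝ) ≤ (pts (B i) ∩ P').card := by
        exact_mod_cast card_le_card (inter_subset_inter_left hPP)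
      linarith [(abs_le.1 (h1 _ (hB i))).1]) hrep
    refine mem_biUnion.2 ⟨B, mem_flt.2 ⟨mem_univ _, hM ▸ hat⟩, mem_image₂.2 ⟨L \ S,
      mem_flt.2 ⟨mem_powerset.2 fun l hl => (hLS l (mem_sdiff.1 hl).1).resolve_left
        (mem_sdiff.1 hl).2, (card_le_card sdiff_subset).trans hL⟩, L ∩ S,
      mem_flt.2 ⟨mem_powerset.2 (subset_univ _), (card_le_card inter_subset_right).trans hS⟩,
      sdiff_union_inter L S⟩⟩

end Crest.Agent.R34
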