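import Crest.Agent.R34.Defs

/-! Row 34: a small cover cannot be built on the pencil of a centre. -/

set_option autoImplicit false
set_option linter.unusedSectionVars false

namespace Crest.Agent.R34

open Finset

variable {F : Type} [Field F] [Fintype F] [DecidableEq F]

instance (b : Bool) (h : Host) : Decidable (Side b h) := by unfold Side; infer_instance
instance (s : Fin 11) (h : Host) : Decidable (Val s h) := by unfold Val; infer_instance

theorem card_side (b : Bool) : (univ.filter fun h : Host => Side b h).card = 12 := by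
  revert b; decide

theorem card_side_val (b : Bool) (s : Fin 11) :
    (univ.filter fun h : Host => Side b h ∧ Val s h).card = 11 := by
  revert b s; decide

theorem card_not_val (h : Host) : (univ.filter fun s : Fin 11 => ¬ Val s h).card ≤ 1 := by
  revert h; decide

theorem val_none (s : Fin 11) : Val s none := fun _ h => by cases h

section

variable {g : Gad F} {i : Dir F} {sp : Fin 11 → Host → Pt F}

theorem sp_ne_centre (hg : g.Ok) (hl : Loc g i sp) {s : Fin 11} {h : Host} (hv : Val s h)
    (b : Bool) : sp s h ≠ g.O i b := fun e => by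
  have h1 := (hl.only s h i none hv (e ▸ hg.on_host i (b := b) (.inl rfl))).2
  have h2 := (hl.only s h i (some (b, 0)) hv (e ▸ hg.on_host i (b := b) (.inr ⟨0, rfl⟩))).2
  cases h1.trans h2.symm

/-- A pointer meets the main line only in its own point. -/
theorem eq_of_on_ptr (hg : g.Ok) (hl : Loc g i sp) {b : Bool} {s : Fin 11} {x : Pt F}
    (h1 : On x (g.host i none)) (h2 : On x (g.ptr i b s (sp s none))) : x = sp s none :=
  eq_of_pr (hg.ne i b s) h2 (h1.trans (hl.onHost s none (val_none s)).symm)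

theorem centre_not_on_ptr (hg : g.Ok) (hl : Loc g i sp) (b b' : Bool) (s : Fin 11) :
    ¬ On (g.O i b') (g.ptr i b s (sp s none)) := fun h =>
  sp_ne_centre hg hl (val_none s) b' (eq_of_on_ptr hg hl (hg.onMain i b') h).symm

/-- A pointer contains only the points of its own slot. -/
theorem slot_of_on_ptr (hg : g.Ok) (hl : Loc g i sp) {b : Bool} {s s' : Fin 11} {h : Host}
    (hs : Side b h) (hv : Val s' h) (ho : On (sp s' h) (g.ptr i b s (sp s none))) : s' = s := by
  have hh := hl.onHost s' h hv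
  by_cases hv2 : Val s h
  · refine hl.inj s' s h hv hv2 (eq_of_pr (d := (g.host i h).1) (d' := g.a i b s) (fun e => ?_)
      (hh.trans (hl.onHost s h hv2).symm) (ho.trans (hl.onPtr s b h hv2 hs).symm))
    exact hv2 b (hg.dir_inj (h' := some (b, s)) e)
  · exfalso
    obtain rfl : h = some (b, s) := by
      rcases hs with rfl | ⟨j, rfl⟩
      · exact absurd (val_none s) hv2
      · by_contra hne
        exact hv2 fun b' e => hne (by cases e; rfl)
    exact centre_not_on_ptr hg hl b b s (Eq.trans hh.symm ho)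

/-- Two points of one slot span the pointer. -/
theorem eq_ptr (hl : Loc g i sp) {b : Bool} {s : Fin 11} {h h' : Host} {m : Line F}
    (hs : Side b h) (hs' : Side b h') (hv : Val s h) (hv' : Val s h') (hne : h ≠ h')
    (ho : On (sp s h) m) (ho' : On (sp s h') m) : m = g.ptr i b s (sp s none) := by
  by_contra hm
  have e := eq_of_on hm ho (hl.onPtr s b h hv hs) ho' (hl.onPtr s b h' hv' hs')
  exact hne (hl.only s h i h' hv (e ▸ hl.onHost s h' hv')).2.symm

theorem card_le_two (hl : Loc g i sp) {b : Bool} {m : Line F} (hm : ¬ On (g.O i b) m)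
    (hp : ∀ s, m ≠ g.ptr i b s (sp s none)) (X : Finset (Fin 11 × Host))
    (hX : ∀ x ∈ X, Side b x.2 ∧ Val x.1 x.2 ∧ On (sp x.1 x.2) m) : X.card ≤ 2 := by
  have key : ∀ x ∈ X, ∀ y ∈ X, x ≠ y → x.1 ≠ y.1 := fun x hx y hy hne e => by
    obtain ⟨a1, a2, a3⟩ := hX x hx
    obtain ⟨b1, b2, b3⟩ := hX y hy
    rw [← e] at b2 b3
    exact hp x.1 (eq_ptr hl a1 b1 a2 b2 (fun e' => hne (Prod.ext e e')) a3 b3)
  by_contra hc
  obtain ⟨x, hx, y, hy, z, hz, h1, h2, h3⟩ := two_lt_card.1 (not_le.1 hc)
  exact hl.gen3 b m x.1 y.1 z.1 x.2 y.2 z.2 hm (key x hx y hy h1) (key x hx z hz h2)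
    (key y hy z hz h3) (hX x hx).1 (hX y hy).1 (hX z hz).1 (hX x hx).2.1 (hX y hy).2.1
    (hX z hz).2.1 (hX x hx).2.2 (hX y hy).2.2 (hX z hz).2.2

end

/-- With `A` the hosts through the centre that are in `C`, `U` the slots whose pointer is not in
`C`, and `N` the lines of `C` that miss the centre and are not pointers:
`|A| + |N| + |St| ≤ |U|`, `|U| ≤ |N| + 1` and `|U| (11 - |A|) ≤ 2 |N|`, so `U` is empty. -/
theorem cover_centre (g : Gad F) (hg : g.Ok) (sp : Dir F → Fin 11 → Host → Pt F)
    (hl : ∀ i, Loc g i (sp i)) (C : Finset (Line F)) (St : Finset (Dir F))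
    (hC : C.card + St.card ≤ Fintype.card F) (i : Dir F) (b : Bool)
    (hpen : ∀ l, On (g.O i b) l → l ∈ C ∨ Used g l)
    (hsp : ∀ s h, Val s h → ∃ l ∈ C, On (sp i s h) l) : ¬ FCov g sp C St i (!b) := by
  classical
  have hL := hl i
  set p : Fin 11 → Line F := fun s => g.ptr i b s (sp i s none) with hp
  set Hs := univ.filter fun h : Host => Side b h with hHs
  set A := Hs.filter fun h => g.host i h ∈ C with hA
  set A' := Hs.filter fun h => ¬ g.host i h ∈ C with hA'
  set C' := C.filter fun l => ¬ On (g.O i b) l with hC'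
  set N := C'.filter fun l => ∀ s, l ≠ p s with hN
  set U := univ.filter fun s => ¬ p s ∈ C with hU
  have e1 : A.card + A'.card = 12 := by
    rw [hA, hA', card_filter_add_card_filter_not, card_side]
  have e2 : (C.filter fun l => On (g.O i b) l).card + C'.card = C.card :=
    card_filter_add_card_filter_not _
  have e3 : Fintype.card F + 1 ≤ (C.filter fun l => On (g.O i b) l).card + A'.card := by
    rw [← card_thru (g.O i b)]
    refine le_trans (card_le_card (t := (C.filter fun l => On (g.O i b) l) ∪ A'.image (g.host i))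
      fun l hl => ?_) ((card_union_le _ _).trans (Nat.add_le_add_left card_image_le _))
    have hon := (mem_filter.1 hl).2
    by_cases hlC : l ∈ C
    · exact mem_union_left _ (mem_filter.2 ⟨hlC, hon⟩)
    · obtain ⟨i', h, rfl⟩ := (hpen l hon).resolve_left hlC
      obtain ⟨rfl, hs⟩ := hg.cen i b i' h hon
      exact mem_union_right _ (mem_image_of_mem _ (mem_filter.2 ⟨mem_filter.2 ⟨mem_univ _, hs⟩, hlC⟩))
  have e4 : (univ.filter fun s => p s ∈ C).card + U.card = 11 := by
    rw [hU, card_filter_add_card_filter_not]; simp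
  have e5 : (univ.filter fun s => p s ∈ C).card + N.card ≤ C'.card := by
    have h1 : N.card +
        (C'.filter fun l => ¬ ∀ s, l ≠ p s).card = C'.card := card_filter_add_card_filter_not _
    have h2 : (univ.filter fun s => p s ∈ C).card ≤ (C'.filter fun l => ¬ ∀ s, l ≠ p s).card := by
      refine card_le_card_of_injOn p (fun s hs => ?_) fun s _ s' _ e => ?_
      · exact mem_filter.2 ⟨mem_filter.2 ⟨(mem_filter.1 hs).2, centre_not_on_ptr hg hL b b s⟩,
          fun h => h s rfl⟩
      · exact (hg.inj i b s b s' (congrArg Prod.fst e)).2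
    omega
  have key : ∀ x : Fin 11 × Host, ∃ l, x.1 ∈ U → x.2 ∈ A' → Val x.1 x.2 →
      l ∈ N ∧ On (sp i x.1 x.2) l := fun ⟨s, h⟩ => by
    by_cases hv : Val s h
    swap
    · exact ⟨p s, fun _ _ h' => absurd h' hv⟩
    obtain ⟨l, hlC, hon⟩ := hsp s h hv
    refine ⟨l, fun hs hh _ => ⟨mem_filter.2 ⟨mem_filter.2 ⟨hlC, fun ho => ?_⟩, fun s' e => ?_⟩, hon⟩⟩
    · obtain ⟨h1, h2⟩ := mem_filter.1 hh
      have hne : l ≠ g.host i h := fun e => h2 (e ▸ hlC)
      exact sp_ne_centre hg hL hv b
        (eq_of_on hne hon (hL.onHost s h hv) ho (hg.on_host i (mem_filter.1 h1).2))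
    · have hs' : s = s' :=
        slot_of_on_ptr hg hL (mem_filter.1 (mem_filter.1 hh).1).2 hv (by rw [e] at hon; exact hon)
      exact (mem_filter.1 hs).2 (hs' ▸ e ▸ hlC)
  choose f hf using key
  obtain ⟨h₀, hh₀⟩ : A'.Nonempty := card_pos.1 (by omega)
  have e6 : U.card ≤ N.card + 1 := by
    have h1 : (U.filter fun s => Val s h₀).card + (U.filter fun s => ¬ Val s h₀).card = U.card :=
      card_filter_add_card_filter_not _
    have h2 : (U.filter fun s => ¬ Val s h₀).card ≤ 1 :=
      (card_le_card (filter_subset_filter _ (subset_univ _))).trans (card_not_val h₀)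
    have h3 : (U.filter fun s => Val s h₀).card ≤ N.card := by
      refine card_le_card_of_injOn (fun s => f (s, h₀)) (fun s hs => ?_) fun s hs s' hs' e => ?_
      · exact (hf (s, h₀) (mem_filter.1 hs).1 hh₀ (mem_filter.1 hs).2).1
      · obtain ⟨a1, a2⟩ := hf (s, h₀) (mem_filter.1 hs).1 hh₀ (mem_filter.1 hs).2
        obtain ⟨-, b2⟩ := hf (s', h₀) (mem_filter.1 hs').1 hh₀ (mem_filter.1 hs').2
        have hne : f (s, h₀) ≠ g.host i h₀ := fun e' =>
          (mem_filter.1 hh₀).2 (e' ▸ (mem_filter.1 (mem_filter.1 a1).1).1)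
        have e' : f (s, h₀) = f (s', h₀) := e
        exact hL.inj s s' h₀ (mem_filter.1 hs).2 (mem_filter.1 hs').2
          (eq_of_on hne a2 (hL.onHost s h₀ (mem_filter.1 hs).2) (e' ▸ b2)
            (hL.onHost s' h₀ (mem_filter.1 hs').2))
    omega
  set X := (U ×ˢ A').filter fun x => Val x.1 x.2 with hX
  have e7 : X.card ≤ 2 * N.card := by
    refine card_le_mul_card_image_of_maps_to (f := f) (fun x hx => ?_) 2 fun m hm => ?_
    · obtain ⟨h1, h2⟩ := mem_filter.1 hx
      exact (hf x (mem_product.1 h1).1 (mem_product.1 h1).2 h2).1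
    · refine card_le_two hL (mem_filter.1 (mem_filter.1 hm).1).2 (mem_filter.1 hm).2 _ fun x hx => ?_
      obtain ⟨hx1, rfl⟩ := mem_filter.1 hx
      obtain ⟨h1, h2⟩ := mem_filter.1 hx1
      exact ⟨(mem_filter.1 (mem_filter.1 (mem_product.1 h1).2).1).2, h2,
        (hf x (mem_product.1 h1).1 (mem_product.1 h1).2 h2).2⟩
  have e8 : U.card * 10 ≤ X.card := by
    rw [card_eq_sum_card_fiberwise (f := Prod.fst) (t := U)
      fun x hx => (mem_product.1 (mem_filter.1 hx).1).1]
    refine le_trans (le_of_eq (by simp)) (sum_le_sum (f := fun _ => 10) fun s hs => ?_)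
    have h1 : (univ.filter fun h : Host => Side b h ∧ Val s h).card ≤
        (X.filter fun x => x.1 = s).card + A.card := by
      refine le_trans (card_le_card (t := (X.filter fun x => x.1 = s).image Prod.snd ∪ A)
        fun h hh => ?_) ((card_union_le _ _).trans (Nat.add_le_add_right card_image_le _))
      obtain ⟨h1, h2⟩ := (mem_filter.1 hh).2
      by_cases hC : g.host i h ∈ C
      · exact mem_union_right _ (mem_filter.2 ⟨mem_filter.2 ⟨mem_univ _, h1⟩, hC⟩)
      · exact mem_union_left _ (mem_image.2 ⟨(s, h), mem_filter.2 ⟨mem_filter.2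
          ⟨mem_product.2 ⟨hs, mem_filter.2 ⟨mem_filter.2 ⟨mem_univ _, h1⟩, hC⟩⟩, h2⟩, rfl⟩, rfl⟩)
    rw [card_side_val] at h1
    show 10 ≤ (X.filter fun x => x.1 = s).card
    omega
  have hSt : St = ∅ := card_eq_zero.1 (by omega)
  have hN0 : N = ∅ := card_eq_zero.1 (by omega)
  have hptr : ∀ l ∈ C, ¬ On (g.O i b) l → ∃ s, l = p s := fun l h1 h2 => by
    by_contra hn
    push Not at hn
    have : l ∈ N := mem_filter.2 ⟨mem_filter.2 ⟨h1, h2⟩, hn⟩
    rw [hN0] at this
    exact notMem_empty _ this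
  rintro (h | ⟨s, h⟩ | ⟨d, hd, -, h⟩)
  · rw [hSt] at h; exact notMem_empty _ h
  · obtain ⟨s', e⟩ := hptr _ h (centre_not_on_ptr hg hL (!b) b s)
    have := (hg.inj i (!b) s b s' (congrArg Prod.fst e)).1
    cases b <;> cases this
  · have hne : ¬ On (g.O i b) (d, pr d (g.O i (!b))) := fun ho => by
      have e : g.O i b = g.O i (!b) :=
        eq_of_pr hd ho ((hg.onMain i b).trans (hg.onMain i (!b)).symm)
      have h1 := hg.on_host i (b := !b) (h := some (!b, 0)) (.inr ⟨0, rfl⟩)
      rw [← e] at h1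
      rcases (hg.cen i b i _ h1).2 with h2 | ⟨s, h2⟩
      · cases h2
      · cases b <;> cases h2
    obtain ⟨s', e⟩ := hptr _ h hne
    exact centre_not_on_ptr hg hL b (!b) s' (by
      have := on_self (g.O i (!b)) d
      rw [e] at this; exact this)

end Crest.Agent.R34
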