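import Crest.Agent.R34.Defs

/-! Row 34: a small cover cannot be built on another pencil. -/

set_option autoImplicit false
set_option linter.unusedSectionVars false

namespace Crest.Agent.R34

open Finset

variable {F : Type} [Field F] [Fintype F] [DecidableEq F]

private def cbSd : Host → Bool
  | none => true
  | some (b, _) => b

private theorem cb_side (h : Host) : Side (cbSd h) h := by
  rcases h with _ | ⟨b, s⟩
  · exact .inl rfl
  · exact .inr ⟨s, rfl⟩

private theorem cb_thr {l m : Line F} {o : Pt F ⊕ Dir F} (hne : l ≠ m) (h1 : Thr l o)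
    (h2 : Thr m o) {p : Pt F} (h3 : On p l) (h4 : On p m) : o = .inl p := by
  rcases o with x | d
  · rw [eq_of_on hne h1 h2 h3 h4]
  · exact absurd (line_eq_of_dir (h1.trans h2.symm) h3 h4) hne

private theorem cb_val (h : Host) : 10 ≤ (flt (univ : Finset (Fin 11)) fun s => Val s h).card := by
  rcases h with _ | ⟨b, s₀⟩
  · have : (flt (univ : Finset (Fin 11)) fun s => Val s none) = univ := by
      ext s; simp [Val]
    rw [this]; simp
  · have : univ.erase s₀ ⊆ (flt (univ : Finset (Fin 11)) fun s => Val s (some (b, s₀))) := by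
      intro s hs
      simp only [mem_flt, mem_univ, true_and, Val]
      intro b' e
      simp only [Option.some.injEq, Prod.mk.injEq] at e
      exact (mem_erase.1 hs).1 e.2.symm
    refine le_trans ?_ (card_le_card this)
    rw [card_erase_of_mem (mem_univ _)]; simp

private theorem cb_val9 {g : Gad F} {i : Dir F} {sp : Fin 11 → Host → Pt F} (hl : Loc g i sp)
    (h : Host) (o : Pt F ⊕ Dir F) :
    9 ≤ (flt (univ : Finset (Fin 11)) fun s => Val s h ∧ o ≠ .inl (sp s h)).card := by
  have h1 := cb_val h
  have h2 : (flt (univ : Finset (Fin 11)) fun s => Val s h ∧ o = .inl (sp s h)).card ≤ 1 := by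
    refine card_le_one.2 fun s hs s' hs' => ?_
    simp only [mem_flt, mem_univ, true_and] at hs hs'
    exact hl.inj s s' h hs.1 hs'.1 (Sum.inl_injective (hs.2.symm.trans hs'.2))
  have h3 : (flt (univ : Finset (Fin 11)) fun s => Val s h) ⊆
      (flt (univ : Finset (Fin 11)) fun s => Val s h ∧ o ≠ .inl (sp s h)) ∪
        (flt (univ : Finset (Fin 11)) fun s => Val s h ∧ o = .inl (sp s h)) := by
    intro s hs
    simp only [mem_flt, mem_univ, true_and, mem_union] at hs ⊢
    by_cases e : o = .inl (sp s h)
    · exact .inr ⟨hs, e⟩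
    · exact .inl ⟨hs, e⟩
  have h4 := (card_le_card h3).trans (card_union_le _ _)
  omega

/-- Let `W` be the set of used lines through `o` that are not in `C`, and `C'` the lines of `C` not
through `o`.  Each line of `W` has at least 10 semi-plain points (`inj`), at least 9 of them `≠ o`,
and these lie on lines of `C'`.  A line `m ∈ C'` meets each line of `W` once, and has semi-plain
points on at most 8 lines of `W`: at most 4 gadgets (`Cross`), and a gadget has at most two hosts
through `o` (two hosts of the same side meet only in the centre and have different directions). -/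
theorem nine_le (g : Gad F) (hg : g.Ok) (sp : Dir F → Fin 11 → Host → Pt F)
    (hl : ∀ i, Loc g i (sp i)) (hx : Cross g sp) (C : Finset (Line F)) (o : Pt F ⊕ Dir F)
    (ho : ∀ i b, o ≠ .inl (g.O i b)) (hsp : ∀ i s h, Val s h → ∃ l ∈ C, On (sp i s h) l) :
    9 * (flt univ fun l => Thr l o ∧ l ∉ C ∧ Used g l).card ≤
      8 * (flt C fun l => ¬ Thr l o).card := by
  classical
  rw [mul_comm 9, mul_comm 8]
  refine card_mul_le_card_mul
    (fun l m : Line F => ∃ i s h, Val s h ∧ l = g.host i h ∧ On (sp i s h) m)
    (fun l hlW => ?_) (fun m hm => ?_)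
  · simp only [mem_flt, mem_univ, true_and] at hlW
    obtain ⟨hlo, hlC, i, h, rfl⟩ := hlW
    refine (cb_val9 (hl i) h o).trans ?_
    have hch : ∀ s, ∃ m, Val s h → m ∈ C ∧ On (sp i s h) m := fun s => by
      by_cases hv : Val s h
      · obtain ⟨m, h1, h2⟩ := hsp i s h hv
        exact ⟨m, fun _ => ⟨h1, h2⟩⟩
      · exact ⟨g.host i h, fun hv' => absurd hv' hv⟩
    choose f hf using hch
    have hne : ∀ s, Val s h → g.host i h ≠ f s := fun s hv e => hlC (e ▸ (hf s hv).1)
    refine card_le_card_of_injOn f (fun s hs => ?_) (fun s hs s' hs' e => ?_)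
    · simp only [mem_coe, mem_flt, mem_univ, true_and] at hs
      simp only [mem_coe, mem_bipartiteAbove, mem_flt]
      exact ⟨⟨(hf s hs.1).1, fun ht => hs.2
        (cb_thr (hne s hs.1) hlo ht ((hl i).onHost s h hs.1) (hf s hs.1).2)⟩,
        i, s, h, hs.1, rfl, (hf s hs.1).2⟩
    · simp only [mem_coe, mem_flt, mem_univ, true_and] at hs hs'
      refine (hl i).inj s s' h hs.1 hs'.1 ?_
      exact eq_of_on (hne s hs.1) ((hl i).onHost s h hs.1) (hf s hs.1).2
        ((hl i).onHost s' h hs'.1) (e ▸ (hf s' hs'.1).2)
  · simp only [mem_flt] at hm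
    have hX := hx o m hm.2
    set X := flt univ fun i => ∃ s h, Val s h ∧ Thr (g.host i h) o ∧ On (sp i s h) m with hXd
    set Y : Finset (Dir F × Host) := flt univ fun p => p.1 ∈ X ∧ Thr (g.host p.1 p.2) o with hY
    have h1 : Y.card ≤ (X ×ˢ (univ : Finset Bool)).card := by
      refine card_le_card_of_injOn (fun p => (p.1, cbSd p.2)) (fun p hp => ?_) ?_
      · simp only [hY, mem_coe, mem_flt, mem_univ, true_and] at hp
        simp only [mem_coe, mem_product, mem_univ, and_true]
        exact hp.1
      · rintro ⟨i, h⟩ hp ⟨i', h'⟩ hp' e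
        simp only [hY, mem_coe, mem_flt, mem_univ, true_and] at hp hp'
        simp only [Prod.mk.injEq] at e
        obtain ⟨rfl, e⟩ := e
        by_contra hne
        have hne' : g.host i h ≠ g.host i h' := fun e' => hne (by rw [(hg.host_inj e').2])
        exact ho i (cbSd h) (cb_thr hne' hp.2 hp'.2 (hg.on_host i (cb_side h))
          (hg.on_host i (e ▸ cb_side h')))
    rw [card_product, card_univ, Fintype.card_bool] at h1
    refine le_trans (card_le_card (t := Y.image fun p => g.host p.1 p.2) fun l hl' => ?_)
      (card_image_le.trans (by omega))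
    simp only [mem_bipartiteBelow, mem_flt, mem_univ, true_and] at hl'
    obtain ⟨⟨hlo, -, -⟩, i, s, h, hv, rfl, hon⟩ := hl'
    refine mem_image.2 ⟨(i, h), ?_, rfl⟩
    simp only [hY, hXd, mem_flt, mem_univ, true_and]
    exact ⟨⟨s, h, hv, hlo, hon⟩, hlo⟩

/-- An affine `o` has `q + 1` lines, so `|C'| + 1 ≤ |W|`, against `nine_le`.  A direction `d` has
`q` lines, so `|C'| + |St| ≤ |W|`; `nine_le` gives `W = C' = St = ∅`, and the edge `(d, true)` is
not met. -/
theorem cover_other (g : Gad F) (hg : g.Ok) (sp : Dir F → Fin 11 → Host → Pt F)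
    (hl : ∀ i, Loc g i (sp i)) (hx : Cross g sp) (C : Finset (Line F)) (St : Finset (Dir F))
    (hC : C.card + St.card ≤ Fintype.card F) (o : Pt F ⊕ Dir F)
    (ho : ∀ i b, o ≠ .inl (g.O i b)) (hpen : ∀ l, Thr l o → l ∈ C ∨ Used g l)
    (hsp : ∀ i s h, Val s h → ∃ l ∈ C, On (sp i s h) l) (hF : ∀ i b, FCov g sp C St i b) :
    False := by
  classical
  have h9 := nine_le g hg sp hl hx C o ho hsp
  have h1 : (flt univ fun l : Line F => Thr l o).card ≤
      (flt C fun l => Thr l o).card + (flt univ fun l => Thr l o ∧ l ∉ C ∧ Used g l).card := by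
    refine le_trans (card_le_card fun l hl' => ?_) (card_union_le _ _)
    simp only [mem_flt, mem_univ, true_and, mem_union] at hl' ⊢
    by_cases hc : l ∈ C
    · exact .inl ⟨hc, hl'⟩
    · exact .inr ⟨hl', hc, (hpen l hl').resolve_left hc⟩
  have h2 : (flt C fun l => Thr l o).card + (flt C fun l => ¬ Thr l o).card = C.card := by
    rw [flt_eq, flt_eq]
    exact card_filter_add_card_filter_not _
  rcases o with p | d
  · have h3 : (flt univ fun l : Line F => Thr l (.inl p)).card = Fintype.card F + 1 := by
      rw [← card_thru p]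
      congr 1
      ext l
      simp [Thr]
    omega
  · have h3 : Fintype.card F ≤ (flt univ fun l : Line F => Thr l (.inr d)).card := by
      rw [← card_univ]
      refine card_le_card_of_injOn (fun c => (d, c)) (fun c _ => by simp [Thr]) ?_
      intro c _ c' _ e
      exact (Prod.ext_iff.1 e).2
    have h4 : St.card = 0 := by omega
    have h5 : (flt C fun l => ¬ Thr l (.inr d)).card = 0 := by omega
    rw [card_eq_zero] at h4 h5
    have h6 : ∀ l ∈ C, l.1 = d := fun l hl' => by
      by_contra hne
      have : l ∈ flt C fun l => ¬ Thr l (.inr d) := mem_flt.2 ⟨hl', hne⟩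
      rw [h5] at this
      exact absurd this (notMem_empty _)
    rcases hF d true with h | ⟨s, h⟩ | ⟨d', hd', -, h⟩
    · rw [h4] at h
      exact absurd h (notMem_empty _)
    · exact hg.ne d true s (h6 _ h)
    · exact hd' (h6 _ h)

end Crest.Agent.R34
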