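import Crest.Agent.R34.Mcd

/-! Row 34: a collision statistic of random samples. -/

set_option autoImplicit false
set_option linter.unusedSectionVars false

namespace Crest.Agent.R34

open Finset

variable {A X : Type} {k : ℕ}

/-- Number of samples that are not sent to `none`. -/
noncomputable def hits (φ : A → Option X) (B : Fin k → A) : ℕ :=
  (flt univ fun j => φ (B j) ≠ none).card

/-- The set of values taken on a finite set. -/
noncomputable def vals {Y : Type} [Fintype Y] (ψ : Y → Option X) : Finset X := by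
  classical exact (univ.image ψ).eraseNone

theorem mem_vals {Y : Type} [Fintype Y] {ψ : Y → Option X} {x : X} :
    x ∈ vals ψ ↔ ∃ y, ψ y = some x := by
  unfold vals; simp

/-- `(1 + lam) * (number of distinct values) - lam * (number of hits)`. -/
noncomputable def stat (lam : ℝ) (φ : A → Option X) (B : Fin k → A) : ℝ :=
  (1 + lam) * (vals fun j => φ (B j)).card - lam * hits φ B

variable [Fintype A] [Nonempty A]

theorem samp_vals_le (φ : A → Option X) {B B' : Fin k → A} (j : Fin k)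
    (h : ∀ i, i ≠ j → B' i = B i) :
    (vals fun j => φ (B' j)).card ≤ (vals fun j => φ (B j)).card + 1 := by
  classical
  refine le_trans (card_le_card (t := (vals fun j => φ (B j)) ∪ (φ (B' j)).toFinset)
    fun x hx => ?_) ((card_union_le _ _).trans ?_)
  · obtain ⟨i, hi⟩ := mem_vals.1 hx
    by_cases e : i = j
    · subst e; exact mem_union_right _ (by simp [hi])
    · exact mem_union_left _ (mem_vals.2 ⟨i, by rw [← h i e, hi]⟩)
  · cases φ (B' j) <;> simp

theorem samp_hits_le (φ : A → Option X) {B B' : Fin k → A} (j : Fin k)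
    (h : ∀ i, i ≠ j → B' i = B i) : hits φ B' ≤ hits φ B + 1 := by
  refine le_trans (card_le_card (t := insert j (flt univ fun j => φ (B j) ≠ none))
    fun i hi => ?_) (card_insert_le _ _)
  by_cases e : i = j
  · simp [e]
  · refine mem_insert_of_mem ?_
    rw [mem_flt] at hi ⊢
    rwa [← h i e]

theorem samp_sum_p (φ : A → Option X) :
    ∑ x ∈ vals φ, Pr (fun a => φ a = some x) = Pr fun a => φ a ≠ none := by
  rw [← Pr_exists_disj (vals φ) (fun x a => φ a = some x) fun x _ x' _ a h h' =>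
    Option.some.inj (h.symm.trans h')]
  refine Pr_congr fun a => ⟨fun ⟨x, _, h⟩ => by simp [h], fun h => ?_⟩
  obtain ⟨x, hx⟩ := Option.ne_none_iff_exists'.1 h
  exact ⟨x, mem_vals.2 ⟨a, hx⟩, hx⟩

theorem samp_Ex_vals (φ : A → Option X) :
    Ex (fun B : Fin k → A => ((vals fun j => φ (B j)).card : ℝ)) =
      ∑ x ∈ vals φ, (1 - (1 - Pr fun a => φ a = some x) ^ k) := by
  have e : ∀ B : Fin k → A, (vals fun j => φ (B j)) =
      flt (vals φ) fun x => ∃ j, φ (B j) = some x := fun B => by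
    ext x
    simp only [mem_vals, mem_flt]
    exact ⟨fun ⟨j, h⟩ => ⟨⟨_, h⟩, j, h⟩, fun h => h.2⟩
  simp only [e]
  rw [Ex_card_flt (vals φ) fun x (B : Fin k → A) => ∃ j, φ (B j) = some x]
  refine sum_congr rfl fun x _ => ?_
  have h1 := Pr_not fun B : Fin k → A => ∀ j, ¬ φ (B j) = some x
  rw [Pr_pi (α := fun _ : Fin k => A) fun _ a => ¬ φ a = some x,
    Pr_not fun a => φ a = some x, prod_const, card_univ, Fintype.card_fin] at h1
  rw [← h1]
  exact Pr_congr fun B => by simp

theorem samp_Ex_hits (φ : A → Option X) :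
    Ex (fun B : Fin k → A => (hits φ B : ℝ)) = k * Pr fun a => φ a ≠ none := by
  unfold hits
  rw [Ex_card_flt univ fun j (B : Fin k → A) => φ (B j) ≠ none]
  rw [sum_congr rfl fun j _ => Pr_coord (α := fun _ : Fin k => A) j fun a => φ a ≠ none]
  simp

theorem samp_pow_mul {p : ℝ} (h0 : 0 ≤ p) (h1 : p ≤ 1) (k : ℕ) : (1 - p) ^ k * (1 + k * p) ≤ 1 := by
  calc (1 - p) ^ k * (1 + k * p) ≤ (1 - p) ^ k * (1 + p) ^ k :=
        mul_le_mul_of_nonneg_left (one_add_mul_le_pow (by linarith) k) (pow_nonneg (by linarith) k)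
    _ = ((1 - p) * (1 + p)) ^ k := (mul_pow _ _ _).symm
    _ ≤ 1 := pow_le_one₀ (mul_nonneg (by linarith) (by linarith)) (by nlinarith)

theorem samp_f_le {lam p : ℝ} (hl : 0 < lam) (h0 : 0 ≤ p) (h1 : p ≤ 1) (k : ℕ) :
    (1 + lam) * (1 - (1 - p) ^ k) - lam * (k * p) ≤ 1 / lam + p := by
  induction k with
  | zero => simp; positivity
  | succ k ih =>
    by_cases h : k * p ≤ 1 / lam
    · have h2 : 1 + ((k + 1 : ℕ) : ℝ) * -p ≤ (1 + -p) ^ (k + 1) :=
        one_add_mul_le_pow (by linarith) (k + 1)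
      rw [← sub_eq_add_neg] at h2
      have h3 := mul_le_mul_of_nonneg_left h2 (by linarith : 0 ≤ 1 + lam)
      push_cast at h3 ⊢
      linarith
    · push Not at h
      rw [div_lt_iff₀ hl] at h
      have h2 := samp_pow_mul h0 h1 k
      have h3 : 0 ≤ (1 - p) ^ k := pow_nonneg (by linarith) k
      have h4 : (1 + lam) * (1 - p) ^ k ≤ lam := by
        have := mul_le_mul_of_nonneg_left h2 hl.le
        have := mul_le_mul_of_nonneg_left h.le h3
        linarith
      have h5 := mul_le_mul_of_nonneg_left h4 h0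
      rw [pow_succ]
      push_cast
      linarith

theorem samp_pow_le {p t : ℝ} (h0 : 0 ≤ t) (h : t ≤ p) (h1 : p ≤ 1) (k : ℕ) :
    k * t - (k * t) ^ 2 ≤ 1 - (1 - p) ^ k := by
  have h2 := samp_pow_mul h0 (h.trans h1) k
  have h3 : (1 - p) ^ k ≤ (1 - t) ^ k := pow_le_pow_left₀ (by linarith) (by linarith) k
  have h4 : 0 ≤ k * t := by positivity
  generalize (k : ℝ) * t = u at *
  have h5 : (1 - t) ^ k * (1 + u) ≤ (1 - u + u ^ 2) * (1 + u) := by
    have : 0 ≤ u ^ 3 := by positivity
    linarith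
  have h6 := le_of_mul_le_mul_right h5 (by linarith)
  linarith

theorem samp_Ex_stat (lam : ℝ) (φ : A → Option X) :
    Ex (fun B : Fin k → A => stat lam φ B) =
      (1 + lam) * ∑ x ∈ vals φ, (1 - (1 - Pr fun a => φ a = some x) ^ k) -
        lam * (k * Pr fun a => φ a ≠ none) := by
  unfold stat
  rw [Ex_sub, Ex_mul, Ex_mul, samp_Ex_vals, samp_Ex_hits]

/-- Changing one sample changes both counts by at most one. -/
theorem stat_lip {lam : ℝ} (hl : 0 ≤ lam) (φ : A → Option X) (B : Fin k → A) (j : Fin k) (a : A) :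
    |stat lam φ (Function.update B j a) - stat lam φ B| ≤ 1 + 2 * lam := by
  have h : ∀ i, i ≠ j → Function.update B j a i = B i := fun i hi => Function.update_of_ne hi _ _
  have h1 : ((vals fun i => φ (Function.update B j a i)).card : ℝ) ≤
    (vals fun j => φ (B j)).card + 1 := by exact_mod_cast samp_vals_le φ j h
  have h2 : ((vals fun j => φ (B j)).card : ℝ) ≤
    (vals fun i => φ (Function.update B j a i)).card + 1 := by
    exact_mod_cast samp_vals_le φ j fun i hi => (h i hi).symm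
  have h3 : (hits φ (Function.update B j a) : ℝ) ≤ hits φ B + 1 := by
    exact_mod_cast samp_hits_le φ j h
  have h4 : (hits φ B : ℝ) ≤ hits φ (Function.update B j a) + 1 := by
    exact_mod_cast samp_hits_le φ j fun i hi => (h i hi).symm
  have h1' := mul_le_mul_of_nonneg_left h1 hl
  have h2' := mul_le_mul_of_nonneg_left h2 hl
  have h3' := mul_le_mul_of_nonneg_left h3 hl
  have h4' := mul_le_mul_of_nonneg_left h4 hl
  unfold stat
  rw [abs_le]
  constructor <;> linarith

/-- With `p x = Pr (φ · = some x)`, the mean is `∑ x ∈ vals φ, f_k (p x)` where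
`f_k p = (1+lam)(1-(1-p)^k) - lam k p`.  And `f_k p ≤ 1/lam + p` by induction on `k`: if
`k p ≤ 1/lam + p` use Bernoulli (`f_k p ≤ k p`); else `(k-1) p > 1/lam`, so
`(1-p)^(k-1) ≤ 1/(1+(k-1)p) ≤ lam/(1+lam)` and `f_k p ≤ f_(k-1) p`.  Finally `∑ p x ≤ 1`. -/
theorem Ex_stat_le {lam N : ℝ} (hl : 0 < lam) (φ : A → Option X) (hN : ((vals φ).card : ℝ) ≤ N) :
    Ex (fun B : Fin k → A => stat lam φ B) ≤ N / lam + 1 := by
  have h1 := Pr_le_one fun a => φ a ≠ none
  rw [samp_Ex_stat, ← samp_sum_p, mul_sum, mul_sum, mul_sum, ← sum_sub_distrib]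
  refine (sum_le_sum fun x _ => samp_f_le hl (Pr_nonneg _) (Pr_le_one _) k).trans ?_
  rw [sum_add_distrib, samp_sum_p, sum_const, nsmul_eq_mul, mul_one_div]
  exact add_le_add (div_le_div_of_nonneg_right hN hl.le) h1

/-- `hits ≤ k`; each value has `p x ≥ 1/n` (`n = |A|`), and
`1 - (1-1/n)^k ≥ k/n - k²/(2n²)`; the number of values is between `n - N` and `n`. -/
theorem le_Ex_stat {lam N : ℝ} (hl : 0 < lam) (φ : A → Option X)
    (hN : (Fintype.card A : ℝ) ≤ (vals φ).card + N) :
    k - (1 + lam) * (k * N / Fintype.card A + (k : ℝ) ^ 2 / Fintype.card A) ≤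
      Ex (fun B : Fin k → A => stat lam φ B) := by
  have hn : (0 : ℝ) < Fintype.card A := by exact_mod_cast Fintype.card_pos
  have hV : ((vals φ).card : ℝ) ≤ Fintype.card A := by
    classical
    have : (vals φ).card ≤ Fintype.card A := by
      unfold vals
      exact (card_eraseNone_le _).trans (by convert card_image_le.trans card_univ.le)
    exact_mod_cast this
  have h1 : ((vals φ).card : ℝ) * (k * (1 / Fintype.card A) - (k * (1 / Fintype.card A)) ^ 2) ≤
      ∑ x ∈ vals φ, (1 - (1 - Pr fun a => φ a = some x) ^ k) := by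
    rw [← nsmul_eq_mul]
    refine card_nsmul_le_sum _ _ _ fun x hx => samp_pow_le (by positivity) ?_ (Pr_le_one _) k
    obtain ⟨a, ha⟩ := mem_vals.1 hx
    rw [← Pr_eq_val a]
    exact Pr_mono fun b hb => hb ▸ ha
  have h2 : k - k * N / Fintype.card A ≤ (vals φ).card * (k * (1 / (Fintype.card A : ℝ))) := by
    rw [mul_one_div, ← mul_div_assoc, sub_le_iff_le_add, ← add_div, le_div_iff₀ hn]
    have := mul_le_mul_of_nonneg_left hN (Nat.cast_nonneg k)
    linarith
  have h3 : (vals φ).card * (k * (1 / (Fintype.card A : ℝ))) ^ 2 ≤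
      (k : ℝ) ^ 2 / Fintype.card A := by
    refine (mul_le_mul_of_nonneg_right hV (sq_nonneg _)).trans (le_of_eq ?_)
    field_simp
  have h4 : k - (k * N / Fintype.card A + (k : ℝ) ^ 2 / Fintype.card A) ≤
      ∑ x ∈ vals φ, (1 - (1 - Pr fun a => φ a = some x) ^ k) := by linarith
  have h5 := mul_le_mul_of_nonneg_left h4 (by linarith : 0 ≤ 1 + lam)
  have h6 := mul_le_mul_of_nonneg_left (mul_le_mul_of_nonneg_left
    (Pr_le_one fun a => φ a ≠ none) (Nat.cast_nonneg k)) hl.le
  rw [samp_Ex_stat]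
  linarith

theorem stat_hi {lam N s : ℝ} (hl : 0 < lam) (hs : 0 ≤ s) (φ : A → Option X)
    (hN : ((vals φ).card : ℝ) ≤ N) :
    Pr (fun B : Fin k → A => N / lam + 1 + s ≤ stat lam φ B) ≤
      Real.exp (-(s ^ 2 / (2 * k * (1 + 2 * lam) ^ 2))) := by
  have h := mcd (ι := Fin k) (fun B : Fin k → A => stat lam φ B) (c := 1 + 2 * lam) (by linarith) hs
    fun B j a => stat_lip hl.le φ B j a
  rw [Fintype.card_fin] at h
  refine (Pr_mono fun B hB => ?_).trans h
  linarith [Ex_stat_le (k := k) hl φ hN]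

theorem stat_lo {lam N s : ℝ} (hl : 0 < lam) (hs : 0 ≤ s) (φ : A → Option X)
    (hN : (Fintype.card A : ℝ) ≤ (vals φ).card + N) :
    Pr (fun B : Fin k → A => stat lam φ B ≤
        k - (1 + lam) * (k * N / Fintype.card A + (k : ℝ) ^ 2 / Fintype.card A) - s) ≤
      Real.exp (-(s ^ 2 / (2 * k * (1 + 2 * lam) ^ 2))) := by
  have h := mcd_lo (ι := Fin k) (fun B : Fin k → A => stat lam φ B) (c := 1 + 2 * lam)
    (by linarith) hs fun B j a => stat_lip hl.le φ B j a
  rw [Fintype.card_fin] at h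
  refine (Pr_mono fun B hB => ?_).trans h
  linarith [le_Ex_stat (k := k) hl φ hN]

/-- Number of ordered pairs of equal samples. -/
noncomputable def rep (B : Fin k → A) : ℕ :=
  (flt univ fun jj : Fin k × Fin k => jj.1 ≠ jj.2 ∧ B jj.1 = B jj.2).card

/-- Each pair coincides with probability `1/|A|`. -/
theorem Ex_rep_le : Ex (fun B : Fin k → A => (rep B : ℝ)) ≤ (k : ℝ) ^ 2 / Fintype.card A := by
  unfold rep
  rw [Ex_card_flt univ fun (jj : Fin k × Fin k) (B : Fin k → A) => jj.1 ≠ jj.2 ∧ B jj.1 = B jj.2]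
  refine (sum_le_card_nsmul _ _ (1 / (Fintype.card A : ℝ)) fun jj _ => ?_).trans
    (le_of_eq (by simp [sq, div_eq_mul_inv]))
  refine Pr_fiber (α := fun _ : Fin k => A) {jj.1} _ _ fun ω₀ => ?_
  rw [← Pr_eq_val (ω₀ jj.2), ← Pr_coord (α := fun _ : Fin k => A) jj.1 fun b => b = ω₀ jj.2]
  refine Pr_mono fun ω h => ?_
  have h2 := h.2
  rwa [piecewise_eq_of_mem _ _ _ (mem_singleton_self _),
    piecewise_eq_of_notMem _ _ _ (by simpa using h.1.symm)] at h2

end Crest.Agent.R34
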