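import Crest.Agent.R34.Defs
import Crest.Agent.R34.Samp

/-! Row 34: a small sample of `L` determines the set `D`. -/

set_option autoImplicit false
set_option linter.unusedSectionVars false

namespace Crest.Agent.R34

open Finset

variable {F : Type} [Field F] [Fintype F] [DecidableEq F]

theorem dec_vals_le {X Y : Type} [Fintype Y] (ψ : Y → Option X) :
    (vals ψ).card ≤ Fintype.card Y := by
  classical
  exact (card_eraseNone_le _).trans card_image_le

/-- `𝒟` is the image of `B ↦ {l | stat lam (phi univ l) B < m / 2}` over `B : Fin m → Line F`, with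
`lam = 4 N / m ≥ 4`.  Given `L, D`, sample `B : Fin m → L` (subtype) and put `s = m / 8`; the number
of values of `phi univ l` on `L` is `cov L l`.  For `l ∈ D`, `stat_hi` gives
`stat < m/4 + 1 + m/8 ≤ m/2`.  For `l ∉ D`, `|L| ≥ cov L l ≥ q - N ≥ q/2` (`N ≤ q/128` by `h1`,
`hmN`), `(1+lam)(mN/|L| + m²/|L|) ≤ 20 N²/q ≤ m/4`, and `stat_lo` gives `stat > 5m/8`.  The exponent
is at least `m³/(10368 N²)` as `1 + 2 lam ≤ 9N/m`; union bound over all lines (`card_line_le`). -/
theorem dec {N : ℝ} {m : ℕ} (hm : 8 ≤ m) (hmN : (m : ℝ) ≤ N)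
    (h1 : 128 * N ^ 2 ≤ m * Fintype.card F)
    (h2 : 2 * (Fintype.card F : ℝ) ^ 2 * Real.exp (-((m : ℝ) ^ 3 / (11000 * N ^ 2))) < 1) :
    ∃ 𝒟 : Finset (Finset (Line F)), (𝒟.card : ℝ) ≤ (2 * (Fintype.card F : ℝ) ^ 2) ^ m ∧
      ∀ L D : Finset (Line F), L.Nonempty → L.card ≤ Fintype.card F → Dich L D N → D ∈ 𝒟 := by
  classical
  have hq : (0 : ℝ) < Fintype.card F := by linarith [two_le_q (F := F)]
  have hm' : (8 : ℝ) ≤ m := by exact_mod_cast hm
  have hm0 : (0 : ℝ) < m := by linarith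
  have hN0 : 0 < N := by linarith
  obtain ⟨lam, hlam⟩ : ∃ lam : ℝ, lam = 4 * N / m := ⟨_, rfl⟩
  have hlm : lam * m = 4 * N := by rw [hlam]; field_simp
  have hl0 : 0 < lam := by rw [hlam]; positivity
  have hline := card_line_le (F := F)
  refine ⟨univ.image fun B : Fin m → Line F =>
    flt univ fun l => stat lam (phi univ l) B < m / 2, ?_, fun L D hne hL hD => ?_⟩
  · calc _ ≤ ((univ : Finset (Fin m → Line F)).card : ℝ) := by exact_mod_cast card_image_le
      _ = (Fintype.card (Line F) : ℝ) ^ m := by simp only [card_univ, Fintype.card_fun,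
          Fintype.card_fin, Nat.cast_pow]
      _ ≤ _ := by gcongr; linarith
  have : Nonempty L := hne.coe_sort
  have hL' : (L.card : ℝ) ≤ Fintype.card F := by exact_mod_cast hL
  have hv : ∀ l, (vals fun a : L => phi univ l a).card = cov L l := fun l => by
    rw [cov]
    congr 1
    ext p
    simp only [mem_vals, phi_eq_some, mem_univ, true_and, mem_flt, mem_pts]
    exact ⟨fun ⟨a, h1, h2, h3⟩ => ⟨h2, a, a.2, h1, h3⟩,
      fun ⟨h2, a, ha, h1, h3⟩ => ⟨⟨a, ha⟩, h1, h2, h3⟩⟩
  have hcov : ∀ l, cov L l ≤ L.card := fun l => by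
    rw [← hv, ← Fintype.card_coe L]
    exact dec_vals_le _
  have hexp : Real.exp (-(((m : ℝ) / 8) ^ 2 / (2 * m * (1 + 2 * lam) ^ 2))) ≤
      Real.exp (-((m : ℝ) ^ 3 / (11000 * N ^ 2))) := by
    rw [Real.exp_le_exp, neg_le_neg_iff, div_le_div_iff₀ (by positivity) (by positivity)]
    have h3 : (1 + 2 * lam) * m ≤ 9 * N := by linarith
    calc _ = 2 * (m : ℝ) ^ 2 * ((1 + 2 * lam) * m) ^ 2 := by ring
      _ ≤ 2 * (m : ℝ) ^ 2 * (9 * N) ^ 2 := by gcongr
      _ = 162 * ((m : ℝ) * N) ^ 2 := by ring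
      _ ≤ 11000 / 64 * ((m : ℝ) * N) ^ 2 := by gcongr; norm_num
      _ = _ := by ring
  have hbad : ∀ l, Pr (fun B : Fin m → L =>
      ¬ (l ∈ D ↔ stat lam (fun a : L => phi univ l a) B < m / 2)) ≤
      Real.exp (-((m : ℝ) ^ 3 / (11000 * N ^ 2))) := fun l => by
    refine le_trans ?_ hexp
    by_cases hl : l ∈ D
    · refine (Pr_mono fun B hB => ?_).trans (stat_hi (N := N) hl0 (by positivity)
        (fun a : L => phi univ l a) (by rw [hv]; exact hD.1 l hl))
      have e : N / lam = m / 4 := by rw [hlam]; field_simp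
      simp only [hl, true_iff, not_lt] at hB
      rw [e]
      linarith
    · have h3 := hD.2 l hl
      refine (Pr_mono fun B hB => ?_).trans (stat_lo (N := N) hl0 (by positivity)
        (fun a : L => phi univ l a) (by rw [hv, Fintype.card_coe]; linarith))
      simp only [hl, false_iff, not_not] at hB
      have h4 : (cov L l : ℝ) ≤ L.card := by exact_mod_cast hcov l
      have h5 : 128 * N ≤ Fintype.card F := by
        refine le_of_mul_le_mul_left ?_ hN0
        have : (m : ℝ) * Fintype.card F ≤ N * Fintype.card F := by gcongr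
        nlinarith
      have h6 : (Fintype.card F : ℝ) / 2 ≤ L.card := by linarith
      have h7 : (1 + lam) * (m * N / L.card + (m : ℝ) ^ 2 / L.card) ≤ 3 / 8 * m := by
        have hL0 : (0 : ℝ) < L.card := by linarith
        rw [← add_div, ← mul_div_assoc, div_le_iff₀ hL0]
        have h8 : (1 + lam) * m ≤ 5 * N := by linarith
        calc _ = (1 + lam) * m * (N + m) := by ring
          _ ≤ 5 * N * (N + N) := by gcongr
          _ ≤ 3 / 8 * m * (Fintype.card F / 2) := by nlinarith
          _ ≤ _ := by gcongr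
      rw [Fintype.card_coe]
      linarith
  have h3 := Pr_exists_le_univ _ _ hbad
  obtain ⟨B, hB⟩ := exists_not_of_Pr_lt_one (h3.trans_lt (lt_of_le_of_lt (by
    gcongr; linarith) h2))
  refine mem_image.2 ⟨fun j => B j, mem_univ _, ?_⟩
  ext l
  rw [mem_flt]
  push Not at hB
  exact ⟨fun h => (hB l).2 h.2, fun h => ⟨mem_univ _, (hB l).1 h⟩⟩

end Crest.Agent.R34
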