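import Crest.Agent.R34.Basic

/-! Row 34: definitions. -/

set_option autoImplicit false
set_option linter.unusedSectionVars false

namespace Crest.Agent.R34

open Finset

variable {F : Type} [Field F] [Fintype F] [DecidableEq F]

/-- The point of `P'` where `l'` meets `l`, if there is one and `l' ≠ l`. -/
noncomputable def phi (P' : Finset (Pt F)) (l l' : Line F) : Option (Pt F) := by
  classical exact if h : ∃ p ∈ P', l' ≠ l ∧ On p l ∧ On p l' then some h.choose else none

theorem phi_eq_some {P' : Finset (Pt F)} {l l' : Line F} {p : Pt F} :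
    phi P' l l' = some p ↔ p ∈ P' ∧ l' ≠ l ∧ On p l ∧ On p l' := by
  unfold phi
  split_ifs with h
  · obtain ⟨h1, h2, h3, h4⟩ := h.choose_spec
    simp only [Option.some.injEq]
    exact ⟨fun e => e ▸ ⟨h1, h2, h3, h4⟩, fun ⟨_, _, k3, k4⟩ => eq_of_on h2 h4 h3 k4 k3⟩
  · simp only [false_iff]
    exact fun ⟨k1, k2⟩ => h ⟨p, k1, k2⟩

/-- `D` is the set of lines that `L` meets in few points; all others it meets in almost all. -/
def Dich (L D : Finset (Line F)) (N : ℝ) : Prop :=
  (∀ l ∈ D, (cov L l : ℝ) ≤ N) ∧ ∀ l ∉ D, (Fintype.card F : ℝ) - N ≤ cov L l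

theorem Dich.mono {L D : Finset (Line F)} {N N' : ℝ} (h : Dich L D N) (hN : N ≤ N') :
    Dich L D N' :=
  ⟨fun l hl => (h.1 l hl).trans hN, fun l hl => by linarith [h.2 l hl]⟩

def Covers (L : Finset (Line F)) (P : Finset (Pt F)) : Prop := ∀ x ∈ P, ∃ l ∈ L, On x l

/-- All lines through some projective point are in `L` or in `S`. -/
def Pencil (L S : Finset (Line F)) : Prop := ∃ o, ∀ l, Thr l o → l ∈ L ∨ l ∈ S

/-- Stability of covers of the points that `S` misses. -/
def Stab (S : Finset (Line F)) : Prop :=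
  ∀ L : Finset (Line F), L.card ≤ Fintype.card F → Covers L (unc S) → Pencil L S

/-- The points of `l` on no line of `S` of another direction. -/
noncomputable def Yl (S : Finset (Line F)) (l : Line F) : Finset (Pt F) :=
  flt (pts l) fun p => ∀ l' ∈ S, l'.1 ≠ l.1 → ¬ On p l'

theorem Yl_eq {S : Finset (Line F)} {l : Line F} (h : l ∉ S) : Yl S l = pts l ∩ unc S := by
  ext p
  simp only [Yl, mem_flt, mem_pts, mem_inter, mem_unc]
  refine ⟨fun ⟨h1, h2⟩ => ⟨h1, fun l' hl' ho => ?_⟩, fun ⟨h1, h2⟩ => ⟨h1, fun l' hl' _ => h2 l' hl'⟩⟩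
  by_cases hd : l'.1 = l.1
  · exact h (line_eq_of_dir hd ho h1 ▸ hl')
  · exact h2 l' hl' hd ho

/-- No line has more than twice the average number of points of `U`. -/
def Flat (U : Finset (Pt F)) : Prop :=
  U.Nonempty ∧ ∀ l, ((pts l ∩ U).card : ℝ) ≤ 2 * U.card / Fintype.card F

/-! ### Parameters -/

noncomputable def del (K q : ℕ) : ℝ := (1 - 1 / (q : ℝ)) ^ (K * q)
noncomputable def dev (q : ℕ) : ℝ := (q : ℝ) ^ (3 / 4 : ℝ)
noncomputable def yy (q : ℕ) : ℝ := Real.log q ^ (1 / 3 : ℝ)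
noncomputable def eps (q : ℕ) : ℝ := 1 / yy q ^ 2

/-! ### The random model: one line for each layer and direction -/

abbrev Cfg (Λ F : Type) := Λ × Dir F → F

section Model

variable {Λ : Type} [Fintype Λ] [DecidableEq Λ]

def ln (ω : Cfg Λ F) (t : Λ × Dir F) : Line F := (t.2, ω t)

def Sp (ω : Cfg Λ F) : Finset (Line F) := univ.image (ln ω)

theorem mem_Sp {ω : Cfg Λ F} {l : Line F} : l ∈ Sp ω ↔ ∃ t, ln ω t = l := by simp [Sp]

theorem ln_mem (ω : Cfg Λ F) (t : Λ × Dir F) : ln ω t ∈ Sp ω := mem_Sp.2 ⟨t, rfl⟩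

theorem card_idx : Fintype.card (Λ × Dir F) = Fintype.card Λ * (Fintype.card F + 1) := by
  rw [Fintype.card_prod, card_dir]

/-- The line with index `t` passes through `x` and does not have direction `d`. -/
def Inc (ω : Cfg Λ F) (d : Dir F) (x : Pt F) (t : Λ × Dir F) : Prop := t.2 ≠ d ∧ On x (ln ω t)

def Q1 (ω : Cfg Λ F) : Prop :=
  ∀ l, |((Yl (Sp ω) l).card : ℝ) - del (Fintype.card Λ) (Fintype.card F) * Fintype.card F| ≤
    dev (Fintype.card F)

end Model

/-- An event of probability at most `1/20` over every large finite field. -/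
def Rare (Λ : Type) [Fintype Λ] [DecidableEq Λ]
    (bad : ∀ (F : Type) [Field F] [Fintype F] [DecidableEq F], Cfg Λ F → Prop) : Prop :=
  ∃ q₀ : ℕ, ∀ (F : Type) [Field F] [Fintype F] [DecidableEq F], q₀ ≤ Fintype.card F →
    Pr (bad F) ≤ 1 / 20

/-! ### Gadgets -/

/-- The main layer, and one layer for each group, side and slot. -/
abbrev Lay (G : ℕ) := Option (Fin G × Bool × Fin 11)

/-- The special lines of a gadget: the main line, and eleven lines through each centre. -/
abbrev Host := Option (Bool × Fin 11)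

/-- The set `I` of indices is one index in each of the eleven layers of the class `(i, b)`. -/
def CandP {G : ℕ} (grp : Dir F → Fin G) (cls : Dir F → Bool × Fin 11) (i : Dir F) (b : Bool)
    (I : Lay G × Dir F → Prop) : Prop :=
  ∃ a : Fin 11 → Dir F, (∀ s, cls (a s) = (b, s)) ∧
    ∀ t, I t ↔ ∃ s, t = (some (grp i, b, s), a s)

/-- The set `I` has a main index `j` of group `g`, and nothing else outside direction `j` and the
layers of `(g, b)`. -/
def NearP {G : ℕ} (grp : Dir F → Fin G) (g : Fin G) (b : Bool) (I : Lay G × Dir F → Prop) : Prop :=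
  ∃ j, grp j = g ∧ I (none, j) ∧ ∀ t, t.2 ≠ j → (∀ s, t.1 ≠ some (g, b, s)) → ¬ I t

def Q2a {G : ℕ} (grp : Dir F → Fin G) (cls : Dir F → Bool × Fin 11) (v : ℝ)
    (ω : Cfg (Lay G) F) : Prop :=
  ∀ i b c, v ≤ (flt (pts (i, c)) fun x => CandP grp cls i b (Inc ω i x)).card

def Q2b {G : ℕ} (grp : Dir F → Fin G) (z : ℝ) (ω : Cfg (Lay G) F) : Prop :=
  ∀ g b (l : Line F), ((flt (pts l) fun x => NearP grp g b (Inc ω l.1 x)).card : ℝ) ≤ z

/-- Many parameters `u` put all of 23 moving points off the lines of `S`. -/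
def Q3 (S : Finset (Line F)) (β : ℝ) : Prop :=
  ∀ (a v : Host → Pt F) (d : Host → Dir F), (∀ h, v h ≠ 0 ∧ pr (d h) (v h) = 0) →
    β * Fintype.card F ≤
      (flt univ fun u : F => ∀ h, ∀ l ∈ S, l.1 ≠ d h → ¬ On (a h + u • v h) l).card

/-- Few lines of `S` through any projective point. -/
def QT (S : Finset (Line F)) : Prop :=
  ∀ o, ((flt S fun l => Thr l o).card : ℝ) ≤ (Fintype.card F : ℝ) ^ (1 / 6 : ℝ)

/-- For each direction `i`: a main line `(i, mu i)`, two centres `O i b`, and the directions of the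
auxiliary lines through the centres. -/
structure Gad (F : Type) where
  mu : Dir F → F
  O : Dir F → Bool → Pt F
  a : Dir F → Bool → Fin 11 → Dir F

def Gad.host (g : Gad F) (i : Dir F) : Host → Line F
  | none => (i, g.mu i)
  | some (b, s) => (g.a i b s, pr (g.a i b s) (g.O i b))

/-- The host passes through the centre of side `b`. -/
def Side (b : Bool) (h : Host) : Prop := h = none ∨ ∃ s, h = some (b, s)

/-- Slot `s` has a semi-plain point on every host but the auxiliary lines of slot `s`. -/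
def Val (s : Fin 11) (h : Host) : Prop := ∀ b, h ≠ some (b, s)

structure Gad.Ok (g : Gad F) : Prop where
  onMain : ∀ i b, On (g.O i b) (i, g.mu i)
  ne : ∀ i b s, g.a i b s ≠ i
  inj : ∀ i b s b' s', g.a i b s = g.a i b' s' → b = b' ∧ s = s'
  cen : ∀ i b i' h, On (g.O i b) (g.host i' h) → i' = i ∧ Side b h

theorem Gad.Ok.on_host {g : Gad F} (hg : g.Ok) (i : Dir F) {b : Bool} {h : Host} (hs : Side b h) :
    On (g.O i b) (g.host i h) := by
  rcases hs with rfl | ⟨s, rfl⟩
  · exact hg.onMain i b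
  · rfl

theorem exists_side (h : Host) : ∃ b, Side b h := by
  rcases h with _ | ⟨b, s⟩
  · exact ⟨true, .inl rfl⟩
  · exact ⟨b, .inr ⟨s, rfl⟩⟩

/-- The hosts of one gadget have different directions. -/
theorem Gad.Ok.dir_inj {g : Gad F} (hg : g.Ok) {i : Dir F} {h h' : Host}
    (e : (g.host i h).1 = (g.host i h').1) : h = h' := by
  rcases h with _ | ⟨b, s⟩ <;> rcases h' with _ | ⟨b', s'⟩
  · rfl
  · exact absurd e.symm (hg.ne i b' s')
  · exact absurd e (hg.ne i b s)
  · obtain ⟨rfl, rfl⟩ := hg.inj i b s b' s' e; rfl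

theorem Gad.Ok.host_inj {g : Gad F} (hg : g.Ok) {i i' : Dir F} {h h' : Host}
    (e : g.host i h = g.host i' h') : i = i' ∧ h = h' := by
  obtain ⟨b, hb⟩ := exists_side h
  have h1 := hg.on_host i hb
  rw [e] at h1
  obtain ⟨rfl, -⟩ := hg.cen i b i' h' h1
  exact ⟨rfl, hg.dir_inj (congrArg Prod.fst e)⟩

def Used (g : Gad F) (l : Line F) : Prop := ∃ i h, l = g.host i h

/-- The pointer of slot `s` at the centre `(i, b)`: the line through the point `P` of the main line
parallel to the auxiliary line of slot `s`. -/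
def Gad.ptr (g : Gad F) (i : Dir F) (b : Bool) (s : Fin 11) (P : Pt F) : Line F :=
  (g.a i b s, pr (g.a i b s) P)

/-- Conditions on the semi-plain points `sp s h` of gadget `i`. -/
structure Loc (g : Gad F) (i : Dir F) (sp : Fin 11 → Host → Pt F) : Prop where
  onHost : ∀ s h, Val s h → On (sp s h) (g.host i h)
  onPtr : ∀ s b h, Val s h → Side b h → On (sp s h) (g.ptr i b s (sp s none))
  only : ∀ s h i' h', Val s h → On (sp s h) (g.host i' h') → i' = i ∧ h' = h
  inj : ∀ s s' h, Val s h → Val s' h → sp s h = sp s' h → s = s'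
  gen3 : ∀ b (m : Line F) s₁ s₂ s₃ h₁ h₂ h₃, ¬ On (g.O i b) m → s₁ ≠ s₂ → s₁ ≠ s₃ → s₂ ≠ s₃ →
    Side b h₁ → Side b h₂ → Side b h₃ → Val s₁ h₁ → Val s₂ h₂ → Val s₃ h₃ →
    On (sp s₁ h₁) m → On (sp s₂ h₂) m → ¬ On (sp s₃ h₃) m

/-- A line not through `o` contains semi-plain points on hosts through `o` for at most four
gadgets. -/
def Cross (g : Gad F) (sp : Dir F → Fin 11 → Host → Pt F) : Prop :=
  ∀ o (m : Line F), ¬ Thr m o →
    (flt univ fun i => ∃ s h, Val s h ∧ Thr (g.host i h) o ∧ On (sp i s h) m).card ≤ 4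

/-- The set `C` of lines and the set `St` of stars meet the special edge at the centre `(i, b)`. -/
def FCov (g : Gad F) (sp : Dir F → Fin 11 → Host → Pt F) (C : Finset (Line F))
    (St : Finset (Dir F)) (i : Dir F) (b : Bool) : Prop :=
  i ∈ St ∨ (∃ s, g.ptr i b s (sp i s none) ∈ C) ∨
    ∃ d, d ≠ i ∧ (∀ s, d ≠ g.a i b s) ∧ (d, pr d (g.O i b)) ∈ C

/-- Stability for the used lines. -/
def UStab (g : Gad F) : Prop :=
  ∀ C : Finset (Line F), C.card ≤ Fintype.card F →
    (∀ x, (∀ l, Used g l → ¬ On x l) → ∃ l ∈ C, On x l) → ∃ o, ∀ l, Thr l o → l ∈ C ∨ Used g l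

end Crest.Agent.R34
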