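import Crest.Agent.R34.Basic

/-! Row 34: independent transversals (Rosenfeld counting). -/

set_option autoImplicit false
set_option linter.unusedSectionVars false

namespace Crest.Agent.R34

open Finset

/-- Classes of size at least `4Δ`, conflict degree at most `Δ`: there is an independent transversal.
Let `I S` be the number of conflict-free choices on the set `S` of classes (for instance functions
`C → Option X` that are `some` of an element of `V c` on `S` and `none` off `S`).  Claim, by strong
induction on `|S|`: `2Δ * I S ≤ I (insert c S)` for `c ∉ S`.  A pair (choice `f` on `S`, `x ∈ V c`)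
extends unless `x` conflicts with `f c'` for some `c' ∈ S`; the choices with a given value at `c'`
number at most `I (S.erase c') ≤ I S / (2Δ)`.  So
`I (insert c S) ≥ |V c| (I S) (1 - Δ / (2Δ)) ≥ 2Δ * I S`.  And `I ∅ = 1`. -/
theorem indep_trans {C X : Type} [Fintype C] [DecidableEq C] (V : C → Finset X)
    (conf : C → X → C → X → Prop) {Δ : ℝ} (hΔ : 0 < Δ)
    (hsym : ∀ c x c' x', conf c x c' x' → conf c' x' c x)
    (hV : ∀ c, 4 * Δ ≤ (V c).card)
    (hdeg : ∀ c, ∀ x ∈ V c, ∑ c' ∈ univ.erase c, ((flt (V c') (conf c x c')).card : ℝ) ≤ Δ) :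
    ∃ f : C → X, (∀ c, f c ∈ V c) ∧ ∀ c c', c ≠ c' → ¬ conf c (f c) c' (f c') := by
  classical
  have hne : ∀ c, (V c).Nonempty := fun c => by
    rw [← card_pos, ← Nat.cast_pos (α := ℝ)]; linarith [hV c]
  choose x₀ hx₀ using hne
  obtain ⟨I, hI⟩ : ∃ I : Finset C → Finset (C → X), ∀ S f, f ∈ I S ↔ (∀ c, f c ∈ V c) ∧
      (∀ c, c ∉ S → f c = x₀ c) ∧ ∀ c ∈ S, ∀ c' ∈ S, c ≠ c' → ¬ conf c (f c) c' (f c') :=
    ⟨fun S => flt (Fintype.piFinset V) fun f => (∀ c, c ∉ S → f c = x₀ c) ∧
      ∀ c ∈ S, ∀ c' ∈ S, c ≠ c' → ¬ conf c (f c) c' (f c'), fun S f => by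
        rw [mem_flt, Fintype.mem_piFinset]⟩
  have hupd : ∀ (f : C → X) (c : C) (x : X), (∀ c, f c ∈ V c) → x ∈ V c →
      ∀ c', Function.update f c x c' ∈ V c' := fun f c x hf hx c' => by
    by_cases h : c' = c
    · subst h; simpa using hx
    · simpa [h] using hf c'
  have hinj : ∀ (c : C) (x x' : X) (f g : C → X), f c = x' → g c = x' →
      Function.update f c x = Function.update g c x → f = g := fun c x x' f g hf hg e => by
    funext c'
    by_cases h : c' = c
    · rw [h, hf, hg]
    · simpa [h] using congrFun e c'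
  have key : ∀ S : Finset C, ∀ c, c ∉ S → 2 * Δ * (I S).card ≤ (I (insert c S)).card := by
    intro S
    induction S using Finset.strongInduction with | H S ih => ?_
    intro c hc
    have h1 : ∀ c' ∈ S, ∀ x', (((I S).filter fun f => f c' = x').card : ℝ) ≤
        (I S).card / (2 * Δ) := fun c' hc' x' => by
      have h2 := ih (S.erase c') (erase_ssubset hc') c' (notMem_erase _ _)
      rw [insert_erase hc'] at h2
      have h3 : ((I S).filter fun f => f c' = x').card ≤ (I (S.erase c')).card := by
        refine card_le_card_of_injOn (fun f => Function.update f c' (x₀ c')) (fun f hf => ?_)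
          fun f hf g hg e => hinj c' _ x' f g (mem_filter.1 hf).2 (mem_filter.1 hg).2 e
        obtain ⟨a1, a2, a3⟩ := (hI _ _).1 (mem_filter.1 hf).1
        refine (hI _ _).2 ⟨hupd f c' _ a1 (hx₀ c'), fun d hd => ?_, fun d hd d' hd' hne => ?_⟩
        · by_cases h : d = c'
          · subst h; simp
          · simpa [h] using a2 d fun h' => hd (mem_erase.2 ⟨h, h'⟩)
        · simpa [(mem_erase.1 hd).1, (mem_erase.1 hd').1] using
            a3 d (mem_erase.1 hd).2 d' (mem_erase.1 hd').2 hne
      have h4 : (((I S).filter fun f => f c' = x').card : ℝ) ≤ (I (S.erase c')).card := by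
        exact_mod_cast h3
      rw [le_div_iff₀ (by positivity)]
      nlinarith
    have h5 : ∀ x ∈ V c, ((I S).card : ℝ) / 2 ≤
        ((I (insert c S)).filter fun g => g c = x).card := fun x hx => by
      set G := (I S).filter fun f => ∀ c' ∈ S, ¬ conf c x c' (f c') with hG
      have h6 : G.card ≤ ((I (insert c S)).filter fun g => g c = x).card := by
        refine card_le_card_of_injOn (fun f => Function.update f c x) (fun f hf => ?_)
          fun f hf g hg e => hinj c _ (x₀ c) f g (((hI _ _).1 (mem_filter.1 hf).1).2.1 c hc)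
            (((hI _ _).1 (mem_filter.1 hg).1).2.1 c hc) e
        obtain ⟨hf1, a4⟩ := mem_filter.1 hf
        obtain ⟨a1, a2, a3⟩ := (hI _ _).1 hf1
        refine mem_filter.2 ⟨(hI _ _).2 ⟨hupd f c _ a1 hx, fun d hd => ?_,
          fun d hd d' hd' hne => ?_⟩, by simp⟩
        · rw [mem_insert, not_or] at hd
          simpa [hd.1] using a2 d hd.2
        · have hS : ∀ e ∈ S, e ≠ c := fun e he h => hc (h ▸ he)
          rcases mem_insert.1 hd with e1 | e1 <;> rcases mem_insert.1 hd' with e2 | e2
          · exact absurd (e1.trans e2.symm) hne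
          · simpa [e1, hS d' e2] using a4 d' e2
          · simpa [e2, hS d e1] using fun h => a4 d e1 (hsym _ _ _ _ h)
          · simpa [hS d e1, hS d' e2] using a3 d e1 d' e2 hne
      have h7 : I S ⊆ G ∪ S.biUnion fun c' => (flt (V c') (conf c x c')).biUnion fun x' =>
          (I S).filter fun f => f c' = x' := fun f hf => by
        by_cases h : ∀ c' ∈ S, ¬ conf c x c' (f c')
        · exact mem_union_left _ (mem_filter.2 ⟨hf, h⟩)
        · push Not at h
          obtain ⟨c', hc', h⟩ := h
          exact mem_union_right _ (mem_biUnion.2 ⟨c', hc', mem_biUnion.2 ⟨f c',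
            mem_flt.2 ⟨((hI _ _).1 hf).1 c', h⟩, mem_filter.2 ⟨hf, rfl⟩⟩⟩)
      have h8 : (I S).card ≤ G.card + ∑ c' ∈ S, ∑ x' ∈ flt (V c') (conf c x c'),
          ((I S).filter fun f => f c' = x').card :=
        (card_le_card h7).trans ((card_union_le _ _).trans (Nat.add_le_add_left
          (card_biUnion_le.trans (sum_le_sum fun c' _ => card_biUnion_le)) _))
      have h9 : ((I S).card : ℝ) ≤ ((I (insert c S)).filter fun g => g c = x).card +
          ∑ c' ∈ S, ∑ x' ∈ flt (V c') (conf c x c'),
            (((I S).filter fun f => f c' = x').card : ℝ) := by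
        exact_mod_cast h8.trans (Nat.add_le_add_right h6 _)
      have h10 : ∑ c' ∈ S, ∑ x' ∈ flt (V c') (conf c x c'),
          (((I S).filter fun f => f c' = x').card : ℝ) ≤ Δ * ((I S).card / (2 * Δ)) :=
        calc _ ≤ ∑ c' ∈ S, ((flt (V c') (conf c x c')).card : ℝ) * ((I S).card / (2 * Δ)) :=
              sum_le_sum fun c' hc' => by
                simpa using sum_le_card_nsmul _ _ _ fun x' _ => h1 c' hc' x'
          _ ≤ ∑ c' ∈ univ.erase c,
                ((flt (V c') (conf c x c')).card : ℝ) * ((I S).card / (2 * Δ)) :=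
              sum_le_sum_of_subset_of_nonneg
                (fun c' hc' => mem_erase.2 ⟨fun h => hc (h ▸ hc'), mem_univ _⟩)
                fun _ _ _ => by positivity
          _ ≤ _ := by
              rw [← sum_mul]
              exact mul_le_mul_of_nonneg_right (hdeg c x hx) (by positivity)
      have h11 : Δ * ((I S).card / (2 * Δ)) = (I S).card / 2 := by field_simp
      linarith
    have h12 : (I (insert c S)).card =
        ∑ x ∈ V c, ((I (insert c S)).filter fun g => g c = x).card :=
      card_eq_sum_card_fiberwise fun g hg => ((hI _ _).1 hg).1 c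
    have h13 := card_nsmul_le_sum _ _ _ h5
    rw [h12, Nat.cast_sum]
    refine le_trans ?_ h13
    rw [nsmul_eq_mul]
    nlinarith [hV c, (Nat.cast_nonneg (I S).card : (0 : ℝ) ≤ _)]
  have pos : ∀ S : Finset C, (0 : ℝ) < (I S).card := fun S => by
    induction S using Finset.induction_on with
    | empty =>
      exact_mod_cast card_pos.2 ⟨x₀, (hI _ _).2 ⟨hx₀, fun _ _ => rfl, by simp⟩⟩
    | insert c S hc ih => exact lt_of_lt_of_le (by positivity) (key S c hc)
  obtain ⟨f, hf⟩ := card_pos.1 (by exact_mod_cast pos univ)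
  obtain ⟨a1, -, a3⟩ := (hI _ _).1 hf
  exact ⟨f, a1, fun c c' => a3 c (mem_univ _) c' (mem_univ _)⟩

end Crest.Agent.R34
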