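import Crest.Agent.R34.Defs
import Crest.Agent.R34.IT

/-! Row 34: choosing the centres. -/

set_option autoImplicit false
set_option linter.unusedSectionVars false

namespace Crest.Agent.R34

open Finset

variable {F : Type} [Field F] [Fintype F] [DecidableEq F]

theorem cand_main {G : ℕ} {ω : Cfg (Lay G) F} {grp : Dir F → Fin G}
    {cls : Dir F → Bool × Fin 11} {i j : Dir F} {b : Bool} {x : Pt F}
    (h : CandP grp cls i b (Inc ω i x)) (ho : On x (ln ω (none, j))) : j = i := by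
  by_contra hne
  obtain ⟨a, -, ha⟩ := h
  obtain ⟨s, hs⟩ := (ha (none, j)).1 ⟨hne, ho⟩
  cases hs

/-- `indep_trans` with classes `(i, b)`, the candidates on the main line `i`, and conflicts given by
a common auxiliary index. -/
theorem gad_exists {G : ℕ} (ω : Cfg (Lay G) F) (grp : Dir F → Fin G)
    (cls : Dir F → Bool × Fin 11) {v z : ℝ} (hz : 0 < z) (hv : 44 * z ≤ v)
    (ha : Q2a grp cls v ω) (hb : Q2b grp z ω) :
    ∃ g : Gad F, g.Ok ∧ ∀ i h, g.host i h ∈ Sp ω := by
  classical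
  set V : Dir F × Bool → Finset (Pt F) := fun c =>
    flt (pts (c.1, ω (none, c.1))) fun x => CandP grp cls c.1 c.2 (Inc ω c.1 x) with hV
  set conf : Dir F × Bool → Pt F → Dir F × Bool → Pt F → Prop := fun c x c' x' =>
    ∃ t, Inc ω c.1 x t ∧ Inc ω c'.1 x' t with hconf
  have hm : ∀ c x, x ∈ V c → On x (ln ω (none, c.1)) ∧ CandP grp cls c.1 c.2 (Inc ω c.1 x) :=
    fun c x hx => ⟨mem_pts.1 (mem_flt.1 hx).1, (mem_flt.1 hx).2⟩
  obtain ⟨f, hf, hfc⟩ := indep_trans V conf (Δ := 11 * z) (by positivity)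
    (fun c x c' x' ⟨t, h1, h2⟩ => ⟨t, h2, h1⟩)
    (fun c => by have := ha c.1 c.2 (ω (none, c.1)); linarith) fun c x hx => by
      obtain ⟨-, a, -, hI⟩ := hm c x hx
      set Nr : Fin 11 → Finset (Pt F) := fun s =>
        flt (pts (ln ω (some (grp c.1, c.2, s), a s))) fun x' =>
          NearP grp (grp c.1) c.2 (Inc ω (a s) x') with hNr
      have key : ∀ c' x', x' ∈ flt (V c') (conf c x c') → c'.2 = c.2 ∧ x' ∈ univ.biUnion Nr := by
        intro c' x' hx'
        obtain ⟨h1, t, t1, t2⟩ := mem_flt.1 hx'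
        obtain ⟨hon, a', -, hI'⟩ := hm c' x' h1
        obtain ⟨s, rfl⟩ := (hI t).1 t1
        obtain ⟨s', hs'⟩ := (hI' _).1 t2
        simp only [Prod.mk.injEq, Option.some.injEq] at hs'
        obtain ⟨⟨e1, e2, -⟩, -⟩ := hs'
        refine ⟨e2.symm, mem_biUnion.2 ⟨s, mem_univ _, mem_flt.2 ⟨mem_pts.2 t2.2, c'.1, e1.symm,
          ⟨fun e => t2.1 e.symm, hon⟩, fun t' h1 h2 h3 => ?_⟩⟩⟩
        obtain ⟨r, hr⟩ := (hI' t').1 ⟨h1, h3.2⟩
        exact h2 r (by rw [hr, e1, e2])
      have hdisj : ((univ.erase c : Finset (Dir F × Bool)) : Set (Dir F × Bool)).PairwiseDisjoint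
          fun c' => flt (V c') (conf c x c') := fun c₁ _ c₂ _ hne => by
        refine disjoint_left.2 fun x' h1 h2 => hne (Prod.ext ?_ ?_)
        · exact cand_main (hm c₂ x' (mem_flt.1 h2).1).2 (hm c₁ x' (mem_flt.1 h1).1).1
        · exact (key _ _ h1).1.trans (key _ _ h2).1.symm
      have h1 : ∑ c' ∈ univ.erase c, (flt (V c') (conf c x c')).card ≤ ∑ s, (Nr s).card := by
        rw [← card_biUnion hdisj]
        refine le_trans (card_le_card fun x' hx' => ?_) card_biUnion_le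
        obtain ⟨c', -, h⟩ := mem_biUnion.1 hx'
        exact (key _ _ h).2
      have h2 : ∑ s, ((Nr s).card : ℝ) ≤ ∑ _s : Fin 11, z :=
        sum_le_sum fun s _ => hb (grp c.1) c.2 (ln ω (some (grp c.1, c.2, s), a s))
      have h3 : ∑ c' ∈ univ.erase c, ((flt (V c') (conf c x c')).card : ℝ) ≤
          ∑ s, ((Nr s).card : ℝ) := by exact_mod_cast h1
      simp only [sum_const, card_univ, Fintype.card_fin, nsmul_eq_mul] at h2
      push_cast at h2
      linarith
  have hc := fun c => (hm c _ (hf c)).2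
  choose a ha1 ha2 using hc
  have hinc : ∀ c s, Inc ω c.1 (f c) (some (grp c.1, c.2, s), a c s) := fun c s =>
    (ha2 c _).2 ⟨s, rfl⟩
  set g : Gad F := ⟨fun i => ω (none, i), fun i b => f (i, b), fun i b => a (i, b)⟩ with hg
  have hh : ∀ i b s, g.host i (some (b, s)) = ln ω (some (grp i, b, s), a (i, b) s) :=
    fun i b s => Prod.ext rfl (hinc (i, b) s).2
  refine ⟨g, ⟨fun i b => (hm _ _ (hf (i, b))).1, fun i b s => (hinc (i, b) s).1,
    fun i b s b' s' e => ?_, fun i b i' h hon => ?_⟩, fun i h => ?_⟩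
  · have h1 := ha1 (i, b) s
    have h2 := ha1 (i, b') s'
    have e' : a (i, b) s = a (i, b') s' := e
    rw [e', h2] at h1
    exact ⟨(Prod.ext_iff.1 h1).1.symm, (Prod.ext_iff.1 h1).2.symm⟩
  · rcases h with _ | ⟨b', s⟩
    · exact ⟨cand_main (hm _ _ (hf (i, b))).2 hon, .inl rfl⟩
    · rw [hh] at hon
      by_cases hd : a (i', b') s = i
      · exfalso
        have e : ln ω (some (grp i', b', s), a (i', b') s) = ln ω (none, i) :=
          line_eq_of_dir hd hon (hm _ _ (hf (i, b))).1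
        have h1 := (hinc (i', b') s).2
        rw [e] at h1
        exact (hinc (i', b') s).1 (hd.trans (cand_main (hm _ _ (hf (i', b'))).2 h1))
      · by_cases e : (i, b) = (i', b')
        · cases e; exact ⟨rfl, .inr ⟨s, rfl⟩⟩
        · exact absurd ⟨_, ⟨hd, hon⟩, hinc (i', b') s⟩ (hfc _ _ e)
  · rcases h with _ | ⟨b, s⟩
    · exact ln_mem ω (none, i)
    · rw [hh]; exact ln_mem ω _

end Crest.Agent.R34
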