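import Crest.Agent.R34.CoverA
import Crest.Agent.R34.CoverB

/-! Row 34: the hypergraph. -/

set_option autoImplicit false
set_option linter.unusedSectionVars false

namespace Crest.Agent.R34

open Finset

variable {F : Type} [Field F] [Fintype F] [DecidableEq F]

/-- Transport to `Fin`: vertices `ι × α ≃ Fin N`, edges the graphs of the functions in `E`. -/
theorem hyper_abs {ι α : Type} [Fintype ι] [Fintype α] [DecidableEq ι] [DecidableEq α] {q : ℕ}
    (hι : Fintype.card ι = q + 1) (hα : Fintype.card α = q + 1) (E : Finset (ι → α))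
    (hne : E.Nonempty) (hint : ∀ e ∈ E, ∀ f ∈ E, ∃ i, e i = f i)
    (hall : ∀ i a, ∃ e ∈ E, e i = a)
    (hcov : ∀ S : Finset (ι × α), (∀ e ∈ E, ∃ i, (i, e i) ∈ S) → q + 1 ≤ S.card) :
    ∃ (N : ℕ) (part : Fin N → Fin (q + 1)) (E : Finset (Finset (Fin N))),
      E.Nonempty ∧
      (∀ e ∈ E, ∀ i : Fin (q + 1), (e.filter (fun v => part v = i)).card = 1) ∧
      (∀ e ∈ E, ∀ f ∈ E, (e ∩ f).Nonempty) ∧
      (∀ i : Fin (q + 1), (Finset.univ.filter (fun v => part v = i)).card = q + 1) ∧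
      (∀ v : Fin N, ∃ e ∈ E, v ∈ e) ∧
      (∀ S : Finset (Fin N), (∀ e ∈ E, (e ∩ S).Nonempty) → q + 1 ≤ S.card) := by
  set v := Fintype.equivFin (ι × α) with hv
  set c := Fintype.equivFinOfCardEq hι with hc
  set G : (ι → α) → Finset (Fin (Fintype.card (ι × α))) :=
    fun e => univ.filter fun x => e (v.symm x).1 = (v.symm x).2 with hG
  have hmem : ∀ e i a, v (i, a) ∈ G e ↔ e i = a := fun e i a => by simp [hG]
  refine ⟨_, fun x => c (v.symm x).1, E.image G, hne.image _, ?_, ?_, ?_, ?_, ?_⟩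
  · intro e' he' i
    obtain ⟨e, -, rfl⟩ := mem_image.1 he'
    refine card_eq_one.2 ⟨v (c.symm i, e (c.symm i)), ?_⟩
    ext x
    obtain ⟨⟨j, a⟩, rfl⟩ := v.surjective x
    simp only [mem_filter, hmem, Equiv.symm_apply_apply, mem_singleton, v.apply_eq_iff_eq,
      Prod.mk.injEq]
    constructor
    · rintro ⟨rfl, rfl⟩; simp
    · rintro ⟨rfl, rfl⟩; simp
  · intro e' he' f' hf'
    obtain ⟨e, he, rfl⟩ := mem_image.1 he'
    obtain ⟨f, hf, rfl⟩ := mem_image.1 hf'
    obtain ⟨i, hi⟩ := hint e he f hf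
    exact ⟨v (i, e i), mem_inter.2 ⟨(hmem _ _ _).2 rfl, (hmem _ _ _).2 hi.symm⟩⟩
  · intro i
    have : (univ.filter fun x => c (v.symm x).1 = i) =
        univ.image fun a : α => v (c.symm i, a) := by
      ext x
      obtain ⟨⟨j, a⟩, rfl⟩ := v.surjective x
      simp only [mem_filter, mem_univ, true_and, Equiv.symm_apply_apply, mem_image,
        v.apply_eq_iff_eq, Prod.mk.injEq]
      constructor
      · rintro rfl; exact ⟨a, by simp, rfl⟩
      · rintro ⟨_, rfl, rfl⟩; simp
    rw [this, card_image_of_injective _ fun a a' h => (Prod.ext_iff.1 (v.injective h)).2,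
      card_univ, hα]
  · intro x
    obtain ⟨⟨j, a⟩, rfl⟩ := v.surjective x
    obtain ⟨e, he, h⟩ := hall j a
    exact ⟨G e, mem_image_of_mem _ he, (hmem _ _ _).2 h⟩
  · intro S hS
    refine (hcov (S.image v.symm) fun e he => ?_).trans card_image_le
    obtain ⟨x, hx⟩ := hS (G e) (mem_image_of_mem _ he)
    obtain ⟨⟨j, a⟩, rfl⟩ := v.surjective x
    obtain ⟨h1, h2⟩ := mem_inter.1 hx
    exact ⟨j, mem_image.2 ⟨_, h2, by rw [Equiv.symm_apply_apply, (hmem _ _ _).1 h1]⟩⟩

/-- The edge of a point. -/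
def ePt (p : Pt F) : Dir F → Option F := fun d => some (pr d p)

/-- The edge of a centre. -/
noncomputable def eC (g : Gad F) (sp : Dir F → Fin 11 → Host → Pt F) (i : Dir F) (b : Bool) :
    Dir F → Option F := fun d =>
  if d = i then none else
    if h : ∃ s, d = g.a i b s then some (pr d (sp i h.choose none)) else some (pr d (g.O i b))

section

variable {g : Gad F} {sp : Dir F → Fin 11 → Host → Pt F}

theorem eC_self (i : Dir F) (b : Bool) : eC g sp i b i = none := by simp [eC]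

theorem eC_aux (hg : g.Ok) (i : Dir F) (b : Bool) (s : Fin 11) :
    eC g sp i b (g.a i b s) = some (pr (g.a i b s) (sp i s none)) := by
  have h : ∃ s', g.a i b s = g.a i b s' := ⟨s, rfl⟩
  unfold eC
  rw [if_neg (hg.ne i b s), dif_pos h, ← (hg.inj i b s b _ h.choose_spec).2]

theorem eC_other {i : Dir F} {b : Bool} {d : Dir F} (h1 : d ≠ i) (h2 : ∀ s, d ≠ g.a i b s) :
    eC g sp i b d = some (pr d (g.O i b)) := by
  unfold eC
  rw [if_neg h1, dif_neg fun ⟨s, h⟩ => h2 s h]

/-- A point in a special direction from a centre is on a host of that centre. -/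
theorem on_host_of_special (hg : g.Ok) {i : Dir F} {b : Bool} {d : Dir F} {p : Pt F}
    (hd : pr d p = pr d (g.O i b)) (h : ¬ (d ≠ i ∧ ∀ s, d ≠ g.a i b s)) :
    ∃ h, Side b h ∧ On p (g.host i h) := by
  by_cases h1 : d = i
  · subst h1
    exact ⟨none, .inl rfl, hd.trans (hg.onMain d b)⟩
  · push Not at h
    obtain ⟨s, rfl⟩ := h h1
    exact ⟨some (b, s), .inr ⟨s, rfl⟩, hd⟩

end

/-- Edges: the points on no used line, the semi-plain points, and the centres. -/
theorem edges (g : Gad F) (hg : g.Ok) (sp : Dir F → Fin 11 → Host → Pt F)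
    (hl : ∀ i, Loc g i (sp i)) (hx : Cross g sp)
    (hY : ∀ l, ¬ Used g l → ∃ x, On x l ∧ ∀ l', Used g l' → ¬ On x l') (hst : UStab g) :
    ∃ E : Finset (Dir F → Option F), E.Nonempty ∧ (∀ e ∈ E, ∀ f ∈ E, ∃ i, e i = f i) ∧
      (∀ i a, ∃ e ∈ E, e i = a) ∧
      ∀ S : Finset (Dir F × Option F), (∀ e ∈ E, ∃ i, (i, e i) ∈ S) →
        Fintype.card F + 1 ≤ S.card := by
  set EP : Pt F → Prop := fun p =>
    (∀ l, Used g l → ¬ On p l) ∨ ∃ i s h, Val s h ∧ p = sp i s h with hEP
  set E := flt univ fun e : Dir F → Option F =>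
    (∃ p, EP p ∧ e = ePt p) ∨ ∃ i b, e = eC g sp i b with hE
  have m1 : ∀ p, EP p → ePt p ∈ E := fun p hp => mem_flt.2 ⟨mem_univ _, .inl ⟨p, hp, rfl⟩⟩
  have m2 : ∀ i b, eC g sp i b ∈ E := fun i b => mem_flt.2 ⟨mem_univ _, .inr ⟨i, b, rfl⟩⟩
  have pc : ∀ p, EP p → ∀ i b, ∃ d, ePt p d = eC g sp i b d := fun p hp i b => by
    obtain ⟨d, hd⟩ := exists_dir p (g.O i b)
    by_cases h : d ≠ i ∧ ∀ s, d ≠ g.a i b s
    · exact ⟨d, by rw [eC_other h.1 h.2, ← hd]; rfl⟩
    · obtain ⟨h', hs, hon⟩ := on_host_of_special hg hd h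
      rcases hp with hp | ⟨i', s, h'', hv, rfl⟩
      · exact absurd hon (hp _ ⟨i, h', rfl⟩)
      · obtain ⟨rfl, rfl⟩ := (hl i').only s h'' i h' hv hon
        exact ⟨g.a i b s, by rw [eC_aux hg]; exact congrArg some ((hl i).onPtr s b h' hv hs)⟩
  refine ⟨E, ⟨_, m2 none true⟩, fun e he f hf => ?_, fun i a => ?_, fun S hS => ?_⟩
  · rcases (mem_flt.1 he).2 with ⟨p, hp, rfl⟩ | ⟨i, b, rfl⟩ <;>
      rcases (mem_flt.1 hf).2 with ⟨p', hp', rfl⟩ | ⟨i', b', rfl⟩
    · exact (exists_dir p p').imp fun d hd => congrArg some hd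
    · exact pc p hp i' b'
    · exact (pc p' hp' i b).imp fun d hd => hd.symm
    · by_cases hi : i = i'
      · subst hi; exact ⟨i, by rw [eC_self, eC_self]⟩
      · obtain ⟨d, hd⟩ := exists_dir (g.O i b) (g.O i' b')
        have h1 : d ≠ i' ∧ ∀ s, d ≠ g.a i' b' s := by
          by_contra h
          obtain ⟨h', -, hon⟩ := on_host_of_special hg hd h
          exact hi (hg.cen i b i' h' hon).1.symm
        have h2 : d ≠ i ∧ ∀ s, d ≠ g.a i b s := by
          by_contra h
          obtain ⟨h', -, hon⟩ := on_host_of_special hg hd.symm h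
          exact hi (hg.cen i' b' i h' hon).1
        exact ⟨d, by rw [eC_other h1.1 h1.2, eC_other h2.1 h2.2, hd]⟩
  · rcases a with _ | c
    · exact ⟨_, m2 i true, eC_self i true⟩
    · by_cases hu : Used g (i, c)
      · obtain ⟨i', h, e⟩ := hu
        obtain ⟨s, hs⟩ := (by decide : ∀ h : Host, ∃ s, Val s h) h
        refine ⟨_, m1 (sp i' s h) (.inr ⟨i', s, h, hs, rfl⟩), congrArg some ?_⟩
        have := (hl i').onHost s h hs
        rw [← e] at this
        exact this
      · obtain ⟨x, h1, h2⟩ := hY _ hu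
        exact ⟨_, m1 x (.inl h2), congrArg some h1⟩
  · by_contra hlt
    set C := flt univ fun l : Line F => (l.1, some l.2) ∈ S with hC
    set St := flt univ fun d : Dir F => (d, (none : Option F)) ∈ S with hSt
    have hcard : C.card + St.card ≤ Fintype.card F := by
      have h1 : C.card ≤ (S.filter fun x => x.2 ≠ none).card :=
        card_le_card_of_injOn (fun l => (l.1, some l.2))
          (fun l hl => mem_filter.2 ⟨(mem_flt.1 hl).2, by simp⟩) fun l _ l' _ e => by
            simp only [Prod.mk.injEq, Option.some.injEq] at e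
            exact Prod.ext e.1 e.2
      have h2 : St.card ≤ (S.filter fun x => ¬ x.2 ≠ none).card :=
        card_le_card_of_injOn (fun d => (d, none))
          (fun d hd => mem_filter.2 ⟨(mem_flt.1 hd).2, by simp⟩) fun d _ d' _ e =>
            (Prod.ext_iff.1 e).1
      have h3 := card_filter_add_card_filter_not (s := S) fun x => x.2 ≠ none
      omega
    have hP : ∀ p, EP p → ∃ l ∈ C, On p l := fun p hp => by
      obtain ⟨d, hd⟩ := hS _ (m1 p hp)
      exact ⟨(d, pr d p), mem_flt.2 ⟨mem_univ _, hd⟩, rfl⟩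
    have hF : ∀ i b, FCov g sp C St i b := fun i b => by
      obtain ⟨d, hd⟩ := hS _ (m2 i b)
      by_cases h1 : d = i
      · subst h1
        rw [eC_self] at hd
        exact .inl (mem_flt.2 ⟨mem_univ _, hd⟩)
      by_cases h2 : ∀ s, d ≠ g.a i b s
      · rw [eC_other h1 h2] at hd
        exact .inr (.inr ⟨d, h1, h2, mem_flt.2 ⟨mem_univ _, hd⟩⟩)
      · push Not at h2
        obtain ⟨s, rfl⟩ := h2
        rw [eC_aux hg] at hd
        exact .inr (.inl ⟨s, mem_flt.2 ⟨mem_univ _, hd⟩⟩)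
    obtain ⟨o, ho⟩ := hst C (by omega) fun x hx => hP x (.inl hx)
    have hsp : ∀ i s h, Val s h → ∃ l ∈ C, On (sp i s h) l := fun i s h hv =>
      hP _ (.inr ⟨i, s, h, hv, rfl⟩)
    by_cases hc : ∃ i b, o = .inl (g.O i b)
    · obtain ⟨i, b, rfl⟩ := hc
      exact cover_centre g hg sp hl C St hcard i b ho (hsp i) (hF i (!b))
    · push Not at hc
      exact cover_other g hg sp hl hx C St hcard o hc ho hsp hF

end Crest.Agent.R34
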