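import Crest.Agent.R34.Asym

/-! Row 34: the parameters of the container argument. -/

set_option autoImplicit false
set_option linter.unusedSectionVars false

namespace Crest.Agent.R34

open Finset

open Filter

theorem numL_two_sq_le {q : ℕ} (hq : 2 ≤ q) : 2 * (q : ℝ) ^ 2 ≤ Real.exp (3 * yy q ^ 3) := by
  have hq' : (2 : ℝ) ≤ q := by exact_mod_cast hq
  rw [yy_pow (by omega), show (3 : ℝ) * Real.log q = (3 : ℕ) * Real.log q by norm_num,
    Real.exp_nat_mul, Real.exp_log (by linarith)]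
  nlinarith [sq_nonneg (q : ℝ)]

theorem numL_poly {A b y : ℝ} (hb : 0 < b) (hy0 : 0 ≤ y) (hy : 120 * A / b ^ 5 ≤ y) :
    A * y ^ 4 ≤ Real.exp (b * y) := by
  refine le_trans ?_ (Real.pow_div_factorial_le_exp (b * y) (by positivity) 5)
  rw [div_le_iff₀ (by positivity)] at hy
  rw [le_div_iff₀ (by positivity)]
  calc A * y ^ 4 * (Nat.factorial 5 : ℕ) = 120 * A * y ^ 4 := by
        simp only [Nat.factorial]; push_cast; ring
    _ ≤ y * b ^ 5 * y ^ 4 := by gcongr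
    _ = _ := by ring

/-- The last inequality of `numL`, after taking logarithms. -/
theorem numL_last {K q h k j : ℕ} {X₁ X₂ X₃ L T : ℝ} (hL : 1 ≤ L) (hT : 160 ≤ T)
    (hq : 1 ≤ q) (h1 : 7 * (K : ℝ) * q ≤ T * L / 10) (hX₁ : 0 ≤ X₁) (hX₂ : 0 ≤ X₂) (hX₃ : 0 ≤ X₃)
    (h2 : X₁ ≤ Real.exp (3 * L)) (hk : 2 * (k : ℝ) ≤ T / 7) (hj : (j : ℝ) ≤ T / 30)
    (h3 : X₂ ^ q ≤ Real.exp (T * L / 10)) (h4 : X₃ ≤ Real.exp (-(9 / 10 * L))) (hh : T ≤ h) :
    (5 * K : ℝ) * 2 ^ (K * (q + 1)) * (X₁ ^ (2 * k + j) * X₂ ^ q * X₃ ^ h) ≤ 1 / 20 := by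
  have hq' : (1 : ℝ) ≤ q := by exact_mod_cast hq
  have hK : (0 : ℝ) ≤ K := Nat.cast_nonneg K
  have hKq : (K : ℝ) * 1 ≤ K * q := by gcongr
  have a1 : (5 * K : ℝ) ≤ Real.exp (5 * K * q) := by
    linarith [Real.add_one_le_exp (5 * (K : ℝ) * q)]
  have a2 : (2 : ℝ) ^ (K * (q + 1)) ≤ Real.exp (2 * K * q) := by
    calc (2 : ℝ) ^ (K * (q + 1)) ≤ Real.exp 1 ^ (K * (q + 1)) := by
          gcongr; linarith [Real.add_one_le_exp (1 : ℝ)]
      _ = Real.exp ((K * (q + 1) : ℕ) * 1) := (Real.exp_nat_mul _ _).symm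
      _ ≤ _ := by rw [Real.exp_le_exp]; push_cast; linarith
  have a3 : X₁ ^ (2 * k + j) ≤ Real.exp ((T / 7 + T / 30) * (3 * L)) := by
    calc _ ≤ Real.exp (3 * L) ^ (2 * k + j) := by gcongr
      _ = Real.exp ((2 * k + j : ℕ) * (3 * L)) := (Real.exp_nat_mul _ _).symm
      _ ≤ _ := by rw [Real.exp_le_exp]; push_cast; gcongr
  have a4 : X₃ ^ h ≤ Real.exp (-(T * (9 / 10 * L))) := by
    calc _ ≤ Real.exp (-(9 / 10 * L)) ^ h := by gcongr
      _ = Real.exp (h * -(9 / 10 * L)) := (Real.exp_nat_mul _ _).symm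
      _ ≤ _ := by
          rw [Real.exp_le_exp, mul_neg, neg_le_neg_iff]; gcongr
  have hTL : T * 1 ≤ T * L := by gcongr
  calc _ ≤ Real.exp (5 * K * q) * Real.exp (2 * K * q) * (Real.exp ((T / 7 + T / 30) * (3 * L)) *
        Real.exp (T * L / 10) * Real.exp (-(T * (9 / 10 * L)))) := by gcongr
    _ ≤ Real.exp (-19) := by
        simp only [← Real.exp_add]
        rw [Real.exp_le_exp]
        nlinarith
    _ ≤ _ := by
        rw [Real.exp_neg, one_div]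
        exact inv_anti₀ (by norm_num) (by linarith [Real.add_one_le_exp (19 : ℝ)])

/-- With `J = 5K`, `τ = eps / 4^(J+1)`: take `h = ⌈τ q⌉`, `k = ⌈τ q / 16⌉`, `j = ⌈6 q dev / h⌉`.
Use `del_ge`, `del_le_one`.  For the last inequality take logarithms; with `y = yy q`,
`c = 1 / 4^(J+1)`: `τ y³ = c y`; the gain is `h log (eps h / 4^J) ≥ τ q * 0.9 y³` because
`eps h / 4^J ≥ 4 τ² q ≥ q^0.9`; the cost is at most
`log J + 2Kq + (τq/8 + 3 + 6 dev/τ) 3y³ + q log (6400 * 16^K / τ²)`, and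
`log (C y⁴) ≤ 0.1 c y` for large `y`. -/
theorem numL {K : ℕ} (hK : 0 < K) : ∀ᶠ q : ℕ in atTop, ∃ h k j : ℕ, 24 ≤ q ∧ K ≤ q ∧ 0 < eps q ∧
    0 < h ∧ (h : ℝ) < eps q * q / 4 ^ (5 * K + 1) + 1 ∧ (K : ℝ) ≤ dev q ∧
    10 * dev q ≤ del K q * q ∧ 800 * (h : ℝ) ≤ del K q ^ 2 * q ∧ 10 ≤ k * del K q ∧
    40 * (k : ℝ) ≤ del K q * q ∧
    2 * q * Real.exp (-((k : ℝ) ^ 3 / (2 * (q : ℝ) ^ 2))) < 1 ∧ 6 * q * dev q ≤ j * h ∧
    (5 * K : ℝ) * 2 ^ (K * (q + 1)) *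
      ((2 * (q : ℝ) ^ 2) ^ (2 * k + j) * (25 * (q : ℝ) ^ 2 / (k * del K q) ^ 2) ^ q *
        (4 ^ (5 * K) / (eps q * h)) ^ h) ≤ 1 / 20 := by
  have hK' : (0 : ℝ) < K := by exact_mod_cast hK
  obtain ⟨c, hc⟩ : ∃ c : ℝ, c = 1 / 4 ^ (5 * K + 1) := ⟨_, rfl⟩
  obtain ⟨d, hd⟩ : ∃ d : ℝ, d = (1 / 4) ^ K := ⟨_, rfl⟩
  have hc0 : 0 < c := by rw [hc]; positivity
  have hc1 : c ≤ 1 := by
    rw [hc, div_le_one (by positivity)]; exact one_le_pow₀ (by norm_num)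
  have hd0 : 0 < d := by rw [hd]; positivity
  have hd1 : d ≤ 1 := by rw [hd]; exact pow_le_one₀ (by norm_num) (by norm_num)
  have hc4 : (4 : ℝ) ^ (5 * K) * (4 * c) = 1 := by rw [hc, pow_succ]; field_simp
  filter_upwards [eventually_ge_atTop 24, eventually_ge_atTop K, ev_yy 1, ev_yy (70 * K / c),
    ev_yy (120 * (6400 / (c * d) ^ 2) / (c / 10) ^ 5),
    ev_eps (c := d ^ 2 / 1600) (by positivity), ev_dev (c := d / 10) (by positivity) K,
    ev_pow (160 / (c * d)) 2 one_pos, ev_pow (8192 / c ^ 3) 6 (a := 1 / 2) (by norm_num),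
    ev_pow (360 / c ^ 2) 4 (a := 1 / 4) (by norm_num),
    ev_pow (1 / (4 * c ^ 2)) 4 (a := 1 / 10) (by norm_num),
    ev_exp 2 1 (c := 1) (a := 1 / 2) (η := 1 / 2) one_pos (by norm_num) (by norm_num)]
    with q h24 hKq hy1 hy2 hy3 hε hdev hp2 hp6 hp4 hp4' he1
  have hq : (24 : ℝ) ≤ q := by exact_mod_cast h24
  have hq0 : (0 : ℝ) < q := by linarith
  have hlog := numL_two_sq_le (q := q) (by omega)
  have hsq : (q : ℝ) ^ (1 / 2 : ℝ) * (q : ℝ) ^ (1 / 2 : ℝ) = q := by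
    rw [← Real.sqrt_eq_rpow, Real.mul_self_sqrt (Nat.cast_nonneg q)]
  have hdq : (q : ℝ) ^ (1 / 4 : ℝ) * dev q = q := by
    rw [dev, ← Real.rpow_add hq0]; norm_num
  have h10 : (q : ℝ) ^ (1 / 10 : ℝ) = q * Real.exp (-(9 / 10 * yy q ^ 3)) := by
    rw [yy_pow (by omega), Real.rpow_def_of_pos hq0]
    nth_rewrite 2 [← Real.exp_log hq0]
    rw [← Real.exp_add]
    congr 1; ring
  have hδ1 : d ≤ del K q := hd ▸ del_ge K (by omega)
  have hpoly := numL_poly (by positivity : 0 < c / 10) (by linarith) hy3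
  rw [Real.rpow_one] at hp2
  rw [one_mul, pow_one] at he1
  rw [h10] at hp4'
  have hεy : eps q * yy q ^ 2 = 1 := by unfold eps; field_simp
  obtain ⟨hε0, hε1⟩ := hε
  obtain ⟨hdev1, hdev2⟩ := hdev
  have hdev0 : 0 < dev q := by linarith
  have e0 : eps q * q / 4 ^ (5 * K + 1) = eps q * c * q := by rw [hc]; ring
  rw [e0]
  clear e0 hc hd h10 hy3
  generalize eps q = ε at *
  generalize yy q = y at *
  generalize dev q = D at *
  generalize del K q = δ at *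
  generalize (q : ℝ) ^ (1 / 2 : ℝ) = r at *
  generalize (q : ℝ) ^ (1 / 4 : ℝ) = w at *
  have hy0 : 0 < y := by linarith
  obtain ⟨T, hT⟩ : ∃ T, T = ε * c * q := ⟨_, rfl⟩
  rw [← hT]
  have hTy : T * y ^ 2 = c * q := by
    rw [hT]
    calc _ = ε * y ^ 2 * (c * q) := by ring
      _ = _ := by rw [hεy, one_mul]
  have hTd : 160 ≤ T * d := by
    rw [div_mul_eq_mul_div, div_le_iff₀ (by positivity)] at hp2
    refine le_of_mul_le_mul_right ?_ (by positivity : 0 < y ^ 2)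
    calc _ ≤ q * (c * d) := hp2
      _ = T * y ^ 2 * d := by rw [hTy]; ring
      _ = _ := by ring
  have hT0 : 0 < T := by rw [hT]; positivity
  have hT160 : 160 ≤ T := hTd.trans (mul_le_of_le_one_right hT0.le hd1)
  have hTq : T ≤ d ^ 2 / 1600 * q := by
    rw [hT]
    calc _ ≤ ε * 1 * q := by gcongr
      _ ≤ _ := by rw [mul_one]; gcongr
  obtain ⟨h, hh⟩ : ∃ h : ℕ, h = ⌈T⌉₊ := ⟨_, rfl⟩
  obtain ⟨k, hk⟩ : ∃ k : ℕ, k = ⌈T / 16⌉₊ := ⟨_, rfl⟩
  obtain ⟨j, hj⟩ : ∃ j : ℕ, j = ⌈6 * q * D / h⌉₊ := ⟨_, rfl⟩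
  have hh1 : T ≤ h := hh ▸ Nat.le_ceil _
  have hh2 : (h : ℝ) < T + 1 := hh ▸ Nat.ceil_lt_add_one hT0.le
  have hk1 : T / 16 ≤ k := hk ▸ Nat.le_ceil _
  have hk2 : (k : ℝ) < T / 16 + 1 := hk ▸ Nat.ceil_lt_add_one (by positivity)
  have hh0 : (0 : ℝ) < h := by linarith
  have hj1 : 6 * q * D / h ≤ j := hj ▸ Nat.le_ceil _
  have hj2 : (j : ℝ) < 6 * q * D / h + 1 := hj ▸ Nat.ceil_lt_add_one (by positivity)
  have hkd : T / 16 * d ≤ k * δ := by gcongr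
  have hdq1 : d * q ≤ δ * q := by gcongr
  have hdq2 : d ^ 2 * q ≤ δ ^ 2 * q := by gcongr
  have hdq3 : d ^ 2 * q ≤ d * q := by gcongr; nlinarith
  refine ⟨h, k, j, h24, hKq, hε0, by exact_mod_cast hh0, hh2, hdev1, by linarith, by linarith,
    by linarith, by linarith, ?_, by rwa [div_le_iff₀ hh0] at hj1, ?_⟩
  · refine lt_of_le_of_lt (le_trans ?_ he1) (by norm_num)
    have h3 : r ≤ (k : ℝ) ^ 3 / (2 * (q : ℝ) ^ 2) := by
      have hr : 0 ≤ r := le_trans (by positivity) hp6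
      rw [div_mul_eq_mul_div, div_le_iff₀ (by positivity)] at hp6
      rw [le_div_iff₀ (by positivity)]
      refine le_of_mul_le_mul_right ?_ (by positivity : 0 < y ^ 6)
      calc r * (2 * (q : ℝ) ^ 2) * y ^ 6 = r * (8192 * y ^ 6) * q ^ 2 / 4096 := by ring
        _ ≤ r * (r * c ^ 3) * q ^ 2 / 4096 := by gcongr
        _ = (r * r) * c ^ 3 * q ^ 2 / 4096 := by ring
        _ = (c * q) ^ 3 / 4096 := by rw [hsq]; ring
        _ = (T / 16) ^ 3 * y ^ 6 := by rw [← hTy]; ring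
        _ ≤ _ := by gcongr
    gcongr
  · have hTL : T * y ^ 3 = c * q * y := by rw [← hTy]; ring
    refine numL_last (L := y ^ 3) (T := T) (one_le_pow₀ hy1) hT160 (by omega) ?_ (by positivity)
      (by positivity) (by positivity) hlog (by linarith) ?_ ?_ ?_ hh1
    · rw [div_le_iff₀ hc0] at hy2
      have : 70 * K * (q : ℝ) ≤ y * c * q := by gcongr
      rw [hTL]
      linarith
    · have h3 : 6 * q * D / h ≤ T / 60 := by
        rw [div_mul_eq_mul_div, div_le_iff₀ (by positivity)] at hp4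
        rw [div_le_iff₀ hh0]
        refine le_trans ?_ (by gcongr : T / 60 * T ≤ T / 60 * h)
        refine le_of_mul_le_mul_right ?_ (by positivity : 0 < y ^ 4)
        calc 6 * q * D * y ^ 4 = 360 * y ^ 4 * D * q / 60 := by ring
          _ ≤ w * c ^ 2 * D * q / 60 := by gcongr
          _ = (w * D) * c ^ 2 * q / 60 := by ring
          _ = (c * q) ^ 2 / 60 := by rw [hdq]; ring
          _ = _ := by rw [← hTy]; ring
      linarith
    · have h3 : 25 * (q : ℝ) ^ 2 / (k * δ) ^ 2 ≤ 6400 / (c * d) ^ 2 * y ^ 4 := by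
        calc _ ≤ 25 * (q : ℝ) ^ 2 / (T / 16 * d) ^ 2 := by gcongr
          _ = 6400 / (c * d) ^ 2 * ((c * q) ^ 2 / T ^ 2) := by field_simp; norm_num
          _ = _ := by rw [← hTy]; field_simp
      calc _ ≤ Real.exp (c / 10 * y) ^ q := by
            gcongr; exact h3.trans hpoly
        _ = _ := by rw [← Real.exp_nat_mul, hTL]; congr 1; ring
    · rw [div_mul_eq_mul_div, div_le_iff₀ (by positivity), one_mul] at hp4'
      rw [div_le_iff₀ (by positivity)]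
      refine le_of_mul_le_mul_right ?_ (by positivity : 0 < 4 * c * y ^ 4)
      calc 4 ^ (5 * K) * (4 * c * y ^ 4) = y ^ 4 := by rw [← mul_assoc, hc4, one_mul]
        _ ≤ q * Real.exp (-(9 / 10 * y ^ 3)) * (4 * c ^ 2) := hp4'
        _ = Real.exp (-(9 / 10 * y ^ 3)) * (4 * c) * ((ε * y ^ 2) * (T * y ^ 2)) := by
            rw [hεy, hTy]; ring
        _ = Real.exp (-(9 / 10 * y ^ 3)) * (ε * T) * (4 * c * y ^ 4) := by ring
        _ ≤ _ := by gcongr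

end Crest.Agent.R34
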