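import Crest.Agent.R34.Batch
import Crest.Agent.R34.Cont
import Crest.Agent.R34.NumL

/-! Row 34: covers that miss many points are unlikely. -/

set_option autoImplicit false
set_option linter.unusedSectionVars false

namespace Crest.Agent.R34

open Finset

section

variable {F : Type} [Field F] [Fintype F] [DecidableEq F]
variable {Λ : Type} [Fintype Λ] [DecidableEq Λ]

/-- The points on no line with index outside `H`. -/
noncomputable def Pout (H : Finset (Λ × Dir F)) (ω : Cfg Λ F) : Finset (Pt F) :=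
  flt univ fun x => ∀ t ∉ H, ¬ On x (ln ω t)

theorem ln_piece {H : Finset (Λ × Dir F)} (ω ω₀ : Cfg Λ F) {t : Λ × Dir F} (ht : t ∉ H) :
    ln (H.piecewise ω ω₀) t = ln ω₀ t := by
  unfold ln; rw [piecewise_eq_of_notMem _ _ _ ht]

theorem ln_piece_mem {H : Finset (Λ × Dir F)} (ω ω₀ : Cfg Λ F) {t : Λ × Dir F} (ht : t ∈ H) :
    ln (H.piecewise ω ω₀) t = ln ω t := by
  unfold ln; rw [piecewise_eq_of_mem _ _ _ ht]

theorem Pout_piece (H : Finset (Λ × Dir F)) (ω ω₀ : Cfg Λ F) :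
    Pout H (H.piecewise ω ω₀) = Pout H ω₀ := by
  ext x
  simp only [Pout, mem_flt, mem_univ, true_and]
  exact forall₂_congr fun t ht => by rw [ln_piece ω ω₀ ht]

theorem rem_piece {J : ℕ} (bat : Λ × Dir F → Fin J) (b : Fin J) {H : Finset (Λ × Dir F)}
    (hH : ∀ t ∈ H, bat t = b) (ω ω₀ : Cfg Λ F) (U : Finset (Pt F)) :
    rem bat (ln (H.piecewise ω ω₀)) U b = rem bat (ln ω₀) U b := by
  ext x
  simp only [rem, mem_flt]
  refine and_congr_right fun _ => forall₂_congr fun t ht => ?_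
  rw [ln_piece ω ω₀ fun h => by rw [hH t h] at ht; exact lt_irrefl _ ht]

theorem card_out_le [Nonempty Λ] (H : Finset (Λ × Dir F)) (ω : Cfg Λ F) {l : Line F} (hl : l ∉ Sp ω) :
    (pts l ∩ (Pout H ω \ unc (Sp ω))).card ≤ H.card := by
  have h : ∀ x ∈ pts l ∩ (Pout H ω \ unc (Sp ω)), ∃ t ∈ H, On x (ln ω t) := fun x hx => by
    obtain ⟨h1, h2⟩ := mem_sdiff.1 (mem_inter.1 hx).2
    by_contra hn
    push Not at hn
    refine h2 (mem_unc.2 fun l' hl' => ?_)
    obtain ⟨t, rfl⟩ := mem_Sp.1 hl'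
    by_cases ht : t ∈ H
    · exact hn t ht
    · exact (mem_flt.1 h1).2 t ht
  choose! f hf1 hf2 using h
  refine card_le_card_of_injOn f (fun x hx => hf1 x hx) fun x hx y hy e => ?_
  have hne : ln ω (f x) ≠ l := fun e' => hl (e' ▸ ln_mem ω (f x))
  exact eq_of_on hne (hf2 x hx) (mem_pts.1 (mem_inter.1 hx).1) (e ▸ hf2 y hy)
    (mem_pts.1 (mem_inter.1 hy).1)

/-- The event for a batch `b` and a set `H` of indices in it. -/
theorem Pr_batch {J : ℕ} (bat : Λ × Dir F → Fin J) (b : Fin J) (H : Finset (Λ × Dir F))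
    (hH : ∀ t ∈ H, bat t = b) (hd : ∀ t ∈ H, ∀ t' ∈ H, t.2 = t'.2 → t = t')
    (𝓛 : Finset (Pt F) → Finset (Finset (Line F))) {A ε : ℝ} (hε : 0 < ε)
    (hA : ∀ P', ((𝓛 P').card : ℝ) ≤ A) :
    Pr (fun ω : Cfg Λ F => ∃ L ∈ 𝓛 (Pout H ω),
      ε * (Fintype.card F : ℝ) ^ 2 ≤ 4 ^ J * (rem bat (ln ω) (unc L) b).card ∧
        ∀ t ∈ H, ln ω t ∈ heavy (rem bat (ln ω) (unc L) b)) ≤
      A * (4 ^ J / (ε * H.card)) ^ H.card := by
  have hq0 : (0 : ℝ) < Fintype.card F := by linarith [two_le_q (F := F)]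
  refine Pr_fiber H _ _ fun ω₀ => ?_
  simp only [Pout_piece, rem_piece bat b hH]
  refine (Pr_exists_le_card _ _ ((4 ^ J / (ε * H.card)) ^ H.card) fun L _ => ?_).trans
    (mul_le_mul_of_nonneg_right (hA _) (by positivity))
  set R := rem bat (ln ω₀) (unc L) b with hR
  by_cases hr : ε * (Fintype.card F : ℝ) ^ 2 ≤ 4 ^ J * R.card
  swap
  · rw [Pr_false fun ω h => hr h.1]; positivity
  have hR0 : (0 : ℝ) < R.card := by
    by_contra h
    have : (R.card : ℝ) = 0 := le_antisymm (not_lt.1 h) (by positivity)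
    rw [this, mul_zero] at hr
    exact absurd hr (not_le.2 (by positivity))
  have hM : ((heavy R).card : ℝ) ≤ 4 ^ J * Fintype.card F / ε := by
    have h1 := card_heavy R (card_pos.1 (by exact_mod_cast hR0))
    rw [le_div_iff₀ hε]
    refine le_of_mul_le_mul_right ?_ (show (0 : ℝ) < (Fintype.card F : ℝ) ^ 2 by positivity)
    calc ((heavy R).card : ℝ) * ε * (Fintype.card F : ℝ) ^ 2
        = ((heavy R).card : ℝ) * (ε * (Fintype.card F : ℝ) ^ 2) := by ring
      _ ≤ ((heavy R).card : ℝ) * (4 ^ J * R.card) :=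
          mul_le_mul_of_nonneg_left hr (Nat.cast_nonneg _)
      _ = 4 ^ J * (((heavy R).card : ℝ) * R.card) := by ring
      _ ≤ 4 ^ J * (Fintype.card F : ℝ) ^ 3 := mul_le_mul_of_nonneg_left h1 (by positivity)
      _ = _ := by ring
  refine le_trans (Pr_mono fun ω h t ht => ?_) ((Pr_all_mem H hd (heavy R) hM).trans (le_of_eq ?_))
  · have := h.2 t ht
    rwa [ln_piece_mem ω ω₀ ht] at this
  · congr 1
    by_cases h0 : (H.card : ℝ) = 0
    · simp [h0]
    · field_simp

end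

/-- Take `h k j` from `numL`, `bat` from `exists_bat`, and `𝓛 P'` from `cont`.  For a bad `ω` and
its `L`, `batch` gives a batch `b` with many heavy indices; choose `h` of them. -/
theorem rare_large (Λ : Type) [Fintype Λ] [DecidableEq Λ] [Nonempty Λ] :
    Rare Λ fun F _ _ _ ω => Q1 ω ∧ ∃ L : Finset (Line F), L.card ≤ Fintype.card F ∧
      Disjoint L (Sp ω) ∧ Covers L (unc (Sp ω)) ∧
      eps (Fintype.card F) * (Fintype.card F : ℝ) ^ 2 ≤ (unc L).card := by
  classical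
  obtain ⟨q₀, h₀⟩ := Filter.eventually_atTop.1 (numL (K := Fintype.card Λ) Fintype.card_pos)
  refine ⟨q₀, fun F _ _ _ hq => ?_⟩
  obtain ⟨h, k, j, n1, n2, n3, n4, n5, n6, n7, n8, n9, n10, n11, n12, n13⟩ := h₀ _ hq
  set K := Fintype.card Λ with hK
  have hq2 := two_le_q (F := F)
  have hq0 : (0 : ℝ) < Fintype.card F := by linarith
  have hδ0 : 0 < del K (Fintype.card F) :=
    lt_of_lt_of_le (by positivity) (del_ge K Fintype.one_lt_card)
  have hδ1 := del_le_one K (q := Fintype.card F) Fintype.card_pos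
  have he0 : 0 ≤ dev (Fintype.card F) := le_trans (by positivity) n6
  have hh0 : (0 : ℝ) < h := by exact_mod_cast n4
  choose 𝓛 hA h𝓛 using fun P' : Finset (Pt F) =>
    cont hδ0 hδ1 he0 n7 hh0 n8 n9 n10 n11 n12 P'
  obtain ⟨bat, hbat⟩ := exists_bat (F := F) (Λ := Λ) n1
  set ε := eps (Fintype.card F) with hε
  set E : Fin (5 * K) × Finset (Λ × Dir F) → Cfg Λ F → Prop := fun bH ω =>
    (bH.2.card = h ∧ ∀ t ∈ bH.2, bat t = bH.1) ∧ ∃ L ∈ 𝓛 (Pout bH.2 ω),
      ε * (Fintype.card F : ℝ) ^ 2 ≤ 4 ^ (5 * K) * (rem bat (ln ω) (unc L) bH.1).card ∧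
        ∀ t ∈ bH.2, ln ω t ∈ heavy (rem bat (ln ω) (unc L) bH.1) with hE
  have hb := Pr_exists_le_univ E ((2 * (Fintype.card F : ℝ) ^ 2) ^ (2 * k + j) *
      (25 * (Fintype.card F : ℝ) ^ 2 / (k * del K (Fintype.card F)) ^ 2) ^ Fintype.card F *
      (4 ^ (5 * K) / (ε * h)) ^ h) fun ⟨b, H⟩ => by
    by_cases hH : H.card = h ∧ ∀ t ∈ H, bat t = b
    · have := Pr_batch bat b H hH.2
        (fun t ht t' ht' e => (hbat b).2 t t' (hH.2 t ht) (hH.2 t' ht') e) 𝓛 n3 hA
      rw [hH.1] at this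
      exact (Pr_mono fun ω hω => hω.2).trans this
    · rw [Pr_false fun ω hω => hH hω.1]; positivity
  have hc : (Fintype.card (Fin (5 * K) × Finset (Λ × Dir F)) : ℝ) =
      5 * K * 2 ^ (K * (Fintype.card F + 1)) := by
    rw [Fintype.card_prod, Fintype.card_fin, Fintype.card_finset, card_idx]; push_cast; rfl
  rw [hc] at hb
  refine le_trans (Pr_mono ?_) (hb.trans n13)
  rintro ω ⟨hQ, L, hL, hdis, hcov, hz⟩
  have hU : ∀ x ∈ unc L, ∃ t, On x (ln ω t) := fun x hx => by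
    by_contra hn
    push Not at hn
    obtain ⟨l, hl, hon⟩ := hcov x (mem_unc.2 fun l hl => by
      obtain ⟨t, rfl⟩ := mem_Sp.1 hl; exact hn t)
    exact mem_unc.1 hx l hl hon
  have hne : (unc L).Nonempty := by
    have : (0 : ℝ) < (unc L).card := lt_of_lt_of_le (by positivity) hz
    exact card_pos.1 (by exact_mod_cast this)
  obtain ⟨b, b1, b2⟩ := batch bat (ln ω) (fun b => (hbat b).1) (unc L) hU hne
  set R := rem bat (ln ω) (unc L) b with hR
  set T := flt univ fun t => bat t = b ∧ ln ω t ∈ heavy R with hT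
  have b1' : ((unc L).card : ℝ) ≤ 4 ^ (5 * K) * R.card := by exact_mod_cast b1
  have b2' : (R.card : ℝ) ≤ 4 * Fintype.card F * T.card := by exact_mod_cast b2
  have hhT : h ≤ T.card := by
    have h1 : ε * Fintype.card F / 4 ^ (5 * K + 1) ≤ T.card := by
      rw [div_le_iff₀ (by positivity)]
      refine le_of_mul_le_mul_right ?_ hq0
      have := mul_le_mul_of_nonneg_left b2' (show (0 : ℝ) ≤ 4 ^ (5 * K) by positivity)
      calc ε * Fintype.card F * Fintype.card F = ε * (Fintype.card F : ℝ) ^ 2 := by ring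
        _ ≤ 4 ^ (5 * K) * (4 * Fintype.card F * T.card) := hz.trans (b1'.trans this)
        _ = _ := by ring
    have h2 : (h : ℝ) < T.card + 1 := by linarith
    have h3 : h < T.card + 1 := by exact_mod_cast h2
    omega
  obtain ⟨H, hHT, hHc⟩ := exists_subset_card_eq hhT
  have hnot : ∀ l ∈ L, l ∉ Sp ω := fun l hl => disjoint_left.1 hdis hl
  refine ⟨⟨b, H⟩, ⟨hHc, fun t ht => (mem_flt.1 (hHT ht)).2.1⟩, L, ?_, hz.trans b1',
    fun t ht => (mem_flt.1 (hHT ht)).2.2⟩
  refine h𝓛 _ (unc (Sp ω)) L (fun x hx => ?_) hL (fun l hl => ?_) (fun l hl => ?_) hcov ?_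
  · exact mem_flt.2 ⟨mem_univ _, fun t _ => mem_unc.1 hx _ (ln_mem ω t)⟩
  · rw [← Yl_eq (hnot l hl)]; exact hQ l
  · have := card_out_le H ω (hnot l hl)
    rw [hHc] at this
    exact_mod_cast this
  · have h1 := card_plain ω (a := del K (Fintype.card F) * Fintype.card F - dev (Fintype.card F))
      (by linarith) fun l => by linarith [(abs_le.1 (hQ l)).1]
    refine le_trans ?_ h1
    have hK0 : (0 : ℝ) ≤ K := by positivity
    have h2 : K * (del K (Fintype.card F) * Fintype.card F) ≤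
        dev (Fintype.card F) * Fintype.card F :=
      mul_le_mul n6 (by nlinarith) (by positivity) he0
    nlinarith [mul_nonneg hK0 he0]

end Crest.Agent.R34
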