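import Crest.Agent.R34.Conc

/-! Row 34: candidates for centres. -/

set_option autoImplicit false
set_option linter.unusedSectionVars false

namespace Crest.Agent.R34

open Finset

variable {F : Type} [Field F] [Fintype F] [DecidableEq F]

theorem card_lay (G : ℕ) : Fintype.card (Lay G) = 22 * G + 1 := by
  simp [Fintype.card_option, mul_comm]

/-- The events for different `a ∈ ∏ s, (cls⁻¹ (b, s) \ {i})` are disjoint (`Pr_exists_disj`), there
are at least `(q/44)^11` of them, and each has probability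
`q^(-11) (1 - 1/q)^(Kq - 11) ≥ q^(-11) del K q` (`Pr_pat`, `card_idx_ne`). -/
theorem le_Pr_cand {G : ℕ} (grp : Dir F → Fin G) (cls : Dir F → Bool × Fin 11)
    (hq : 84 ≤ Fintype.card F)
    (hcls : ∀ c, (Fintype.card F + 1) / 22 ≤ (flt univ fun d => cls d = c).card)
    (i : Dir F) (b : Bool) (x : Pt F) :
    (1 / 44 : ℝ) ^ 11 * del (Fintype.card (Lay G)) (Fintype.card F) ≤
      Pr fun ω : Cfg (Lay G) F => CandP grp cls i b (Inc ω i x) := by
  classical
  have hq2 := two_le_q (F := F)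
  have hq0 : (0 : ℝ) < Fintype.card F := by linarith
  have hr0 : 0 ≤ 1 - 1 / (Fintype.card F : ℝ) := by
    rw [sub_nonneg, div_le_one hq0]; linarith
  have hr1 : 1 - 1 / (Fintype.card F : ℝ) ≤ 1 := sub_le_self _ (by positivity)
  let S : Finset (Fin 11 → Dir F) :=
    Fintype.piFinset fun s => (flt univ fun d => cls d = (b, s)).erase i
  let T : Finset (Lay G × Dir F) := flt univ fun t => t.2 ≠ i
  let A : (Fin 11 → Dir F) → Finset (Lay G × Dir F) := fun a =>
    univ.image fun s => (some (grp i, b, s), a s)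
  let P : (Fin 11 → Dir F) → Cfg (Lay G) F → Prop := fun a ω =>
    (∀ t ∈ A a, On x (ln ω t)) ∧ ∀ t ∈ T \ A a, ¬ On x (ln ω t)
  have hS : ∀ a ∈ S, ∀ s, a s ≠ i ∧ cls (a s) = (b, s) := fun a ha s => by
    simpa using Fintype.mem_piFinset.1 ha s
  have hA : ∀ a t, t ∈ A a ↔ ∃ s, t = (some (grp i, b, s), a s) := fun a t => by
    simp only [A, mem_image, mem_univ, true_and, eq_comm]
  have hP : ∀ a ∈ S, ∀ ω, P a ω → ∀ t, Inc ω i x t ↔ ∃ s, t = (some (grp i, b, s), a s) := by
    intro a ha ω h t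
    constructor
    · intro ht
      by_contra hn
      exact h.2 t (mem_sdiff.2 ⟨mem_flt.2 ⟨mem_univ _, ht.1⟩, fun h' => hn ((hA a t).1 h')⟩) ht.2
    · rintro ⟨s, rfl⟩
      exact ⟨(hS a ha s).1, h.1 _ ((hA a _).2 ⟨s, rfl⟩)⟩
  have h1 : Pr (fun ω => ∃ a ∈ S, P a ω) = ∑ a ∈ S, Pr (P a) := by
    refine Pr_exists_disj S P fun a ha a' ha' ω h h' => funext fun s => ?_
    obtain ⟨s', e⟩ := (hP a' ha' ω h' _).1 ((hP a ha ω h _).2 ⟨s, rfl⟩)
    simp only [Prod.mk.injEq, Option.some.injEq, true_and] at e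
    rw [e.2, e.1]
  have h2 : ∀ a ∈ S, (1 / (Fintype.card F : ℝ)) ^ 11 *
      del (Fintype.card (Lay G)) (Fintype.card F) ≤ Pr (P a) := by
    intro a _
    have e : (A a).card = 11 := by
      rw [card_image_of_injective _ fun s s' e => by
        simp only [Prod.mk.injEq, Option.some.injEq, true_and] at e; exact e.1]
      simp
    rw [Pr_pat x (A a) (T \ A a) disjoint_sdiff, e, del, ← card_idx_ne i]
    exact mul_le_mul_of_nonneg_left (pow_le_pow_of_le_one hr0 hr1 (card_le_card sdiff_subset))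
      (by positivity)
  have h3 : ((Fintype.card F : ℝ) / 44) ^ 11 ≤ S.card := by
    rw [Fintype.card_piFinset, Nat.cast_prod]
    calc ((Fintype.card F : ℝ) / 44) ^ 11 = ∏ _s : Fin 11, ((Fintype.card F : ℝ) / 44) := by
          rw [prod_const, card_univ, Fintype.card_fin]
      _ ≤ _ := prod_le_prod (fun _ _ => by positivity) fun s _ => by
          have a1 := hcls (b, s)
          have a2 := pred_card_le_card_erase (s := flt univ fun d => cls d = (b, s)) (a := i)
          have a3 : Fintype.card F ≤ 44 * ((flt univ fun d => cls d = (b, s)).erase i).card := by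
            omega
          rw [div_le_iff₀' (by norm_num)]
          exact_mod_cast a3
  have hdel : 0 ≤ del (Fintype.card (Lay G)) (Fintype.card F) := pow_nonneg hr0 _
  calc _ = ((Fintype.card F : ℝ) / 44) ^ 11 * ((1 / (Fintype.card F : ℝ)) ^ 11 *
        del (Fintype.card (Lay G)) (Fintype.card F)) := by field_simp
    _ ≤ S.card * ((1 / (Fintype.card F : ℝ)) ^ 11 *
        del (Fintype.card (Lay G)) (Fintype.card F)) :=
        mul_le_mul_of_nonneg_right h3 (by positivity)
    _ ≤ ∑ a ∈ S, Pr (P a) := by simpa using card_nsmul_le_sum S _ _ h2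
    _ ≤ _ := by
        rw [← h1]
        exact Pr_mono fun ω ⟨a, ha, h⟩ => ⟨a, fun s => (hS a ha s).2, hP a ha ω h⟩

/-- Union over the `j ≠ d` of group `g` (at most `(q+1)/G + 1 ≤ 2q/G`); `Pr_pat` with
`A = {(none, j)}`, `B = {t | t.2 ≠ d, t.2 ≠ j, layer not (g, b, _)}`, `|B| = (K - 11)(q - 1)`,
`Kq - |B| ≤ 12 q`, and `quarter_le`. -/
theorem Pr_near_le {G : ℕ} (hG : 0 < G) (grp : Dir F → Fin G)
    (hq : 22 * G + 1 ≤ Fintype.card F)
    (hgrp : ∀ g, (flt univ fun d => grp d = g).card ≤ (Fintype.card F + 1) / G + 1)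
    (g : Fin G) (b : Bool) (d : Dir F) (x : Pt F) :
    (Pr fun ω : Cfg (Lay G) F => NearP grp g b (Inc ω d x)) ≤
      4 ^ 12 * del (Fintype.card (Lay G)) (Fintype.card F) * (2 / G) := by
  classical
  have hq2 := two_le_q (F := F)
  have hq0 : (0 : ℝ) < Fintype.card F := by linarith
  have hG0 : (0 : ℝ) < G := by exact_mod_cast hG
  have hr0 : 0 ≤ 1 - 1 / (Fintype.card F : ℝ) := by
    rw [sub_nonneg, div_le_one hq0]; linarith
  have hr1 : 1 - 1 / (Fintype.card F : ℝ) ≤ 1 := sub_le_self _ (by positivity)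
  let B : Dir F → Finset (Lay G × Dir F) := fun j =>
    flt univ fun t => t.2 ≠ d ∧ t.2 ≠ j ∧ ∀ s, t.1 ≠ some (g, b, s)
  let P : Dir F → Cfg (Lay G) F → Prop := fun j ω =>
    (∀ t ∈ ({(none, j)} : Finset (Lay G × Dir F)), On x (ln ω t)) ∧ ∀ t ∈ B j, ¬ On x (ln ω t)
  have hB : ∀ j, Fintype.card (Lay G) * Fintype.card F ≤ (B j).card + Fintype.card F * 12 := by
    intro j
    have a1 : (flt univ fun t : Lay G × Dir F => t.2 ≠ d) ⊆ B j ∪ (univ ×ˢ {j} ∪
        (univ.image fun s : Fin 11 => some (g, b, s)) ×ˢ univ.erase d) := by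
      intro t ht
      have ht' := (mem_flt.1 ht).2
      by_cases h1 : t.2 = j
      · exact mem_union_right _ (mem_union_left _ (mem_product.2 ⟨mem_univ _, mem_singleton.2 h1⟩))
      · by_cases h2 : ∀ s, t.1 ≠ some (g, b, s)
        · exact mem_union_left _ (mem_flt.2 ⟨mem_univ _, ht', h1, h2⟩)
        · push Not at h2
          obtain ⟨s, hs⟩ := h2
          simp [hs, ht']
    have a2 := (card_le_card a1).trans ((card_union_le _ _).trans
      (Nat.add_le_add_left (card_union_le _ _) _))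
    rw [card_idx_ne, card_product, card_product, card_singleton, card_erase_of_mem (mem_univ _),
      card_univ, card_univ, card_dir (F := F), Nat.add_sub_cancel, mul_one] at a2
    have a3 : (univ.image fun s : Fin 11 => (some (g, b, s) : Lay G)).card ≤ 11 :=
      card_image_le.trans (by simp)
    have a4 := Nat.mul_le_mul_right (Fintype.card F) a3
    have a5 := card_lay G
    omega
  have hP : ∀ j, Pr (P j) ≤ 1 / (Fintype.card F : ℝ) *
      (4 ^ 12 * del (Fintype.card (Lay G)) (Fintype.card F)) := by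
    intro j
    rw [Pr_pat x _ (B j) (disjoint_singleton_left.2 fun h => (mem_flt.1 h).2.2.1 rfl),
      card_singleton, pow_one]
    refine mul_le_mul_of_nonneg_left ?_ (by positivity)
    have a1 := pow_le_pow_of_le_one hr0 hr1 (hB j)
    have a2 := pow_le_pow_left₀ (by norm_num) (quarter_le (q := Fintype.card F)
      Fintype.one_lt_card) 12
    rw [pow_add, pow_mul] at a1
    have a3 := (mul_le_mul_of_nonneg_left a2 (pow_nonneg hr0 (B j).card)).trans a1
    rw [del]
    linarith
  have hc : ((flt univ fun j => grp j = g).card : ℝ) ≤ 2 * Fintype.card F / G := by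
    have a1 : ((flt univ fun j => grp j = g).card : ℝ) ≤
        (((Fintype.card F + 1) / G : ℕ) : ℝ) + 1 := by exact_mod_cast hgrp g
    have a2 : (((Fintype.card F + 1) / G : ℕ) : ℝ) ≤ ((Fintype.card F + 1 : ℕ) : ℝ) / G :=
      Nat.cast_div_le
    have a3 : (22 * G + 1 : ℝ) ≤ Fintype.card F := by exact_mod_cast hq
    rw [le_div_iff₀ hG0] at a2 ⊢
    push_cast at a2 a1 ⊢
    nlinarith
  have hdel : 0 ≤ del (Fintype.card (Lay G)) (Fintype.card F) := pow_nonneg hr0 _
  calc _ ≤ Pr fun ω => ∃ j ∈ flt univ fun j => grp j = g, P j ω := by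
        refine Pr_mono fun ω ⟨j, h1, h2, h3⟩ => ⟨j, mem_flt.2 ⟨mem_univ _, h1⟩, ?_, ?_⟩
        · intro t ht
          rw [mem_singleton.1 ht]
          exact h2.2
        · intro t ht ho
          obtain ⟨-, a1, a2, a3⟩ := mem_flt.1 ht
          exact h3 t a2 a3 ⟨a1, ho⟩
    _ ≤ _ := Pr_exists_le_card _ P _ fun j _ => hP j
    _ ≤ 2 * Fintype.card F / G * (1 / (Fintype.card F : ℝ) *
        (4 ^ 12 * del (Fintype.card (Lay G)) (Fintype.card F))) :=
        mul_le_mul_of_nonneg_right hc (by positivity)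
    _ = _ := by field_simp

/-- `conc`, `le_Pr_cand`, union bound, `ev_conc`. -/
theorem rare_Q2a (G : ℕ) : ∃ q₀ : ℕ, ∀ (F : Type) [Field F] [Fintype F] [DecidableEq F],
    q₀ ≤ Fintype.card F → ∀ (grp : Dir F → Fin G) (cls : Dir F → Bool × Fin 11),
      (∀ c, (Fintype.card F + 1) / 22 ≤ (flt univ fun d => cls d = c).card) →
      Pr (fun ω : Cfg (Lay G) F => ¬ Q2a grp cls
        ((1 / 44 : ℝ) ^ 11 * del (Fintype.card (Lay G)) (Fintype.card F) * Fintype.card F -
          dev (Fintype.card F)) ω) ≤ 1 / 20 := by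
  obtain ⟨q₀, hq₀⟩ := Filter.eventually_atTop.1
    (ev_conc (K := Fintype.card (Lay G)) Fintype.card_pos 4 2)
  refine ⟨max q₀ 84, fun F _ _ _ hq grp cls hcls => ?_⟩
  have hdev : 0 ≤ dev (Fintype.card F) := by unfold dev; positivity
  refine le_trans ?_ (hq₀ _ (le_of_max_le_left hq))
  calc _ ≤ Pr fun ω : Cfg (Lay G) F => ∃ k : Bool × Line F, dev (Fintype.card F) ≤
        |((flt (pts k.2) fun x => CandP grp cls k.2.1 k.1 (Inc ω k.2.1 x)).card : ℝ) -
          ∑ x ∈ pts k.2, Pr fun ω : Cfg (Lay G) F => CandP grp cls k.2.1 k.1 (Inc ω k.2.1 x)| := by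
        refine Pr_mono fun ω h => ?_
        simp only [Q2a, not_forall, not_le] at h
        obtain ⟨i, b, c, h⟩ := h
        refine ⟨(b, i, c), le_abs.2 (Or.inr ?_)⟩
        have h1 := card_nsmul_le_sum (pts (i, c)) _ _ fun x _ =>
          le_Pr_cand grp cls (le_of_max_le_right hq) hcls i b x
        rw [card_pts, nsmul_eq_mul] at h1
        simp only
        linarith
    _ ≤ _ := Pr_exists_le_univ _ _ fun k => conc k.2 (CandP grp cls k.2.1 k.1) hdev
    _ ≤ _ := by
        refine mul_le_mul_of_nonneg_right ?_ (by positivity)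
        have := card_line_le (F := F)
        rw [Fintype.card_prod, Fintype.card_bool]
        push_cast
        linarith

/-- `conc`, `Pr_near_le`, union bound, `ev_conc`. -/
theorem rare_Q2b {G : ℕ} (hG : 0 < G) : ∃ q₀ : ℕ,
    ∀ (F : Type) [Field F] [Fintype F] [DecidableEq F],
    q₀ ≤ Fintype.card F → ∀ grp : Dir F → Fin G,
      (∀ g, (flt univ fun d => grp d = g).card ≤ (Fintype.card F + 1) / G + 1) →
      Pr (fun ω : Cfg (Lay G) F => ¬ Q2b grp
        (4 ^ 12 * del (Fintype.card (Lay G)) (Fintype.card F) * (2 / G) * Fintype.card F +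
          dev (Fintype.card F)) ω) ≤ 1 / 20 := by
  obtain ⟨q₀, hq₀⟩ := Filter.eventually_atTop.1
    (ev_conc (K := Fintype.card (Lay G)) Fintype.card_pos (G * 4) 2)
  refine ⟨max q₀ (22 * G + 1), fun F _ _ _ hq grp hgrp => ?_⟩
  have hdev : 0 ≤ dev (Fintype.card F) := by unfold dev; positivity
  refine le_trans ?_ (hq₀ _ (le_of_max_le_left hq))
  calc _ ≤ Pr fun ω : Cfg (Lay G) F => ∃ k : Fin G × Bool × Line F, dev (Fintype.card F) ≤
        |((flt (pts k.2.2) fun x => NearP grp k.1 k.2.1 (Inc ω k.2.2.1 x)).card : ℝ) -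
          ∑ x ∈ pts k.2.2, Pr fun ω : Cfg (Lay G) F => NearP grp k.1 k.2.1 (Inc ω k.2.2.1 x)| := by
        refine Pr_mono fun ω h => ?_
        simp only [Q2b, not_forall, not_le] at h
        obtain ⟨g, b, l, h⟩ := h
        refine ⟨(g, b, l), le_abs.2 (Or.inl ?_)⟩
        have h1 := sum_le_card_nsmul (pts l) _ _ fun x _ =>
          Pr_near_le hG grp (le_of_max_le_right hq) hgrp g b l.1 x
        rw [card_pts, nsmul_eq_mul] at h1
        simp only
        linarith
    _ ≤ _ := Pr_exists_le_univ _ _ fun k => conc k.2.2 (NearP grp k.1 k.2.1) hdev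
    _ ≤ _ := by
        refine mul_le_mul_of_nonneg_right ?_ (by positivity)
        have := card_line_le (F := F)
        rw [Fintype.card_prod, Fintype.card_prod, Fintype.card_bool, Fintype.card_fin, mul_assoc]
        push_cast
        exact mul_le_mul_of_nonneg_left (by linarith) (by positivity)

end Crest.Agent.R34
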