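import Crest.Agent.R34.Asym
import Crest.Agent.R34.Batch
import Crest.Agent.R34.Mcd

/-! Row 34: free positions for semi-plain points, and concurrency. -/

set_option autoImplicit false
set_option linter.unusedSectionVars false

namespace Crest.Agent.R34

open Finset

theorem q3_card {α κ : Type} [Fintype α] [Fintype κ] (P : κ → α → Prop)
    (h : ∀ k u u', P k u → P k u' → u = u') :
    (flt univ fun u => ∃ k, P k u).card ≤ Fintype.card κ := by
  classical
  calc _ ≤ (univ.biUnion fun k => flt univ (P k)).card := card_le_card fun u hu => by simpa using hu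
    _ ≤ ∑ _k : κ, 1 := card_biUnion_le.trans (sum_le_sum fun k _ => card_le_one.2
        fun u hu u' hu' => h k u u' (mem_flt.1 hu).2 (mem_flt.1 hu').2)
    _ = _ := by simp

theorem q3_host : Fintype.card Host = 23 := by simp

theorem q3_one {F : Type} [Field F] [Fintype F] [DecidableEq F] {Λ : Type} [Fintype Λ]
    [DecidableEq Λ] [Nonempty Λ] (hq : 46 ≤ Fintype.card F) (a v : Host → Pt F) (d : Host → Dir F)
    (hv : ∀ h, v h ≠ 0 ∧ pr (d h) (v h) = 0) :
    Pr (fun ω : Cfg Λ F => ((flt univ fun u : F => ∀ h, ∀ l ∈ Sp ω, l.1 ≠ d h →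
        ¬ On (a h + u • v h) l).card : ℝ) ≤
        Real.exp (-(92 * Fintype.card Λ)) / 2 * Fintype.card F) ≤
      Real.exp (-(Real.exp (-(92 * Fintype.card Λ)) ^ 2 / (8464 * Fintype.card Λ) *
        (Fintype.card F : ℝ) ^ (1 : ℝ))) := by
  have hq' : (46 : ℝ) ≤ Fintype.card F := by exact_mod_cast hq
  have hK : (0 : ℝ) < Fintype.card Λ := by exact_mod_cast Fintype.card_pos
  have h := surv (ι := Λ × Dir F) (α := F) (univ : Finset F)
    (fun t c u => ∃ h, t.2 ≠ d h ∧ pr t.2 (a h + u • v h) = c)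
    (p := 23 / Fintype.card F) (Δ := 23) (θ := Real.exp (-(92 * Fintype.card Λ)))
    (by norm_num) (by positivity) (by rw [div_le_iff₀ (by linarith)]; linarith)
    (Real.exp_pos _).le
    (by
      rw [Real.exp_le_exp, neg_le_neg_iff, card_idx]
      push_cast
      rw [mul_div_assoc', div_mul_eq_mul_div, div_le_iff₀ (by linarith)]
      nlinarith)
    (fun t c => by
      have := q3_card (fun h (u : F) => t.2 ≠ d h ∧ pr t.2 (a h + u • v h) = c)
        fun h u u' h1 h2 => by
          have h3 := h1.2.trans h2.2.symm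
          rw [pr_add, pr_add, pr_smul, pr_smul, add_right_inj] at h3
          exact mul_right_cancel₀ (pr_ne_zero h1.1.symm (hv h).1 (hv h).2) h3
      rw [q3_host] at this
      exact_mod_cast this)
    (fun u _ t => Pr_le_of_card _ _ (by
      have := q3_card (fun h (c : F) => t.2 ≠ d h ∧ pr t.2 (a h + u • v h) = c)
        fun h c c' h1 h2 => h1.2.symm.trans h2.2
      rw [q3_host] at this
      exact_mod_cast this))
  rw [card_univ, card_idx] at h
  refine le_trans (Pr_mono fun ω hω => ?_) (h.trans ?_)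
  · refine le_trans ?_ (hω.trans_eq (by ring))
    refine Nat.cast_le.2 (card_le_card fun u hu => ?_)
    simp only [mem_flt, mem_univ, true_and] at hu ⊢
    intro h l hl h1 h2
    obtain ⟨t, rfl⟩ := mem_Sp.1 hl
    exact hu t ⟨h, h1, h2⟩
  · rw [Real.exp_le_exp, neg_le_neg_iff, Real.rpow_one, le_div_iff₀ (by positivity)]
    push_cast
    generalize Real.exp (-(92 * (Fintype.card Λ : ℝ))) = θ
    calc _ = θ ^ 2 * Fintype.card F / 4 * ((Fintype.card F + 1) / 2) := by field_simp; ring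
      _ ≤ θ ^ 2 * Fintype.card F / 4 * Fintype.card F := by gcongr; linarith
      _ = _ := by ring

/-- For fixed `a v d` use `surv` with `S = univ`,
`kill t c u = ∃ h, t.2 ≠ d h ∧ pr t.2 (a h + u • v h) = c`, `Δ = 23` (`pr_ne_zero`), `p = 23/q`,
`θ = exp (-92 K)`.  Union over at most `(q²)^23 (q²)^23 (q+1)^23` triples; `ev_exp`. -/
theorem rare_Q3 (Λ : Type) [Fintype Λ] [DecidableEq Λ] [Nonempty Λ] :
    Rare Λ fun _ _ _ _ ω => ¬ Q3 (Sp ω) (Real.exp (-(92 * Fintype.card Λ)) / 2) := by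
  have hK : (0 : ℝ) < Fintype.card Λ := by exact_mod_cast Fintype.card_pos
  obtain ⟨q₀, hq₀⟩ := Filter.eventually_atTop.1 ((ev_exp (2 ^ 23) 115
    (c := Real.exp (-(92 * Fintype.card Λ)) ^ 2 / (8464 * Fintype.card Λ)) (a := 1) (η := 1 / 20)
    (by positivity) one_pos (by norm_num)).and (Filter.eventually_ge_atTop 46))
  refine ⟨q₀, fun F _ _ _ hq => ?_⟩
  obtain ⟨e1, e2⟩ := hq₀ _ hq
  have h2 := two_le_q (F := F)
  refine le_trans (Pr_mono fun ω hω => ?c) ((Pr_exists_le_univ
    (fun (p : (Host → Pt F) × (Host → Pt F) × (Host → Dir F)) (ω : Cfg Λ F) =>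
      (∀ h, p.2.1 h ≠ 0 ∧ pr (p.2.2 h) (p.2.1 h) = 0) ∧
      ((flt univ fun u : F => ∀ h, ∀ l ∈ Sp ω, l.1 ≠ p.2.2 h →
        ¬ On (p.1 h + u • p.2.1 h) l).card : ℝ) ≤
        Real.exp (-(92 * Fintype.card Λ)) / 2 * Fintype.card F) _ fun p => ?a).trans
    (le_trans (mul_le_mul_of_nonneg_right ?b (Real.exp_pos _).le) e1))
  case a =>
    by_cases hv : ∀ h, p.2.1 h ≠ 0 ∧ pr (p.2.2 h) (p.2.1 h) = 0
    · exact (Pr_mono fun _ h => h.2).trans (q3_one e2 _ _ _ hv)
    · rw [Pr_false fun _ h => hv h.1]; positivity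
  case b =>
    simp only [Fintype.card_prod, Fintype.card_fun, q3_host, card_dir]
    push_cast
    calc _ ≤ ((Fintype.card F : ℝ) * Fintype.card F) ^ 23 *
          (((Fintype.card F : ℝ) * Fintype.card F) ^ 23 * (2 * Fintype.card F) ^ 23) := by
          gcongr; linarith
      _ = _ := by ring
  case c =>
    simp only [Q3, not_forall, not_le] at hω
    obtain ⟨a, v, d, h1, h3⟩ := hω
    exact ⟨(a, v, d), h1, h3.le⟩

/-- `Pr_hit` with `x = 2` and `D` the lines through `o`; union over `q² + q + 1` points;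
`ev_exp`. -/
theorem rare_QT (Λ : Type) [Fintype Λ] [DecidableEq Λ] :
    Rare Λ fun _ _ _ _ ω => ¬ QT (Sp ω) := by
  obtain ⟨q₀, hq₀⟩ := Filter.eventually_atTop.1 (ev_exp
    (2 * Real.exp (2 * (2 * Fintype.card Λ))) 2 (c := Real.log 2) (a := 1 / 6) (η := 1 / 20)
    (Real.log_pos one_lt_two) (by norm_num) (by norm_num))
  refine ⟨q₀, fun F _ _ _ hq => ?_⟩
  have e1 := hq₀ _ hq
  have h2 := two_le_q (F := F)
  refine le_trans (Pr_mono fun ω hω => ?c) ((Pr_exists_le_univ
    (fun (o : Pt F ⊕ Dir F) (ω : Cfg Λ F) => ⌈(Fintype.card F : ℝ) ^ (1 / 6 : ℝ)⌉₊ ≤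
      ((flt univ fun l => Thr l o) ∩ Sp ω).card) _
    fun o => Pr_hit _ ?a _ one_le_two).trans (le_trans ?b e1))
  case a =>
    have h3 : 1 < Fintype.card F := Fintype.one_lt_card
    rcases o with p | d
    · have := card_thru p
      rw [show (flt univ fun l => Thr l (.inl p)) = univ.filter fun l : Line F => On p l by
        ext l; simp [Thr]]
      omega
    · calc _ ≤ (univ.image fun c : F => (d, c)).card := card_le_card fun l hl => by
            rw [mem_flt] at hl
            exact mem_image.2 ⟨l.2, mem_univ _, Prod.ext hl.2.symm rfl⟩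
        _ ≤ _ := card_image_le.trans (by rw [card_univ]; omega)
  case b =>
    have h3 : Real.exp (Real.log 2 * (Fintype.card F : ℝ) ^ (1 / 6 : ℝ)) ≤
        2 ^ ⌈(Fintype.card F : ℝ) ^ (1 / 6 : ℝ)⌉₊ := by
      rw [← Real.rpow_def_of_pos two_pos, ← Real.rpow_natCast]
      exact Real.rpow_le_rpow_of_exponent_le one_le_two (Nat.le_ceil _)
    rw [Fintype.card_sum, card_pt, card_dir, Real.exp_neg]
    push_cast
    calc _ ≤ 2 * (Fintype.card F : ℝ) ^ 2 * (Real.exp (2 * (2 * Fintype.card Λ)) /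
          Real.exp (Real.log 2 * (Fintype.card F : ℝ) ^ (1 / 6 : ℝ))) := by
          gcongr; nlinarith
      _ = _ := by ring
  case c =>
    simp only [QT, not_forall, not_le] at hω
    obtain ⟨o, ho⟩ := hω
    refine ⟨o, Nat.ceil_le.2 (ho.le.trans_eq ?_)⟩
    congr 2
    ext l
    simp [and_comm]

end Crest.Agent.R34
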