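import Crest.Agent.R34.Asym

/-! Row 34: the choice of the sample sizes. -/

set_option autoImplicit false
set_option linter.unusedSectionVars false

namespace Crest.Agent.R34

open Finset

open Filter

theorem numS_two_sq_le {q : ℕ} (hq : 2 ≤ q) : 2 * (q : ℝ) ^ 2 ≤ Real.exp (3 * yy q ^ 3) := by
  have hq' : (2 : ℝ) ≤ q := by exact_mod_cast hq
  rw [yy_pow (by omega), show (3 : ℝ) * Real.log q = (3 : ℕ) * Real.log q by norm_num,
    Real.exp_nat_mul, Real.exp_log (by linarith)]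
  nlinarith [sq_nonneg (q : ℝ)]

theorem numS_sqrt_mul (q : ℕ) : (q : ℝ) ^ (1 / 2 : ℝ) * (q : ℝ) ^ (1 / 2 : ℝ) = q := by
  rw [← Real.sqrt_eq_rpow, Real.mul_self_sqrt (Nat.cast_nonneg q)]

/-- Take `m = ⌈512 eps² q⌉`.  With `y = yy q`: `eps = 1/y²`, `log q = y³`, `log (2q²) ≤ 3y³`,
`m³/(11000 N²) ≥ eps⁴ q = q / y⁸`, `m log (2q²) ≤ 513 q / y⁴ * 3 y³`. -/
theorem numS {K : ℕ} (hK : 0 < K) : ∀ᶠ q : ℕ in atTop, ∃ m : ℕ, 8 ≤ m ∧
    (m : ℝ) ≤ 2 * eps q * q ∧ 128 * (2 * eps q * q) ^ 2 ≤ m * q ∧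
    2 * (q : ℝ) ^ 2 * Real.exp (-((m : ℝ) ^ 3 / (11000 * (2 * eps q * q) ^ 2))) < 1 ∧
    (2 * (q : ℝ) ^ 2) ^ m * Real.exp (-(Real.exp (-(4 * K)) ^ 2 * q / (64 * K))) ≤ 1 / 20 := by
  have hK' : (0 : ℝ) < K := by exact_mod_cast hK
  obtain ⟨c, hc⟩ : ∃ c : ℝ, c = Real.exp (-(4 * K)) ^ 2 / (64 * K) := ⟨_, rfl⟩
  have hc0 : 0 < c := by rw [hc]; positivity
  filter_upwards [eventually_ge_atTop 2, ev_yy 1, ev_yy (6144 / c),
    ev_eps (c := 1 / 1024) (by norm_num), ev_pow 1 4 one_pos,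
    ev_pow 1 8 (a := 1 / 2) (by norm_num),
    ev_exp 2 2 (c := 1) (a := 1 / 2) (η := 1 / 2) one_pos (by norm_num) (by norm_num),
    ev_exp 1 0 (c := c / 2) (a := 1) (η := 1 / 20) (by positivity) one_pos (by norm_num)]
    with q h2 hy1 hy2 hε hp4 hp8 he1 he2
  have hq : (2 : ℝ) ≤ q := by exact_mod_cast h2
  have hlog := numS_two_sq_le h2
  have hsq := numS_sqrt_mul q
  rw [Real.rpow_one, one_mul] at hp4
  rw [one_mul] at hp8
  rw [one_mul] at he1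
  rw [Real.rpow_one, pow_zero, one_mul, one_mul] at he2
  have hεy : eps q * yy q ^ 2 = 1 := by unfold eps; field_simp
  obtain ⟨hε0, hε1⟩ := hε
  generalize eps q = ε at *
  generalize yy q = y at *
  generalize (q : ℝ) ^ (1 / 2 : ℝ) = r at *
  have hx : 1 ≤ ε ^ 2 * q := by
    calc (1 : ℝ) = (ε * y ^ 2) ^ 2 := by rw [hεy]; norm_num
      _ = ε ^ 2 * y ^ 4 := by ring
      _ ≤ _ := by gcongr
  obtain ⟨m, hm⟩ : ∃ m : ℕ, m = ⌈512 * (ε ^ 2 * q)⌉₊ := ⟨_, rfl⟩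
  have m1 : 512 * (ε ^ 2 * q) ≤ m := hm ▸ Nat.le_ceil _
  have m2 : (m : ℝ) ≤ 1024 * (ε ^ 2 * q) := by
    have := Nat.ceil_lt_add_one (a := 512 * (ε ^ 2 * q)) (by positivity)
    rw [← hm] at this
    linarith
  have hεq : 0 < ε * q := by positivity
  refine ⟨m, ?_, ?_, ?_, ?_, ?_⟩
  · have : (8 : ℝ) ≤ m := by linarith
    exact_mod_cast this
  · nlinarith
  · nlinarith
  · refine lt_of_le_of_lt (le_trans ?_ he1) (by norm_num)
    have h3 : r ≤ (m : ℝ) ^ 3 / (11000 * (2 * ε * q) ^ 2) := by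
      have hr : 0 ≤ r := le_trans (by positivity) hp8
      have h4 : r ≤ ε ^ 4 * q := by
        calc r = (ε * y ^ 2) ^ 4 * r := by rw [hεy]; norm_num
          _ = ε ^ 4 * (y ^ 8 * r) := by ring
          _ ≤ ε ^ 4 * (r * r) := by gcongr
          _ = _ := by rw [hsq]
      rw [le_div_iff₀ (by positivity)]
      calc r * (11000 * (2 * ε * q) ^ 2) ≤ ε ^ 4 * q * (11000 * (2 * ε * q) ^ 2) := by gcongr
        _ = 44000 * (ε ^ 2 * q) ^ 3 := by ring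
        _ ≤ 512 ^ 3 * (ε ^ 2 * q) ^ 3 := by gcongr; norm_num
        _ = (512 * (ε ^ 2 * q)) ^ 3 := by ring
        _ ≤ _ := by gcongr
    gcongr
  · refine le_trans ?_ he2
    have e : Real.exp (-(4 * K)) ^ 2 * q / (64 * K) = c * q := by rw [hc]; ring
    have h3 : (m : ℝ) * (3 * y ^ 3) ≤ c / 2 * q := by
      rw [div_le_iff₀ hc0] at hy2
      have h4 : ε ^ 2 * y ^ 3 * y = 1 := by
        calc _ = (ε * y ^ 2) ^ 2 := by ring
          _ = 1 := by rw [hεy]; norm_num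
      have h5 : 6144 * (ε ^ 2 * y ^ 3) ≤ c := by
        calc _ ≤ y * c * (ε ^ 2 * y ^ 3) := by gcongr
          _ = c * (ε ^ 2 * y ^ 3 * y) := by ring
          _ = c := by rw [h4, mul_one]
      calc _ ≤ 1024 * (ε ^ 2 * q) * (3 * y ^ 3) := by gcongr
        _ = 6144 * (ε ^ 2 * y ^ 3) / 2 * q := by ring
        _ ≤ _ := by gcongr
    rw [e]
    calc _ ≤ Real.exp (3 * y ^ 3) ^ m * Real.exp (-(c * q)) := by gcongr
      _ = Real.exp (m * (3 * y ^ 3) + -(c * q)) := by rw [Real.exp_add, Real.exp_nat_mul]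
      _ ≤ _ := Real.exp_le_exp.2 (by linarith)

/-- Take `m = ⌈h / 500⌉`; `h ≥ √q - 1`, `h ≤ q / 256000`, `(2q²)^m ≤ q^(3m)`. -/
theorem numG (K : ℕ) : ∀ᶠ q : ℕ in atTop, ∀ h : ℕ, q ≤ (h + 1) ^ 2 → (h : ℝ) ≤ 4 * eps q * q →
    h ≤ q ∧ ∃ m : ℕ, 8 ≤ m ∧ (m : ℝ) ≤ 2 * h ∧ 128 * (2 * (h : ℝ)) ^ 2 ≤ m * q ∧
    2 * (q : ℝ) ^ 2 * Real.exp (-((m : ℝ) ^ 3 / (11000 * (2 * (h : ℝ)) ^ 2))) < 1 ∧
    (2 * (q : ℝ) ^ 2) ^ m * (Real.exp ((q : ℝ) ^ (1 / 4 : ℝ) * (2 * K)) /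
      ((q : ℝ) ^ (1 / 4 : ℝ)) ^ h) ≤ 1 / (20 * (q + 1)) := by
  filter_upwards [eventually_ge_atTop 2, ev_yy 1, ev_eps (c := 1 / 1024000) (by norm_num),
    ev_rpow 8000 (by norm_num : (0 : ℝ) < 1 / 2),
    ev_rpow (64 * K) (by norm_num : (1 / 4 : ℝ) < 1 / 2),
    ev_exp 2 2 (c := 1 / (2 * 500 ^ 3 * 44000)) (a := 1 / 2) (η := 1 / 2) (by norm_num)
      (by norm_num) (by norm_num),
    ev_exp 40 1 (c := 1 / 32) (a := 1 / 2) (η := 1) (by norm_num) (by norm_num) one_pos]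
    with q h2 hy1 hε hr1 hr2 he1 he2 h hh1 hh2
  have hq : (2 : ℝ) ≤ q := by exact_mod_cast h2
  have hlog := numS_two_sq_le h2
  have hsq := numS_sqrt_mul q
  have hw : (q : ℝ) ^ (1 / 4 : ℝ) = Real.exp (yy q ^ 3 / 4) := by
    rw [yy_pow (by omega), Real.rpow_def_of_pos (by linarith)]
    congr 1; ring
  rw [Real.rpow_zero, mul_one] at hr1
  rw [pow_one] at he2
  have hh1' : (q : ℝ) ≤ (h + 1) ^ 2 := by exact_mod_cast hh1
  obtain ⟨hε0, hε1⟩ := hε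
  have hL : 1 ≤ yy q ^ 3 := one_le_pow₀ hy1
  generalize eps q = ε at *
  generalize yy q ^ 3 = L at *
  generalize (q : ℝ) ^ (1 / 2 : ℝ) = r at *
  have hh0 : (0 : ℝ) ≤ h := Nat.cast_nonneg h
  have hr : r ≤ h + 1 := by nlinarith
  have hr' : r / 2 ≤ h := by linarith
  have hh3 : 256000 * (h : ℝ) ≤ q := by nlinarith
  obtain ⟨m, hm⟩ : ∃ m : ℕ, m = ⌈(h : ℝ) / 500⌉₊ := ⟨_, rfl⟩
  have m1 : (h : ℝ) / 500 ≤ m := hm ▸ Nat.le_ceil _
  have m2 : (m : ℝ) ≤ h / 250 := by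
    have := Nat.ceil_lt_add_one (a := (h : ℝ) / 500) (by positivity)
    rw [← hm] at this
    linarith
  have hhp : (0 : ℝ) < h := by linarith
  refine ⟨by exact_mod_cast (by linarith : (h : ℝ) ≤ q), m, ?_, by linarith, ?_, ?_, ?_⟩
  · have : (8 : ℝ) ≤ m := by linarith
    exact_mod_cast this
  · calc 128 * (2 * (h : ℝ)) ^ 2 = h / 500 * (256000 * h) := by ring
      _ ≤ _ := by gcongr
  · refine lt_of_le_of_lt (le_trans ?_ he1) (by norm_num)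
    have h3 : 1 / (2 * 500 ^ 3 * 44000) * r ≤ (m : ℝ) ^ 3 / (11000 * (2 * (h : ℝ)) ^ 2) := by
      rw [le_div_iff₀ (by positivity)]
      calc _ = r / 2 * (h : ℝ) ^ 2 / 500 ^ 3 := by ring
        _ ≤ h * (h : ℝ) ^ 2 / 500 ^ 3 := by gcongr
        _ = ((h : ℝ) / 500) ^ 3 := by ring
        _ ≤ _ := by gcongr
    gcongr
  · have h3 : (m : ℝ) * (3 * L) + ((q : ℝ) ^ (1 / 4 : ℝ) * (2 * K) - h * (L / 4)) ≤
        -(1 / 32 * r) := by
      have h4 : (m : ℝ) * (3 * L) ≤ h / 250 * (3 * L) := by gcongr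
      have h5 : (h : ℝ) * 1 ≤ h * L := by gcongr
      linarith
    calc _ ≤ Real.exp (3 * L) ^ m * (Real.exp ((q : ℝ) ^ (1 / 4 : ℝ) * (2 * K)) /
          ((q : ℝ) ^ (1 / 4 : ℝ)) ^ h) := by gcongr
      _ = Real.exp (m * (3 * L) + ((q : ℝ) ^ (1 / 4 : ℝ) * (2 * K) - h * (L / 4))) := by
          rw [Real.exp_add, Real.exp_sub, Real.exp_nat_mul, Real.exp_nat_mul, ← hw]
      _ ≤ Real.exp (-(1 / 32 * r)) := Real.exp_le_exp.2 h3
      _ ≤ _ := by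
          rw [le_div_iff₀ (by positivity)]
          nlinarith [Real.exp_pos (-(1 / 32 * r))]

end Crest.Agent.R34
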