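import Crest.Agent.R34.Batch
import Crest.Agent.R34.Dec
import Crest.Agent.R34.NumS

/-! Row 34: the two alternatives of `small` are unlikely. -/

set_option autoImplicit false
set_option linter.unusedSectionVars false

namespace Crest.Agent.R34

open Finset

theorem Pr_flat {F : Type} [Field F] [Fintype F] [DecidableEq F] {Λ : Type} [Fintype Λ]
    [DecidableEq Λ] [Nonempty Λ] (U : Finset (Pt F)) (hU : Flat U) :
    Pr (fun ω : Cfg Λ F => ((U ∩ unc (Sp ω)).card : ℝ) <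
        Real.exp (-(4 * Fintype.card Λ)) / 2 * U.card) ≤
      Real.exp (-(Real.exp (-(4 * Fintype.card Λ)) ^ 2 * Fintype.card F /
        (64 * Fintype.card Λ))) := by
  have hq2 := two_le_q (F := F)
  have hq0 : (0 : ℝ) < Fintype.card F := by linarith
  have hU0 : (0 : ℝ) < U.card := by exact_mod_cast hU.1.card_pos
  have hK : (0 : ℝ) < Fintype.card Λ := by exact_mod_cast Fintype.card_pos
  have hN : (Fintype.card (Λ × Dir F) : ℝ) = Fintype.card Λ * (Fintype.card F + 1) := by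
    rw [card_idx]; push_cast; rfl
  have h := surv (ι := Λ × Dir F) (α := F) U (fun t c x => c = pr t.2 x)
    (p := 1 / Fintype.card F) (Δ := 2 * U.card / Fintype.card F)
    (θ := Real.exp (-(4 * Fintype.card Λ))) (by positivity) (by positivity)
    (one_div_le_one_div_of_le (by norm_num) hq2) (Real.exp_pos _).le
    (Real.exp_le_exp.2 (neg_le_neg (by
      rw [hN, mul_one_div, div_mul_eq_mul_div, div_le_iff₀ hq0]; nlinarith)))
    (fun t c => by
      have : flt U (fun x => c = pr t.2 x) = pts (t.2, c) ∩ U := by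
        ext x; simp [On, eq_comm, and_comm]
      rw [this]; exact hU.2 _)
    fun x _ t => (Pr_eq_val _).le
  refine le_trans (Pr_mono fun ω hω => ?_) (h.trans (Real.exp_le_exp.2 (neg_le_neg ?_)))
  · have : (flt U fun x => ∀ t, ¬ ω t = pr t.2 x) = U ∩ unc (Sp ω) := by
      ext x
      simp only [mem_flt, mem_inter, mem_unc]
      refine and_congr_right fun _ => ⟨fun h l hl => ?_, fun h t e => h _ (ln_mem ω t) e.symm⟩
      obtain ⟨t, rfl⟩ := mem_Sp.1 hl
      exact fun e => h t e.symm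
    rw [this]; linarith
  · rw [hN]
    generalize Real.exp (-(4 * (Fintype.card Λ : ℝ))) = θ
    have e : (θ * U.card / 2) ^ 2 / (2 * (Fintype.card Λ * (Fintype.card F + 1)) *
        (2 * U.card / Fintype.card F) ^ 2) =
        θ ^ 2 * Fintype.card F / (64 * Fintype.card Λ) *
          (2 * Fintype.card F / (Fintype.card F + 1)) := by
      field_simp; ring
    rw [e]
    refine le_mul_of_one_le_right (by positivity) ?_
    rw [le_div_iff₀ (by positivity)]; linarith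

/-- `numS`, `dec`, `Pr_flat`. -/
theorem rare_S (Λ : Type) [Fintype Λ] [DecidableEq Λ] [Nonempty Λ] :
    Rare Λ fun F _ _ _ ω => ∃ L D : Finset (Line F), L.Nonempty ∧ L.card ≤ Fintype.card F ∧
      Dich L D (2 * eps (Fintype.card F) * Fintype.card F) ∧ Flat (unc D) ∧
      ((unc D ∩ unc (Sp ω)).card : ℝ) <
        Real.exp (-(4 * Fintype.card Λ)) / 2 * (unc D).card := by
  obtain ⟨q₀, h₀⟩ := Filter.eventually_atTop.1 (numS (K := Fintype.card Λ) Fintype.card_pos)
  refine ⟨q₀, fun F _ _ _ hq => ?_⟩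
  obtain ⟨m, n1, n2, n3, n4, n5⟩ := h₀ _ hq
  obtain ⟨𝒟, h1, h2⟩ := dec (F := F) n1 n2 n3 n4
  have hb := Pr_exists_le_card 𝒟 (fun D (ω : Cfg Λ F) => Flat (unc D) ∧
    ((unc D ∩ unc (Sp ω)).card : ℝ) < Real.exp (-(4 * Fintype.card Λ)) / 2 * (unc D).card)
    (Real.exp (-(Real.exp (-(4 * Fintype.card Λ)) ^ 2 * Fintype.card F / (64 * Fintype.card Λ))))
    fun D _ => by
      by_cases hD : Flat (unc D)
      · exact (Pr_mono fun ω hω => hω.2).trans (Pr_flat _ hD)
      · rw [Pr_false fun ω hω => hD hω.1]; positivity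
  refine le_trans (Pr_mono ?_) (hb.trans ((mul_le_mul_of_nonneg_right h1 (by positivity)).trans n5))
  rintro ω ⟨L, D, a1, a2, a3, a4, a5⟩
  exact ⟨D, h2 L D a1 a2 a3, a4, a5⟩

/-- `numG`, `dec` with `N = 2h`, `Pr_hit` with `x = q^(1/4)`; union over `h ≤ q`. -/
theorem rare_G (Λ : Type) [Fintype Λ] [DecidableEq Λ] :
    Rare Λ fun F _ _ _ ω => ∃ (L D : Finset (Line F)) (h : ℕ), L.Nonempty ∧
      L.card ≤ Fintype.card F ∧ Dich L D (2 * h) ∧ Fintype.card F ≤ (h + 1) ^ 2 ∧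
      (h : ℝ) ≤ 4 * eps (Fintype.card F) * Fintype.card F ∧ D.card ≤ 2 * Fintype.card F ∧
      h ≤ (D ∩ Sp ω).card := by
  obtain ⟨q₀, h₀⟩ := Filter.eventually_atTop.1 (numG (Fintype.card Λ))
  refine ⟨q₀, fun F _ _ _ hq => ?_⟩
  have hq2 := two_le_q (F := F)
  have hx : (1 : ℝ) ≤ (Fintype.card F : ℝ) ^ (1 / 4 : ℝ) :=
    Real.one_le_rpow (by linarith) (by norm_num)
  have hb := Pr_exists_le_card (range (Fintype.card F + 1)) (fun (h : ℕ) (ω : Cfg Λ F) =>
    ∃ L D : Finset (Line F), L.Nonempty ∧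
      L.card ≤ Fintype.card F ∧ Dich L D (2 * h) ∧ Fintype.card F ≤ (h + 1) ^ 2 ∧
      (h : ℝ) ≤ 4 * eps (Fintype.card F) * Fintype.card F ∧ D.card ≤ 2 * Fintype.card F ∧
      h ≤ (D ∩ Sp ω).card) (1 / (20 * (Fintype.card F + 1))) fun h _ => by
      by_cases hh : Fintype.card F ≤ (h + 1) ^ 2 ∧
        (h : ℝ) ≤ 4 * eps (Fintype.card F) * Fintype.card F
      swap
      · rw [Pr_false fun ω ⟨_, _, _, _, _, a, b, _⟩ => hh ⟨a, b⟩]; positivity
      obtain ⟨-, m, n1, n2, n3, n4, n5⟩ := h₀ _ hq h hh.1 hh.2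
      obtain ⟨𝒟, h1, h2⟩ := dec (F := F) n1 n2 n3 n4
      have hb := Pr_exists_le_card 𝒟 (fun D (ω : Cfg Λ F) => D.card ≤ 2 * Fintype.card F ∧
        h ≤ (D ∩ Sp ω).card) (Real.exp ((Fintype.card F : ℝ) ^ (1 / 4 : ℝ) * (2 * Fintype.card Λ)) /
          ((Fintype.card F : ℝ) ^ (1 / 4 : ℝ)) ^ h) fun D _ => by
          by_cases hD : D.card ≤ 2 * Fintype.card F
          · exact (Pr_mono fun ω hω => hω.2).trans (Pr_hit D hD h hx)
          · rw [Pr_false fun ω hω => hD hω.1]; positivity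
      refine le_trans (Pr_mono ?_)
        (hb.trans ((mul_le_mul_of_nonneg_right h1 (by positivity)).trans n5))
      rintro ω ⟨L, D, a1, a2, a3, -, -, a6, a7⟩
      exact ⟨D, h2 L D a1 a2 a3, a6, a7⟩
  refine le_trans (Pr_mono ?_) (hb.trans (le_of_eq ?_))
  · rintro ω ⟨L, D, h, a1, a2, a3, a4, a5, a6⟩
    exact ⟨h, mem_range.2 (Nat.lt_succ_of_le (h₀ _ hq h a4 a5).1), L, D, a1, a2, a3, a4, a5, a6⟩
  · rw [card_range]; push_cast; field_simp

end Crest.Agent.R34
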