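import Crest.Agent.R34.SWAux

/-! Row 34: the Szőnyi–Weiner inequality for points missed by a family of lines. -/

set_option autoImplicit false
set_option linter.unusedSectionVars false

namespace Crest.Agent.R34

open Finset

variable {F : Type} [Field F] [Fintype F] [DecidableEq F]

/-- Algebraic form.  Let `u x = ∏ i ∈ L, (C (a i * x + c i) + C (b i) * X) ∈ F[X]`,
`s = S y₀`, and let `M` be the `s × s` Hankel matrix `M i j = ∑ x, C (x^(i+j)) * u x`.
* `coeff (∑ x, C (x^k) * u x) j = 0` when `|L| + k < j + (q-1)` (induction on `L`, for all `k j`;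
  base case `FiniteField.sum_pow_lt_card_sub_one`).  Hence `det M = 0` or
  `natDegree (det M) + s (q-1) ≤ s |L| + s (s-1)`.
* At `y₀`, `M = Vᵀ D V` with `V` the Vandermonde matrix of the `s` missed points, so `det M ≠ 0`.
* Expanding each column (`MultilinearMap.map_sum`, or as in `Matrix.det_mul`),
  `det M = ∑_{f : Fin s → F} (∏ j, C (f j ^ j) * u (f j)) * C (det (f j ^ i))`, only injective `f`
  count, and at least `s - S y` of the `u (f j)` vanish at `y`: `(X - C y)^(s - S y) ∣ det M`.
So `∑ y, (s - S y) ≤ natDegree (det M) ≤ s (|L| - q + s)`. -/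
theorem sw_alg {κ : Type} (L : Finset κ) (a b c : κ → F) (y₀ : F) :
    ((flt univ fun x : F => ∀ i ∈ L, a i * x + b i * y₀ + c i ≠ 0).card : ℝ) *
        (2 * Fintype.card F - L.card -
          (flt univ fun x : F => ∀ i ∈ L, a i * x + b i * y₀ + c i ≠ 0).card) ≤
      ∑ y : F, ((flt univ fun x : F => ∀ i ∈ L, a i * x + b i * y + c i ≠ 0).card : ℝ) := by
  set S : F → ℕ := fun y => (flt univ fun x : F => ∀ i ∈ L, a i * x + b i * y + c i ≠ 0).card
    with hS
  change (S y₀ : ℝ) * (2 * Fintype.card F - L.card - S y₀) ≤ ∑ y, (S y : ℝ)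
  have h0 : (SW.H L a b c (S y₀)).det ≠ 0 := SW.det_H_ne L a b c y₀
  have h1 := SW.det_H_deg L a b c _ h0
  have h2 : ∑ y, (S y₀ - S y) ≤ _ := SW.sum_le_natDegree h0 (SW.det_H_dvd L a b c (S y₀))
  have h3 : Fintype.card F * S y₀ ≤ ∑ y, (S y₀ - S y) + ∑ y, S y := by
    rw [← sum_add_distrib, ← smul_eq_mul, ← card_univ, ← sum_const]
    exact sum_le_sum fun y _ => le_tsub_add
  have h4 : Fintype.card F * S y₀ + S y₀ * Fintype.card F ≤
      ∑ y, S y + (S y₀ * L.card + S y₀ * S y₀) := by omega
  have h5 : (Fintype.card F * S y₀ + S y₀ * Fintype.card F : ℝ) ≤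
      ∑ y, (S y : ℝ) + (S y₀ * L.card + S y₀ * S y₀) := by exact_mod_cast h4
  linarith

/-- Geometric form: use the coordinates `(x, y) ↦ base (l.1, y) + x • vec l.1`. -/
theorem sw (L : Finset (Line F)) (l : Line F) :
    ((pts l ∩ unc L).card : ℝ) * (2 * Fintype.card F - L.card - (pts l ∩ unc L).card) ≤
      (unc L).card := by
  obtain ⟨d, y₀⟩ := l
  have hb : ∀ y : F, base (d, y) = y • base (d, (1 : F)) := fun y => by cases d <;> simp [base]
  have key : ∀ y : F, (flt univ fun x : F => ∀ l' ∈ L,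
      pr l'.1 (vec d) * x + pr l'.1 (base (d, 1)) * y + -l'.2 ≠ 0).card =
      (pts (d, y) ∩ unc L).card := by
    intro y
    rw [← card_image_of_injective _ (par_inj (vec_ne_zero d) (base (d, y)))]
    congr 1
    have hiff : ∀ (x : F) (l' : Line F), On (base (d, y) + x • vec d) l' ↔
        pr l'.1 (vec d) * x + pr l'.1 (base (d, 1)) * y + -l'.2 = 0 := fun x l' => by
      unfold On
      rw [pr_add, pr_smul, hb y, pr_smul]
      constructor <;> intro h <;> linear_combination h
    ext p
    simp only [mem_image, mem_flt, mem_univ, true_and, mem_inter, mem_pts, mem_unc, ne_eq, ← hiff]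
    constructor
    · rintro ⟨x, hx, rfl⟩
      exact ⟨on_par (d, y) x, hx⟩
    · rintro ⟨h1, h2⟩
      obtain ⟨x, rfl⟩ := exists_par h1
      exact ⟨x, h2, rfl⟩
  have h := sw_alg L (fun l' => pr l'.1 (vec d)) (fun l' => pr l'.1 (base (d, 1)))
    (fun l' => -l'.2) y₀
  simp only [key] at h
  refine h.trans (le_of_eq ?_)
  rw [card_eq_sum_card_fiberwise (f := pr d) (t := univ) fun _ _ => mem_univ _]
  push_cast
  refine sum_congr rfl fun y _ => ?_
  congr 2
  ext p
  simp only [mem_inter, mem_pts, mem_filter, on_mk, and_comm]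

/-- Apply `sw` to `L.erase l`: `|pts l ∩ unc (L.erase l)| = q - cov L l`, and
`unc (L.erase l) ⊆ unc L ∪ (pts l ∩ unc (L.erase l))`. -/
theorem sw_cov (L : Finset (Line F)) (hL : L.card ≤ Fintype.card F) (l : Line F) :
    ((Fintype.card F : ℝ) - cov L l) * cov L l ≤ (unc L).card := by
  have h := sw (L.erase l) l
  have h1 : (pts l ∩ unc (L.erase l)).card + cov L l = Fintype.card F := by
    classical
    rw [← card_pts l, ← card_filter_add_card_filter_not (s := pts l)
      fun p => ∃ l' ∈ L, l' ≠ l ∧ On p l', add_comm, cov, flt_eq]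
    congr 2
    ext p
    simp only [mem_inter, mem_unc, mem_erase, mem_filter, not_exists, not_and]
    exact and_congr_right fun _ => ⟨fun H l' a b => H l' ⟨b, a⟩, fun H l' a => H l' a.2 a.1⟩
  have h1' : ((pts l ∩ unc (L.erase l)).card : ℝ) + cov L l = Fintype.card F := by exact_mod_cast h1
  have hL' : (L.card : ℝ) ≤ Fintype.card F := by exact_mod_cast hL
  have hs : (0 : ℝ) ≤ (pts l ∩ unc (L.erase l)).card := Nat.cast_nonneg _
  by_cases hl : l ∈ L
  · have h2 : ((L.erase l).card : ℝ) + 1 = L.card := by exact_mod_cast card_erase_add_one hl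
    have h3 : (unc (L.erase l)).card ≤ (unc L).card + (pts l ∩ unc (L.erase l)).card := by
      refine le_trans (card_le_card fun p hp => ?_) (card_union_le _ _)
      by_cases hp' : On p l
      · exact mem_union_right _ (mem_inter.2 ⟨mem_pts.2 hp', hp⟩)
      · refine mem_union_left _ (mem_unc.2 fun l' hl' => ?_)
        by_cases e : l' = l
        · exact e ▸ hp'
        · exact mem_unc.1 hp l' (mem_erase.2 ⟨e, hl'⟩)
    have h3' : ((unc (L.erase l)).card : ℝ) ≤ (unc L).card + (pts l ∩ unc (L.erase l)).card := by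
      exact_mod_cast h3
    have h4 := mul_le_mul_of_nonneg_left hL' hs
    rw [← h1', ← h2] at h4
    rw [← h1'] at h ⊢
    linarith
  · rw [erase_eq_of_notMem hl] at h h1' hs
    have h4 := mul_le_mul_of_nonneg_left hL' hs
    rw [← h1'] at h h4 ⊢
    linarith

end Crest.Agent.R34
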