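import Crest.Agent.R34.Bruen
import Crest.Agent.R34.SW

/-! Row 34: covers that miss few points. -/

set_option autoImplicit false
set_option linter.unusedSectionVars false

namespace Crest.Agent.R34

open Finset

variable {F : Type} [Field F] [Fintype F] [DecidableEq F]

theorem small_card_compl (L : Finset (Line F)) (l : Line F) :
    ((flt (pts l) fun p => ¬ ∃ l' ∈ L, l' ≠ l ∧ On p l').card : ℝ) =
      Fintype.card F - cov L l := by
  classical
  have h := card_filter_add_card_filter_not (s := pts l) fun p => ∃ l' ∈ L, l' ≠ l ∧ On p l'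
  rw [card_pts, ← flt_eq, ← flt_eq, ← cov] at h
  rw [← h]; push_cast; ring

/-- Let `z = |unc L|`, `D = {l | cov L l ≤ 2z/q}`.  By `sw_cov`, `l ∉ D` has `cov L l ≥ q - 2z/q`.
`h = |D \ L| ≤ 4z/q` by `few_atyp_set` (a line of `D \ L` has `q - cov L l` points of `unc L`),
`D \ L ⊆ S` by `hS`, `hz2`, and `j = |L \ D| ≤ 4z/q` by `card_junk`.
If `unc D` is not empty: for `l ∉ D`, `s = |l ∩ unc D| ≤ 2z/q + j ≤ 6z/q`, so `sw` for `D` gives
`s q / 2 ≤ |unc D|`; the points of `unc D ∩ unc S` are on lines of `L \ D`, so there are at most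
`j * 2|unc D|/q < β |unc D|`.  If `unc D = ∅`: `bruen`, and `unc L` is covered by `D \ L`. -/
theorem small (L S : Finset (Line F)) {β a : ℝ} (hL : L.card ≤ Fintype.card F)
    (hc : Covers L (unc S)) (hS : ∀ l ∉ S, a ≤ (pts l ∩ unc S).card)
    (hz1 : 20 * ((unc L).card : ℝ) ≤ (Fintype.card F : ℝ) ^ 2)
    (hz2 : 2 * ((unc L).card : ℝ) < a * Fintype.card F)
    (hz3 : 8 * ((unc L).card : ℝ) < β * (Fintype.card F : ℝ) ^ 2) :
    Pencil L S ∨ ∃ D, L.Nonempty ∧ Dich L D (2 * (unc L).card / Fintype.card F) ∧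
      ((Flat (unc D) ∧ ((unc D ∩ unc S).card : ℝ) < β * (unc D).card) ∨
        ∃ h : ℕ, Fintype.card F ≤ (h + 1) ^ 2 ∧ (unc L).card ≤ h * Fintype.card F ∧
          (h : ℝ) ≤ 4 * (unc L).card / Fintype.card F ∧ D.card ≤ 2 * Fintype.card F ∧
          h ≤ (D ∩ S).card) := by
  classical
  by_cases hpen : Pencil L S
  · exact .inl hpen
  refine .inr ?_
  have hq : (0 : ℝ) < Fintype.card F := by linarith [two_le_q (F := F)]
  have hL' : (L.card : ℝ) ≤ Fintype.card F := by exact_mod_cast hL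
  obtain ⟨r, hr⟩ : ∃ r : ℝ, r = (unc L).card / Fintype.card F := ⟨_, rfl⟩
  have hrq : ((unc L).card : ℝ) = r * Fintype.card F := by rw [hr]; field_simp
  have hr0 : 0 ≤ r := by rw [hr]; exact div_nonneg (Nat.cast_nonneg _) hq.le
  have hr1 : 20 * r ≤ Fintype.card F := by
    refine le_of_mul_le_mul_right ?_ hq
    rw [hrq] at hz1; linarith
  have hr2 : 2 * r < a := by
    refine lt_of_mul_lt_mul_right ?_ hq.le
    rw [hrq] at hz2; linarith
  have hr3 : 8 * r < β * Fintype.card F := by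
    refine lt_of_mul_lt_mul_right ?_ hq.le
    rw [hrq] at hz3; linarith
  rw [mul_div_assoc, mul_div_assoc, ← hr]
  obtain ⟨D, hD⟩ : ∃ D : Finset (Line F), ∀ l, l ∈ D ↔ (cov L l : ℝ) ≤ 2 * r :=
    ⟨flt univ fun l => (cov L l : ℝ) ≤ 2 * r, fun l => by simp⟩
  have hne : L.Nonempty := by
    by_contra h
    have : unc L = univ := by
      rw [not_nonempty_iff_eq_empty.1 h]; ext p; simp
    rw [this, card_univ, card_pt] at hz1
    push_cast at hz1
    nlinarith
  have hD2 : ∀ l ∉ D, (Fintype.card F : ℝ) - 2 * r ≤ cov L l := fun l hl => by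
    have h1 := sw_cov L hL l
    have h2 := not_le.1 fun h => hl ((hD l).2 h)
    by_contra h3
    have h4 := mul_pos (sub_pos.2 h2) (sub_pos.2 (not_le.1 h3))
    have h5 : r * (20 * r) ≤ r * Fintype.card F := by gcongr
    rw [hrq] at h1
    nlinarith
  have hDS : ∀ l ∈ D \ L, l ∈ S := fun l hl => by
    by_contra h
    have h1 : (pts l ∩ unc S).card ≤ cov L l := card_le_card fun p hp => by
      obtain ⟨l', h1, h2⟩ := hc p (mem_inter.1 hp).2
      exact mem_flt.2 ⟨(mem_inter.1 hp).1, l', h1, fun e => (mem_sdiff.1 hl).2 (e ▸ h1), h2⟩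
    have h2 : ((pts l ∩ unc S).card : ℝ) ≤ cov L l := by exact_mod_cast h1
    linarith [hS l h, (hD l).1 (mem_sdiff.1 hl).1]
  have hh : ((D \ L).card : ℝ) ≤ 4 * r := by
    have h1 := few_atyp_set (unc L) (D \ L) (a := Fintype.card F / 2) (by positivity)
      fun l hl => by
        have h2 : (flt (pts l) fun p => ¬ ∃ l' ∈ L, l' ≠ l ∧ On p l') ⊆ pts l ∩ unc L :=
          fun p hp => mem_inter.2 ⟨(mem_flt.1 hp).1, mem_unc.2 fun l' h1 h2 => (mem_flt.1 hp).2
            ⟨l', h1, fun e => (mem_sdiff.1 hl).2 (e ▸ h1), h2⟩⟩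
        have h3 : ((flt (pts l) fun p => ¬ ∃ l' ∈ L, l' ≠ l ∧ On p l').card : ℝ) ≤
            (pts l ∩ unc L).card := by exact_mod_cast card_le_card h2
        rw [small_card_compl] at h3
        rw [← hr]
        refine le_trans ?_ (le_abs_self _)
        linarith [(hD l).1 (mem_sdiff.1 hl).1]
    rw [hrq] at h1
    refine le_of_mul_le_mul_right ?_ (by positivity : 0 < ((Fintype.card F : ℝ) / 2) ^ 2)
    linarith
  have hj : ((L \ D).card : ℝ) ≤ 4 * r := by
    have := card_junk L (L \ D) hL sdiff_subset fun l hl => by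
      linarith [hD2 l (mem_sdiff.1 hl).2]
    rwa [mul_div_assoc, ← hr] at this
  have hDc : D.card ≤ Fintype.card F + (D \ L).card := by
    have := le_card_sdiff L D
    omega
  have hDc' : (D.card : ℝ) ≤ Fintype.card F + (D \ L).card := by exact_mod_cast hDc
  refine ⟨D, hne, ⟨fun l hl => (hD l).1 hl, hD2⟩, ?_⟩
  rcases (unc D).eq_empty_or_nonempty with hU | hU
  · refine .inr ⟨(D \ L).card, bruen D _ hDc hU fun ⟨o, ho⟩ => hpen ⟨o, fun l hl => ?_⟩, ?_, hh, ?_,
      card_le_card fun l hl => mem_inter.2 ⟨(mem_sdiff.1 hl).1, hDS l hl⟩⟩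
    · by_cases h : l ∈ L
      · exact .inl h
      · exact .inr (hDS l (mem_sdiff.2 ⟨ho l hl, h⟩))
    · refine le_trans (card_le_card (t := (D \ L).biUnion pts) fun p hp => ?_)
        (card_biUnion_le_card_mul _ _ _ fun l _ => (card_pts l).le)
      have : p ∉ unc D := by simp [hU]
      rw [mem_unc] at this
      push Not at this
      obtain ⟨l, h1, h2⟩ := this
      exact mem_biUnion.2 ⟨l, mem_sdiff.2 ⟨h1, fun h => mem_unc.1 hp l h h2⟩, mem_pts.2 h2⟩
    · exact_mod_cast (by linarith : (D.card : ℝ) ≤ 2 * Fintype.card F)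
  have hU0 : (0 : ℝ) < (unc D).card := by exact_mod_cast hU.card_pos
  have hflat : ∀ l, ((pts l ∩ unc D).card : ℝ) ≤ 2 * (unc D).card / Fintype.card F := fun l => by
    by_cases hl : l ∈ D
    · have : pts l ∩ unc D = ∅ := eq_empty_of_forall_notMem fun p hp =>
        mem_unc.1 (mem_inter.1 hp).2 l hl (mem_pts.1 (mem_inter.1 hp).1)
      rw [this, card_empty, Nat.cast_zero]
      exact div_nonneg (by linarith) hq.le
    have h1 : (pts l ∩ unc D).card ≤ (flt (pts l) fun p => ¬ ∃ l' ∈ L, l' ≠ l ∧ On p l').card +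
        (L \ D).card := by
      rw [← card_filter_add_card_filter_not (s := pts l ∩ unc D)
        fun p => ¬ ∃ l' ∈ L, l' ≠ l ∧ On p l']
      refine add_le_add (card_le_card fun p hp => ?_) ?_
      · exact mem_flt.2 ⟨(mem_inter.1 (mem_filter.1 hp).1).1, (mem_filter.1 hp).2⟩
      · refine card_le_card_of_forall_subsingleton (fun p l' => l' ≠ l ∧ On p l')
          (fun p hp => ?_) fun l' _ p hp p' hp' => ?_
        · obtain ⟨h1, h2⟩ := mem_filter.1 hp
          obtain ⟨l', h3, h4⟩ := not_not.1 h2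
          exact ⟨l', mem_sdiff.2 ⟨h3, fun h => mem_unc.1 (mem_inter.1 h1).2 l' h h4.2⟩, h4⟩
        · exact eq_of_on hp.2.1 hp.2.2 (mem_pts.1 (mem_inter.1 (mem_filter.1 hp.1).1).1)
            hp'.2.2 (mem_pts.1 (mem_inter.1 (mem_filter.1 hp'.1).1).1)
    have h2 : ((pts l ∩ unc D).card : ℝ) ≤
        (flt (pts l) fun p => ¬ ∃ l' ∈ L, l' ≠ l ∧ On p l').card + (L \ D).card := by
      exact_mod_cast h1
    rw [small_card_compl] at h2
    have h3 := sw D l
    have h4 : ((pts l ∩ unc D).card : ℝ) * (Fintype.card F / 2) ≤ (pts l ∩ unc D).card *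
        (2 * Fintype.card F - D.card - (pts l ∩ unc D).card) := by
      refine mul_le_mul_of_nonneg_left ?_ (Nat.cast_nonneg _)
      linarith [hD2 l hl]
    rw [le_div_iff₀ hq]
    linarith
  refine .inl ⟨⟨hU, hflat⟩, ?_⟩
  have h1 : (unc D ∩ unc S).card ≤ ∑ l ∈ L \ D, (pts l ∩ unc D).card := by
    refine le_trans (card_le_card fun p hp => ?_) card_biUnion_le
    obtain ⟨l, h1, h2⟩ := hc p (mem_inter.1 hp).2
    exact mem_biUnion.2 ⟨l, mem_sdiff.2 ⟨h1, fun h => mem_unc.1 (mem_inter.1 hp).1 l h h2⟩,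
      mem_inter.2 ⟨mem_pts.2 h2, (mem_inter.1 hp).1⟩⟩
  have h2 := sum_le_card_nsmul (L \ D) _ _ fun l _ => hflat l
  rw [nsmul_eq_mul] at h2
  calc _ ≤ ∑ l ∈ L \ D, ((pts l ∩ unc D).card : ℝ) := by exact_mod_cast h1
    _ ≤ 4 * r * (2 * (unc D).card / Fintype.card F) :=
        h2.trans (mul_le_mul_of_nonneg_right hj (div_nonneg (by linarith) hq.le))
    _ = 8 * r * ((unc D).card / Fintype.card F) := by ring
    _ < β * Fintype.card F * ((unc D).card / Fintype.card F) :=
        mul_lt_mul_of_pos_right hr3 (div_pos hU0 hq)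
    _ = _ := by rw [mul_assoc, mul_div_cancel₀ _ hq.ne']

end Crest.Agent.R34
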