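import Crest.Agent.R34.Defs
import Crest.Agent.R34.Pi

/-! Row 34: many good positions for the semi-plain points of one gadget. -/

set_option autoImplicit false
set_option linter.unusedSectionVars false

namespace Crest.Agent.R34

open Finset

variable {F : Type} [Field F] [Fintype F] [DecidableEq F]

/-- Affine parametrisation.  For `h = none` (and for invalid `h`) take `base`, `vec` of the main
line.  For `h = some (b, j)`, `j ≠ s`, with `d = a i b j`, `d' = a i b s`: the point
`O + λ(u) • vec d` with `λ(u) = (pr d' (base + u • vec i) - pr d' O) / pr d' (vec d)`. -/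
theorem param (g : Gad F) (hg : g.Ok) (i : Dir F) (s : Fin 11) :
    ∃ (a v : Host → Pt F) (d : Host → Dir F), (∀ h, v h ≠ 0 ∧ pr (d h) (v h) = 0) ∧
      (∀ h, Val s h → d h = (g.host i h).1 ∧ ∀ u : F, On (a h + u • v h) (g.host i h)) ∧
      ∀ b h (u : F), Val s h → Side b h →
        On (a h + u • v h) (g.ptr i b s (a none + u • v none)) := by
  have hc : ∀ b j, j ≠ s → pr (g.a i b s) (vec (g.a i b j)) ≠ 0 := fun b j hj =>
    pr_vec_ne fun e => hj (hg.inj i b j b s e).2
  have hV : ∀ b, pr (g.a i b s) (vec i) ≠ 0 := fun b => pr_vec_ne (hg.ne i b s).symm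
  refine ⟨fun h => match h with
      | none => base (i, g.mu i)
      | some (b, j) => if j = s then base (i, g.mu i) else g.O i b +
          ((pr (g.a i b s) (base (i, g.mu i)) - pr (g.a i b s) (g.O i b)) /
            pr (g.a i b s) (vec (g.a i b j))) • vec (g.a i b j),
    fun h => match h with
      | none => vec i
      | some (b, j) => if j = s then vec i else
          (pr (g.a i b s) (vec i) / pr (g.a i b s) (vec (g.a i b j))) • vec (g.a i b j),
    fun h => match h with
      | none => i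
      | some (b, j) => if j = s then i else g.a i b j, ?_, ?_, ?_⟩
  · rintro (_ | ⟨b, j⟩)
    · exact ⟨vec_ne_zero i, pr_vec i⟩
    · by_cases hj : j = s
      · simp only [if_pos hj]
        exact ⟨vec_ne_zero i, pr_vec i⟩
      · simp only [if_neg hj]
        refine ⟨smul_ne_zero (div_ne_zero (hV b) (hc b j hj)) (vec_ne_zero _), ?_⟩
        rw [pr_smul, pr_vec, mul_zero]
  · rintro (_ | ⟨b, j⟩) hv
    · exact ⟨rfl, fun u => on_par (i, g.mu i) u⟩
    · have hj : j ≠ s := fun e => hv b (by rw [e])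
      simp only [if_neg hj]
      refine ⟨rfl, fun u => ?_⟩
      simp only [Gad.host, on_mk, pr_add, pr_smul, pr_vec, mul_zero, add_zero]
  · rintro b (_ | ⟨b', j⟩) u hv hs
    · rfl
    · have hj : j ≠ s := fun e => hv b' (by rw [e])
      obtain rfl : b' = b := by
        rcases hs with h | ⟨s', h⟩
        · exact absurd h (by simp)
        · simp only [Option.some.injEq, Prod.mk.injEq] at h
          exact h.1
      simp only [if_neg hj]
      have := hc b' j hj
      simp only [Gad.ptr, on_mk, pr_add, pr_smul]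
      field_simp
      ring

/-- the ways a tuple can violate `inj` or `gen3` -/
private abbrev TaIdx :=
  (Fin 11 × Fin 11 × Host) ⊕ (Bool × Fin 11 × Fin 11 × Fin 11 × Host × Host × Host)

private def TaBad (g : Gad F) (i : Dir F) (X : Fin 11 → Host → F → Pt F) :
    TaIdx → (Fin 11 → F) → Prop
  | .inl (s, s', h), τ => s ≠ s' ∧ X s h (τ s) = X s' h (τ s')
  | .inr (b, s₁, s₂, s₃, h₁, h₂, h₃), τ => s₁ ≠ s₃ ∧ s₂ ≠ s₃ ∧ Side b h₃ ∧ Val s₃ h₃ ∧
      X s₁ h₁ (τ s₁) ≠ X s₂ h₂ (τ s₂) ∧ ∃ m : Line F, ¬ On (g.O i b) m ∧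
        On (X s₁ h₁ (τ s₁)) m ∧ On (X s₂ h₂ (τ s₂)) m ∧ On (X s₃ h₃ (τ s₃)) m

private theorem ta_bad_card {g : Gad F} (hg : g.Ok) (i : Dir F) (X : Fin 11 → Host → F → Pt F)
    (hinj : ∀ s h, Function.Injective (X s h))
    (hon : ∀ s h u, Val s h → On (X s h u) (g.host i h)) (k : TaIdx) :
    (flt univ (TaBad g i X k)).card ≤ Fintype.card F ^ 10 := by
  rcases k with ⟨s, s', h⟩ | ⟨b, s₁, s₂, s₃, h₁, h₂, h₃⟩
  · refine card_det _ s fun u hu v hv e => ?_
    simp only [mem_flt, mem_univ, true_and, TaBad] at hu hv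
    apply hinj s h
    rw [hu.2, hv.2, e s' hu.1.symm]
  · refine card_det _ s₃ fun u hu v hv e => ?_
    simp only [mem_flt, mem_univ, true_and, TaBad] at hu hv
    obtain ⟨k1, k2, k3, k4, k5, m, k6, k7, k8, k9⟩ := hu
    obtain ⟨-, -, -, -, -, m', -, l7, l8, l9⟩ := hv
    rw [← e s₁ k1] at l7
    rw [← e s₂ k2] at l8
    obtain rfl : m = m' := by
      by_contra hne
      exact k5 (eq_of_on hne k7 l7 k8 l8)
    have hne : m ≠ g.host i h₃ := fun e' => k6 (e' ▸ hg.on_host i k3)
    exact hinj s₃ h₃ (eq_of_on hne k9 (hon _ _ _ k4) l9 (hon _ _ _ k4))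

/-- `X s h u = a h + u • v h` from `param`; `Gd s` the set of `Q3`; tuples in `piFinset Gd` satisfy
`onHost`, `onPtr`, `only` (`line_eq_of_dir`, `host_inj`).  Remove the tuples that violate `inj` (for
each `s ≠ s', h` at most `q^10`, `card_det`) and then those that violate `gen3` (for each
`b, s₁, s₂, s₃, h₁, h₂, h₃` at most `q^10`: the first two points differ by `only` and `inj`, they
determine `m`, and `m ≠ host h₃` because the host contains the centre). -/
theorem tupA {β : ℝ} (hβ : 0 < β) : ∃ q₀ : ℕ, ∀ (F : Type) [Field F] [Fintype F] [DecidableEq F],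
    q₀ ≤ Fintype.card F → ∀ g : Gad F, g.Ok → ∀ S : Finset (Line F), (∀ i h, g.host i h ∈ S) →
      Q3 S β → ∀ i, ∃ (X : Fin 11 → Host → F → Pt F) (T : Finset (Fin 11 → F)),
        (∀ s h, Function.Injective (X s h)) ∧
        (β * Fintype.card F) ^ 11 / 2 ≤ T.card ∧ ∀ τ ∈ T, Loc g i fun s h => X s h (τ s) := by
  refine ⟨⌈2 * (Fintype.card TaIdx : ℝ) / β ^ 11⌉₊, fun F _ _ _ hq g hg S hS hQ i => ?_⟩
  classical
  choose a v d h1 h2 h3 using param g hg i
  set X : Fin 11 → Host → F → Pt F := fun s h u => a s h + u • v s h with hX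
  have hinj : ∀ s h, Function.Injective (X s h) := fun s h => par_inj (h1 s h).1 _
  have hon : ∀ s h u, Val s h → On (X s h u) (g.host i h) := fun s h u hv => (h2 s h hv).2 u
  set Gd : Fin 11 → Finset F := fun s =>
    flt univ fun u : F => ∀ h, ∀ l ∈ S, l.1 ≠ d s h → ¬ On (a s h + u • v s h) l with hGd
  have hG : ∀ s, β * Fintype.card F ≤ (Gd s).card := fun s => hQ (a s) (v s) (d s) (h1 s)
  have hq0 : (0 : ℝ) < Fintype.card F := by linarith [two_le_q (F := F)]
  refine ⟨X, flt (Fintype.piFinset Gd) fun τ => ∀ k, ¬ TaBad g i X k τ, hinj, ?_, fun τ hτ => ?_⟩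
  · have e1 : (β * Fintype.card F) ^ 11 ≤ (Fintype.piFinset Gd).card := by
      rw [Fintype.card_piFinset, Nat.cast_prod]
      calc (β * Fintype.card F) ^ 11 = ∏ _s : Fin 11, β * Fintype.card F := by simp
        _ ≤ _ := prod_le_prod (fun _ _ => by positivity) fun s _ => hG s
    have e2 : Fintype.piFinset Gd ⊆ (flt (Fintype.piFinset Gd) fun τ => ∀ k, ¬ TaBad g i X k τ) ∪
        univ.biUnion fun k => flt univ (TaBad g i X k) := by
      intro τ hτ
      simp only [mem_union, mem_flt, mem_biUnion, mem_univ, true_and]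
      by_cases hb : ∃ k, TaBad g i X k τ
      · exact .inr hb
      · exact .inl ⟨hτ, fun k hk => hb ⟨k, hk⟩⟩
    have e3 := (card_le_card e2).trans (card_union_le _ _)
    have e4 : (univ.biUnion fun k => flt univ (TaBad g i X k)).card ≤
        Fintype.card TaIdx * Fintype.card F ^ 10 := by
      rw [← card_univ]
      exact card_biUnion_le_card_mul _ _ _ fun k _ => ta_bad_card hg i X hinj hon k
    have e5 : ((Fintype.piFinset Gd).card : ℝ) ≤
        (flt (Fintype.piFinset Gd) fun τ => ∀ k, ¬ TaBad g i X k τ).card +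
          (Fintype.card TaIdx : ℝ) * (Fintype.card F : ℝ) ^ 10 := by
      exact_mod_cast e3.trans (Nat.add_le_add_left e4 _)
    have e6 : 2 * (Fintype.card TaIdx : ℝ) ≤ Fintype.card F * β ^ 11 := by
      rw [← div_le_iff₀ (by positivity)]
      exact Nat.ceil_le.1 hq
    have e7 := mul_le_mul_of_nonneg_right e6 (by positivity : (0 : ℝ) ≤ (Fintype.card F : ℝ) ^ 10)
    have e8 : (β * Fintype.card F) ^ 11 =
        Fintype.card F * β ^ 11 * (Fintype.card F : ℝ) ^ 10 := by ring
    generalize (Fintype.card TaIdx : ℝ) = N at e5 e7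
    linarith
  · obtain ⟨hτ1, hτ2⟩ := mem_flt.1 hτ
    have honly : ∀ s h i' h', Val s h → On (X s h (τ s)) (g.host i' h') → i' = i ∧ h' = h := by
      intro s h i' h' hv ho
      have k1 := (mem_flt.1 (Fintype.mem_piFinset.1 hτ1 s)).2 h _ (hS i' h')
      have k2 : (g.host i' h').1 = (g.host i h).1 := by
        by_contra hne
        exact k1 (by rw [(h2 s h hv).1]; exact hne) ho
      exact hg.host_inj (line_eq_of_dir k2 ho (hon s h _ hv))
    have hj : ∀ s s' h, X s h (τ s) = X s' h (τ s') → s = s' := fun s s' h e => by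
      by_contra hne
      exact hτ2 (.inl (s, s', h)) ⟨hne, e⟩
    refine ⟨fun s h hv => hon s h _ hv, fun s b h hv hs => h3 s b h (τ s) hv hs, honly,
      fun s s' h _ _ e => hj s s' h e, ?_⟩
    intro b m s₁ s₂ s₃ k₁ k₂ k₃ hO n12 n13 n23 _ _ c3 v1 v2 v3 o1 o2 o3
    refine hτ2 (.inr (b, s₁, s₂, s₃, k₁, k₂, k₃)) ⟨n13, n23, c3, v3, fun e => ?_, m, hO, o1, o2, o3⟩
    have k := hon s₂ k₂ (τ s₂) v2
    rw [← e] at k
    obtain ⟨-, rfl⟩ := honly s₁ k₁ i k₂ v1 k
    exact n12 (hj _ _ _ e)

end Crest.Agent.R34
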