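import Crest.Agent.R34.Asym

/-! Row 34: semi-plain points of five gadgets are not collinear. -/

set_option autoImplicit false
set_option linter.unusedSectionVars false

namespace Crest.Agent.R34

open Finset

theorem tupB_one {F : Type} [Field F] [Fintype F] [DecidableEq F] {g : Gad F} {i : Dir F}
    {X : Fin 11 → Host → F → Pt F} {T : Finset (Fin 11 → F)} (hX : ∀ s h, Function.Injective (X s h))
    (hT : ∀ τ ∈ T, Loc g i fun s h => X s h (τ s)) {m : Line F} {s : Fin 11} {h : Host}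
    (hm : g.host i h ≠ m) {b : ℝ} (hb0 : 0 < b) (hb : b ≤ T.card) :
    Pr (fun τ : T => Val s h ∧ On (X s h (τ.1 s)) m) ≤ (Fintype.card F : ℝ) ^ 10 / b := by
  classical
  have h1 := card_det (((flt univ fun τ : T => Val s h ∧ On (X s h (τ.1 s)) m)).map
    (Function.Embedding.subtype _)) s (by
      simp only [mem_map, mem_flt, mem_univ, true_and, Function.Embedding.coe_subtype]
      rintro _ ⟨u, ⟨hv, hu⟩, rfl⟩ _ ⟨v, ⟨-, hv'⟩, rfl⟩ -
      exact hX s h (eq_of_on hm ((hT _ u.2).onHost s h hv) hu ((hT _ v.2).onHost s h hv) hv'))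
  rw [card_map] at h1
  rw [Pr, Fintype.card_coe]
  exact div_le_div₀ (by positivity) (by exact_mod_cast h1) hb0 hb

theorem tupB_sum {F : Type} [Field F] [Fintype F] [DecidableEq F] {g : Gad F} (hg : g.Ok)
    {S : Finset (Line F)} (hS : ∀ i h, g.host i h ∈ S) (o : Pt F ⊕ Dir F) :
    ∑ i, (flt univ fun h => Thr (g.host i h) o).card ≤ (flt S fun l => Thr l o).card := by
  rw [← card_sigma]
  refine card_le_card_of_injOn (fun p => g.host p.1 p.2) (fun p hp => ?_) ?_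
  · simp only [coe_sigma, Set.mem_sigma_iff, mem_coe, mem_flt] at hp ⊢
    exact ⟨hS _ _, hp.2.2⟩
  · rintro ⟨i, h⟩ - ⟨i', h'⟩ - e
    obtain ⟨rfl, rfl⟩ := hg.host_inj e
    rfl

/-- Uniform measure on `∀ i, T i` (subtypes, nonempty).  For fixed `o, m` let `A i τ` be the event
in `Cross`.  For `s, h` with `host i h` through `o` (so `host i h ≠ m`) the tuples `τ ∈ T i` with
`X i s h (τ s)` on `m` all have the same `τ s` (`onHost`, `eq_of_on`, injectivity): at most `q^10`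
(`card_det`).  So `∑ i, Pr (A i) ≤ σ := q^(1/6) * 11 * 2 / (β^11 q)` (`host_inj`, `QT`), `σ ≤ 1`, and
`esym` with `x = 1/σ`, `k = 5` gives `e σ^5`.  Union over at most `(2q²)²` pairs `(o, m)`:
`4 q⁴ e σ^5 = C q^(-1/6) < 1`. -/
theorem tupB {β : ℝ} (hβ : 0 < β) : ∃ q₀ : ℕ, ∀ (F : Type) [Field F] [Fintype F] [DecidableEq F],
    q₀ ≤ Fintype.card F → ∀ g : Gad F, g.Ok → ∀ S : Finset (Line F), (∀ i h, g.host i h ∈ S) →
      QT S → ∀ (X : Dir F → Fin 11 → Host → F → Pt F) (T : Dir F → Finset (Fin 11 → F)),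
        (∀ i s h, Function.Injective (X i s h)) →
        (∀ i, (β * Fintype.card F) ^ 11 / 2 ≤ (T i).card) →
        (∀ i, ∀ τ ∈ T i, Loc g i fun s h => X i s h (τ s)) →
        ∃ τ : Dir F → Fin 11 → F, (∀ i, τ i ∈ T i) ∧ Cross g fun i s h => X i s h (τ i s) := by
  obtain ⟨q₀, hq₀⟩ := Filter.eventually_atTop.1
    ((ev_rpow (22 / β ^ 11) (by norm_num : (1 / 6 : ℝ) < 1)).and
      (ev_rpow (8 * Real.exp 1 * (22 / β ^ 11) ^ 5) (by norm_num : (5 / 6 : ℝ) < 1)))
  refine ⟨q₀, fun F _ _ _ hq g hg S hS hQ X T hX hT hL => ?_⟩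
  obtain ⟨e1, e2⟩ := hq₀ _ hq
  rw [Real.rpow_one] at e1 e2
  have h2 := two_le_q (F := F)
  set q : ℝ := (Fintype.card F : ℝ) with hqd
  have hq0 : 0 < q := by linarith
  have hb : 0 < (β * q) ^ 11 / 2 := by positivity
  have : ∀ i, Nonempty (T i) := fun i =>
    (card_pos.1 (by exact_mod_cast hb.trans_le (hT i))).to_subtype
  set σ := 22 / β ^ 11 * q ^ (1 / 6 : ℝ) / q with hσ
  have hσ0 : 0 < σ := by positivity
  have hσ1 : σ ≤ 1 := (div_le_one hq0).2 e1
  have key : ∀ p : (Pt F ⊕ Dir F) × Line F, Pr (fun ω : ∀ i, T i => ¬ Thr p.2 p.1 ∧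
      5 ≤ (flt univ fun i => ∃ s h, Val s h ∧ Thr (g.host i h) p.1 ∧
        On (X i s h ((ω i).1 s)) p.2).card) ≤ Real.exp 1 * σ ^ 5 := by
    rintro ⟨o, m⟩
    by_cases hm : Thr m o
    · rw [Pr_false fun _ h => h.1 hm]; positivity
    have h1 : ∑ i, Pr (fun τ : T i => ∃ s h, Val s h ∧ Thr (g.host i h) o ∧
        On (X i s h (τ.1 s)) m) ≤ σ := by
      calc _ ≤ ∑ i, ((flt univ fun h => Thr (g.host i h) o).card : ℝ) *
            (11 * (q ^ 10 / ((β * q) ^ 11 / 2))) := by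
            refine sum_le_sum fun i _ => le_trans (Pr_mono fun τ ⟨s, h, a1, a2, a3⟩ => ?_)
              (Pr_exists_le_card _ (fun h (τ : T i) => ∃ s, Val s h ∧ On (X i s h (τ.1 s)) m) _
                fun h hh => ?_)
            · simpa using Pr_exists_le_univ (fun s (τ : T i) => Val s h ∧ On (X i s h (τ.1 s)) m)
                _ fun s => tupB_one (hX i) (hL i) (h := h) (m := m)
                  (fun e => hm (e ▸ (mem_flt.1 hh).2)) hb (hT i)
            · exact ⟨h, mem_flt.2 ⟨mem_univ _, a2⟩, s, a1, a3⟩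
        _ ≤ q ^ (1 / 6 : ℝ) * (11 * (q ^ 10 / ((β * q) ^ 11 / 2))) := by
            rw [← sum_mul]
            refine mul_le_mul_of_nonneg_right (le_trans ?_ (hQ o)) (by positivity)
            exact_mod_cast tupB_sum hg hS o
        _ = σ := by rw [hσ]; field_simp; ring
    refine le_trans (Pr_mono fun _ h => h.2) ((esym (fun i (τ : T i) => ∃ s h, Val s h ∧
      Thr (g.host i h) o ∧ On (X i s h (τ.1 s)) m) 5 (x := σ⁻¹) ((one_le_inv₀ hσ0).2 hσ1)
      h1).trans_eq ?_)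
    rw [inv_mul_cancel₀ hσ0.ne', inv_pow, div_inv_eq_mul]
  have h3 := Pr_exists_le_univ _ _ key
  have h4 : (Fintype.card ((Pt F ⊕ Dir F) × Line F) : ℝ) ≤ 2 * q ^ 2 * (2 * q ^ 2) := by
    rw [Fintype.card_prod, Fintype.card_sum, card_pt, card_dir, card_line]
    push_cast
    rw [← hqd]
    exact mul_le_mul (by nlinarith) (by nlinarith) (by positivity) (by positivity)
  have h5 : (q ^ (1 / 6 : ℝ)) ^ 5 = q ^ (5 / 6 : ℝ) := by
    rw [← Real.rpow_natCast, ← Real.rpow_mul hq0.le]; norm_num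
  have h6 : 2 * q ^ 2 * (2 * q ^ 2) * (Real.exp 1 * σ ^ 5) =
      8 * Real.exp 1 * (22 / β ^ 11) ^ 5 * q ^ (5 / 6 : ℝ) / q / 2 := by
    rw [hσ, div_pow, mul_pow, h5]; field_simp; ring
  obtain ⟨ω, hω⟩ := exists_not_of_Pr_lt_one (h3.trans_lt
    ((mul_le_mul_of_nonneg_right h4 (by positivity)).trans_lt (by
      rw [h6]; linarith [(div_le_one hq0).2 e2])))
  refine ⟨fun i => (ω i).1, fun i => (ω i).2, fun o m hm => ?_⟩
  by_contra hc
  exact hω ⟨(o, m), hm, not_le.1 hc⟩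

end Crest.Agent.R34
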