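import Crest.Agent.R34.Large
import Crest.Agent.R34.Q2
import Crest.Agent.R34.Q3
import Crest.Agent.R34.RareSG
import Crest.Agent.R34.Small
import Crest.Agent.R34.GadEx
import Crest.Agent.R34.TupA
import Crest.Agent.R34.TupB
import Crest.Agent.R34.Hyper

/-! Row 34: the construction over every large finite field. -/

set_option autoImplicit false
set_option linter.unusedSectionVars false

namespace Crest.Agent.R34

open Finset Filter

section

variable {F : Type} [Field F] [Fintype F] [DecidableEq F]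

theorem card_thr_ge (o : Pt F ⊕ Dir F) :
    Fintype.card F ≤ (flt univ fun l : Line F => Thr l o).card := by
  rcases o with p | d
  · have : (flt univ fun l : Line F => Thr l (.inl p)) = univ.filter fun l : Line F => On p l := by
      ext l; simp [Thr]
    rw [this, card_thru]; omega
  · have : (flt univ fun l : Line F => Thr l (.inr d)) = univ.image fun c : F => (d, c) := by
      ext ⟨d', c⟩
      simp only [Thr, mem_flt, mem_univ, true_and, mem_image, Prod.mk.injEq]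
      exact ⟨fun h => ⟨c, h.symm, rfl⟩, fun ⟨_, h, _⟩ => h.symm⟩
    rw [this, card_image_of_injective _ fun c c' h => (Prod.ext_iff.1 h).2, card_univ]

theorem not_on_used {g : Gad F} {S : Finset (Line F)} (hS : ∀ i h, g.host i h ∈ S) {l : Line F}
    (hl : ¬ Used g l) {x : Pt F} (hx : x ∈ Yl S l) : ∀ l', Used g l' → ¬ On x l' := by
  rintro l' ⟨i, h, rfl⟩ ho
  obtain ⟨h1, h2⟩ := mem_flt.1 hx
  by_cases hd : (g.host i h).1 = l.1
  · exact hl ⟨i, h, (line_eq_of_dir hd ho (mem_pts.1 h1)).symm⟩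
  · exact h2 _ (hS i h) hd ho

theorem upgrade (g : Gad F) (S : Finset (Line F)) (hS : ∀ i h, g.host i h ∈ S) (hst : Stab S)
    {a T : ℝ} (hY : ∀ l, a ≤ (Yl S l).card)
    (hT : ∀ o, ((flt S fun l => Thr l o).card : ℝ) ≤ T) (ha : T + 1 < a) : UStab g := by
  classical
  intro C hC hc
  obtain ⟨o, ho⟩ := hst C hC fun x hx => hc x fun l ⟨i, h, e⟩ => mem_unc.1 hx l (e ▸ hS i h)
  refine ⟨o, fun l hl => ?_⟩
  by_contra hn
  obtain ⟨hlC, hlU⟩ := not_or.1 hn
  have h1 : (flt univ fun l : Line F => Thr l o).card ≤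
      (flt C fun l => Thr l o).card + (flt S fun l => Thr l o).card := by
    refine le_trans (card_le_card fun l' hl' => ?_) (card_union_le _ _)
    have := (mem_flt.1 hl').2
    rcases ho l' this with h | h <;> simp [h, this]
  have h2 : (flt C fun l => Thr l o).card + (flt C fun l => ¬ Thr l o).card = C.card := by
    rw [flt_eq, flt_eq, card_filter_add_card_filter_not]
  have h3 := card_thr_ge o
  have h4 : (flt C fun l => ¬ Thr l o).card ≤ (flt S fun l => Thr l o).card := by omega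
  have h5 : ∀ x ∈ flt (Yl S l) fun x => Sum.inl x ≠ o, ∃ l' ∈ flt C fun l => ¬ Thr l o, On x l' := by
    intro x hx
    obtain ⟨hx1, hx2⟩ := mem_flt.1 hx
    obtain ⟨l', hl', hon⟩ := hc x (not_on_used hS hlU hx1)
    have hxl : On x l := mem_pts.1 (mem_flt.1 hx1).1
    have hne : l' ≠ l := fun e => hlC (e ▸ hl')
    refine ⟨l', mem_flt.2 ⟨hl', fun ht => ?_⟩, hon⟩
    rcases o with p | d
    · exact hx2 (congrArg _ (eq_of_on hne hon hxl ht hl))
    · exact hne (line_eq_of_dir (ht.trans hl.symm) hon hxl)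
  choose! f hf1 hf2 using h5
  have h6 : (flt (Yl S l) fun x => Sum.inl x ≠ o).card ≤ (flt C fun l => ¬ Thr l o).card := by
    refine card_le_card_of_injOn f (fun x hx => hf1 x hx) fun x hx y hy e => ?_
    have hne : f x ≠ l := fun e' => hlC (e' ▸ (mem_flt.1 (hf1 x hx)).1)
    exact eq_of_on hne (hf2 x hx) (mem_pts.1 (mem_flt.1 (mem_flt.1 hx).1).1) (e ▸ hf2 y hy)
      (mem_pts.1 (mem_flt.1 (mem_flt.1 hy).1).1)
  have h7 : (flt (Yl S l) fun x => Sum.inl x = o).card ≤ 1 :=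
    card_le_one.2 fun x hx y hy =>
      Sum.inl_injective (((mem_flt.1 hx).2).trans ((mem_flt.1 hy).2).symm)
  have h8 : (flt (Yl S l) fun x => Sum.inl x = o).card +
      (flt (Yl S l) fun x => Sum.inl x ≠ o).card = (Yl S l).card := by
    rw [flt_eq, flt_eq, card_filter_add_card_filter_not]
  have h9 : (Yl S l).card ≤ (flt S fun l => Thr l o).card + 1 := by omega
  have h10 : ((Yl S l).card : ℝ) ≤ (flt S fun l => Thr l o).card + 1 := by exact_mod_cast h9
  linarith [hY l, hT o]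

end

theorem Pr_or4 {α : Type} [Fintype α] {A B C D : α → Prop} {a b c d : ℝ} (hA : Pr A ≤ a)
    (hB : Pr B ≤ b) (hC : Pr C ≤ c) (hD : Pr D ≤ d) :
    Pr (fun x => A x ∨ B x ∨ C x ∨ D x) ≤ a + b + c + d := by
  have h1 := Pr_or_le A fun x => B x ∨ C x ∨ D x
  have h2 := Pr_or_le B fun x => C x ∨ D x
  have h3 := Pr_or_le C D
  linarith

theorem rare_stab (Λ : Type) [Fintype Λ] [DecidableEq Λ] [Nonempty Λ] :
    ∃ q₀ : ℕ, ∀ (F : Type) [Field F] [Fintype F] [DecidableEq F], q₀ ≤ Fintype.card F →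
      Pr (fun ω : Cfg Λ F => ¬ (Q1 ω ∧ Stab (Sp ω))) ≤ 4 / 20 := by
  obtain ⟨q1, h1⟩ := rare_Q1 Λ
  obtain ⟨q2, h2⟩ := rare_large Λ
  obtain ⟨q3, h3⟩ := rare_S Λ
  obtain ⟨q4, h4⟩ := rare_G Λ
  set K := Fintype.card Λ with hK
  have hδ : (0 : ℝ) < (1 / 4) ^ K := by positivity
  have hβ : (0 : ℝ) < Real.exp (-(4 * K)) := Real.exp_pos _
  obtain ⟨q5, h5⟩ := eventually_atTop.1 (((ev_eps (c := 1 / 20) (by norm_num)).and
    (ev_eps (c := (1 / 4) ^ K / 4) (by positivity))).and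
    ((ev_eps (c := Real.exp (-(4 * K)) / 16) (by positivity)).and
      (ev_dev (c := (1 / 4) ^ K / 2) (by positivity) 0)))
  refine ⟨q1 + q2 + q3 + q4 + q5, fun F _ _ _ hq => ?_⟩
  obtain ⟨⟨⟨e0, e1⟩, -, e2⟩, ⟨-, e3⟩, -, e4⟩ := h5 (Fintype.card F) (by omega)
  have hP := Pr_or4 (h1 F (by omega)) (h2 F (by omega)) (h3 F (by omega)) (h4 F (by omega))
  refine le_trans (Pr_mono fun ω hω => ?_) (hP.trans (by norm_num))
  by_cases hQ : Q1 ω
  swap
  · exact .inl hQ
  refine .inr ?_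
  have hns : ¬ Stab (Sp ω) := fun h => hω ⟨hQ, h⟩
  unfold Stab at hns
  push Not at hns
  obtain ⟨L₀, hL₀, hc₀, hp₀⟩ := hns
  set L := L₀ \ Sp ω with hLd
  have hL : L.card ≤ Fintype.card F := (card_le_card sdiff_subset).trans hL₀
  have hc : Covers L (unc (Sp ω)) := fun x hx => by
    obtain ⟨l, hl, hon⟩ := hc₀ x hx
    exact ⟨l, Finset.mem_sdiff.2 ⟨hl, fun h => mem_unc.1 hx l h hon⟩, hon⟩
  by_cases hz : eps (Fintype.card F) * (Fintype.card F : ℝ) ^ 2 ≤ (unc L).card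
  · exact .inl ⟨hQ, L, hL, sdiff_disjoint, hc, hz⟩
  refine .inr ?_
  push Not at hz
  have hq2 := two_le_q (F := F)
  have hq0 : (0 : ℝ) < Fintype.card F := by linarith
  set q : ℝ := (Fintype.card F : ℝ) with hqd
  have hqq : 0 < q ^ 2 := by positivity
  have hdel := del_ge K (q := Fintype.card F) Fintype.one_lt_card
  have hS : ∀ l ∉ Sp ω, (1 / 4 : ℝ) ^ K / 2 * q ≤ (pts l ∩ unc (Sp ω)).card := fun l hl => by
    have := (abs_le.1 (hQ l)).1
    rw [Yl_eq hl] at this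
    nlinarith [mul_le_mul_of_nonneg_right hdel hq0.le]
  have hzq : ((unc L).card : ℝ) / q ≤ eps (Fintype.card F) * q := by
    rw [div_le_iff₀ hq0]; nlinarith
  rcases small L (Sp ω) (β := Real.exp (-(4 * K)) / 2) hL hc hS
    (by nlinarith [mul_le_mul_of_nonneg_right e1 hqq.le])
    (by nlinarith [mul_le_mul_of_nonneg_right e2 hqq.le])
    (by nlinarith [mul_le_mul_of_nonneg_right e3 hqq.le]) with ⟨o, ho⟩ | ⟨D, hne, hD, h | h⟩
  · exact absurd ⟨o, fun l hl => (ho l hl).imp_left fun h => (Finset.mem_sdiff.1 h).1⟩ hp₀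
  · refine .inl ⟨L, D, hne, hL, hD.mono ?_, h.1, h.2⟩
    rw [mul_div_assoc, mul_assoc]; linarith
  · obtain ⟨h, k1, k2, k3, k4, k5⟩ := h
    refine .inr ⟨L, D, h, hne, hL, hD.mono ?_, k1, k3.trans ?_, k4, k5⟩
    · have : ((unc L).card : ℝ) ≤ h * q := by rw [hqd]; exact_mod_cast k2
      rw [div_le_iff₀ hq0]; linarith
    · rw [mul_div_assoc, mul_assoc]; linarith

theorem core : ∃ q₀ : ℕ, ∀ (F : Type) [Field F] [Fintype F] [DecidableEq F],
    q₀ ≤ Fintype.card F → ∃ (g : Gad F) (sp : Dir F → Fin 11 → Host → Pt F), g.Ok ∧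
      (∀ i, Loc g i (sp i)) ∧ Cross g sp ∧
      (∀ l, ¬ Used g l → ∃ x, On x l ∧ ∀ l', Used g l' → ¬ On x l') ∧ UStab g := by
  obtain ⟨G, hG⟩ : ∃ G : ℕ, (176 * 4 ^ 12 * 44 ^ 11 : ℝ) ≤ G := exists_nat_ge _
  have hGr : (0 : ℝ) < G := lt_of_lt_of_le (by positivity) hG
  have hG0 : 0 < G := by exact_mod_cast hGr
  have : Nonempty (Fin G) := ⟨⟨0, hG0⟩⟩
  obtain ⟨q1, h1⟩ := rare_stab (Lay G)
  obtain ⟨q2, h2⟩ := rare_Q2a G
  obtain ⟨q3, h3⟩ := rare_Q2b hG0
  obtain ⟨q4, h4⟩ := rare_Q3 (Lay G)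
  obtain ⟨q5, h5⟩ := rare_QT (Lay G)
  set K := Fintype.card (Lay G) with hK
  have hβ : 0 < Real.exp (-(92 * (K : ℝ))) / 2 := by positivity
  obtain ⟨q6, h6⟩ := tupA hβ
  obtain ⟨q7, h7⟩ := tupB hβ
  have hδ : (0 : ℝ) < (1 / 4) ^ K := by positivity
  obtain ⟨q8, h8⟩ := eventually_atTop.1
    (((ev_dev (c := (1 / 44) ^ 11 * (1 / 4) ^ K / 90) (by positivity) 2).and
      (ev_dev (c := (1 / 4) ^ K / 4) (by positivity) 0)).and
      (ev_rpow 1 (a := 1 / 6) (b := 3 / 4) (by norm_num)))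
  refine ⟨q1 + q2 + q3 + q4 + q5 + q6 + q7 + q8, fun F _ _ _ hq => ?_⟩
  obtain ⟨⟨⟨e0, e1⟩, -, e2⟩, e3⟩ := h8 (Fintype.card F) (by omega)
  obtain ⟨grp, hgrp⟩ := exists_bal (Dir F) (Fin G)
  obtain ⟨cls, hcls⟩ := exists_bal (Dir F) (Bool × Fin 11)
  have hgrp' : ∀ g, (flt univ fun d => grp d = g).card ≤ (Fintype.card F + 1) / G + 1 := fun g => by
    have := (hgrp g).2
    rwa [card_dir, Fintype.card_fin] at this
  have hcls' : ∀ c, (Fintype.card F + 1) / 22 ≤ (flt univ fun d => cls d = c).card := fun c => by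
    have := (hcls c).1
    rwa [card_dir, Fintype.card_prod, Fintype.card_bool, Fintype.card_fin] at this
  have hP := Pr_or4 (h2 F (by omega) grp cls hcls') (h3 F (by omega) grp hgrp') (h4 F (by omega))
    (h5 F (by omega))
  have hP2 := (Pr_or_le _ _).trans (add_le_add (h1 F (by omega)) hP)
  obtain ⟨ω, hω⟩ := exists_not_of_Pr_lt_one (hP2.trans_lt (by norm_num))
  simp only [not_or, not_not] at hω
  obtain ⟨⟨hQ, hst⟩, ha, hb, hQ3, hQT⟩ := hω
  have hq2 := two_le_q (F := F)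
  have hq0 : (0 : ℝ) < Fintype.card F := by linarith
  have hdel := del_ge K (q := Fintype.card F) Fintype.one_lt_card
  have hdq := mul_le_mul_of_nonneg_right hdel hq0.le
  have hd0 : 0 ≤ del K (Fintype.card F) * Fintype.card F := le_trans (by positivity) hdq
  have hd1 : 0 < del K (Fintype.card F) := hδ.trans_le hdel
  have hd2 : 0 < dev (Fintype.card F) := by linarith
  obtain ⟨g, hg, hS⟩ := gad_exists ω grp cls (by positivity) (by
    have k1 : (4 : ℝ) ^ 12 * (2 / G) * 44 ≤ (1 / 44) ^ 11 / 2 := by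
      rw [← mul_div_assoc, div_mul_eq_mul_div, div_le_iff₀ hGr]
      have : (1 / 44 : ℝ) ^ 11 / 2 * (176 * 4 ^ 12 * 44 ^ 11) = 4 ^ 12 * 2 * 44 := by norm_num
      rw [← this]
      exact mul_le_mul_of_nonneg_left hG (by positivity)
    have k2 := mul_le_mul_of_nonneg_right k1 hd0
    have k3 := mul_le_mul_of_nonneg_left hdq (show (0 : ℝ) ≤ (1 / 44) ^ 11 by positivity)
    generalize ((1 : ℝ) / 44) ^ 11 = κ at *
    nlinarith) ha hb
  choose X T hX hT hloc using h6 F (by omega) g hg (Sp ω) hS hQ3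
  obtain ⟨τ, hτ, hx⟩ := h7 F (by omega) g hg (Sp ω) hS hQT X T hX hT hloc
  have hY : ∀ l, 3 * dev (Fintype.card F) ≤ (Yl (Sp ω) l).card := fun l => by
    have := (abs_le.1 (hQ l)).1
    linarith
  refine ⟨g, fun i s h => X i s h (τ i s), hg, fun i => hloc i (τ i) (hτ i), hx, fun l hl => ?_,
    upgrade g (Sp ω) hS hst hY hQT ?_⟩
  · have : 0 < (Yl (Sp ω) l).card := by
      have : (0 : ℝ) < (Yl (Sp ω) l).card := by linarith [hY l]
      exact_mod_cast this
    obtain ⟨x, hx⟩ := card_pos.1 this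
    exact ⟨x, mem_pts.1 (mem_flt.1 hx).1, not_on_used hS hl hx⟩
  · rw [one_mul] at e3
    unfold dev at *
    linarith

theorem ryser : ∃ q₀ : ℕ, ∀ (F : Type) [Field F] [Fintype F] (q : ℕ), Fintype.card F = q → q₀ ≤ q →
    ∃ (N : ℕ) (part : Fin N → Fin (q + 1)) (E : Finset (Finset (Fin N))),
      E.Nonempty ∧
      (∀ e ∈ E, ∀ i : Fin (q + 1), (e.filter (fun v => part v = i)).card = 1) ∧
      (∀ e ∈ E, ∀ f ∈ E, (e ∩ f).Nonempty) ∧
      (∀ i : Fin (q + 1), (Finset.univ.filter (fun v => part v = i)).card = q + 1) ∧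
      (∀ v : Fin N, ∃ e ∈ E, v ∈ e) ∧
      (∀ S : Finset (Fin N), (∀ e ∈ E, (e ∩ S).Nonempty) → q + 1 ≤ S.card) := by
  classical
  obtain ⟨q₀, h⟩ := core
  refine ⟨q₀, fun F _ _ q hq hq₀ => ?_⟩
  subst hq
  obtain ⟨g, sp, hg, hl, hx, hY, hst⟩ := h F hq₀
  obtain ⟨E, h1, h2, h3, h4⟩ := edges g hg sp hl hx hY hst
  exact hyper_abs card_dir Fintype.card_option E h1 h2 h3 h4

end Crest.Agent.R34
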