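import Crest.Agent.R34.Basic

/-! Row 34: auxiliary lemmas for the Szőnyi–Weiner inequality. -/

set_option autoImplicit false
set_option linter.unusedSectionVars false
set_option maxHeartbeats 400000

namespace Crest.Agent.R34.SW

open Finset Polynomial

theorem pow_dvd_det {R κ : Type} [CommRing R] [Fintype κ] [DecidableEq κ] {s : ℕ} (p : R)
    (T : Finset κ) (A : Matrix (Fin s) κ R) (B : Matrix κ (Fin s) R)
    (hB : ∀ x ∉ T, ∀ j, p ∣ B x j) : p ^ (s - #T) ∣ (A * B).det := by
  have e : (A * B).det = ∑ f : Fin s → κ, (∏ i, B (f i) i) * (A.submatrix id f).det := by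
    simp only [Matrix.det_apply', Matrix.mul_apply, prod_univ_sum, mul_sum,
      Fintype.piFinset_univ]
    rw [Finset.sum_comm]
    refine sum_congr rfl fun f _ => sum_congr rfl fun σ _ => ?_
    simp only [prod_mul_distrib, Matrix.submatrix_apply, id]
    ring
  rw [e]
  refine Finset.dvd_sum fun f _ => ?_
  by_cases hf : Function.Injective f
  · refine Dvd.dvd.mul_right ?_ _
    have h1 : #{i | f i ∈ T} ≤ #T :=
      card_le_card_of_injOn f (fun i hi => (mem_filter.1 hi).2) hf.injOn
    have h2 := card_filter_add_card_filter_not (s := (univ : Finset (Fin s))) fun i => f i ∈ T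
    rw [card_univ, Fintype.card_fin] at h2
    refine (pow_dvd_pow p (by omega : s - #T ≤ #{i | ¬ f i ∈ T})).trans ?_
    rw [← prod_const]
    exact (prod_dvd_prod_of_dvd _ _ fun i hi => hB _ (mem_filter.1 hi).2 i).trans
      (prod_dvd_prod_of_subset _ _ _ (filter_subset _ _))
  · obtain ⟨i, j, hij, hne⟩ := Function.not_injective_iff.1 hf
    rw [Matrix.det_zero_of_column_eq hne fun k => by simp [hij], mul_zero]
    exact dvd_zero _

theorem natDegree_det_le {R : Type} [CommRing R] {s : ℕ} (M : Matrix (Fin s) (Fin s) R[X]) (n : ℕ)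
    (h : ∀ i j, (M i j).natDegree ≤ n + (i + j)) : M.det.natDegree + s ≤ s * n + s * s := by
  have h0 : ∑ i : Fin s, (i : ℕ) * 2 + s = s * s := by
    rw [← sum_mul, Fin.sum_univ_eq_sum_range (fun i => i), sum_range_id_mul_two]
    cases s with
    | zero => rfl
    | succ s => simp [mul_add]
  have : M.det.natDegree ≤ s * n + ∑ i : Fin s, (i : ℕ) * 2 := by
    rw [Matrix.det_apply]
    refine natDegree_sum_le_of_forall_le _ _ fun σ _ => ?_
    refine (natDegree_smul_le _ _).trans ((natDegree_prod_le _ _).trans ?_)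
    refine (sum_le_sum fun i _ => h (σ i) i).trans (le_of_eq ?_)
    simp only [sum_add_distrib, mul_two, sum_const, card_univ, Fintype.card_fin, smul_eq_mul]
    rw [Equiv.sum_comp σ fun i => (i : ℕ)]
  omega

variable {F : Type} [Field F] [Fintype F] [DecidableEq F] {κ : Type}

/-- The product of the linear forms as a polynomial in `y`. -/
noncomputable def u (L : Finset κ) (a b c : κ → F) (x : F) : F[X] :=
  ∏ i ∈ L, (C (a i * x + c i) + C (b i) * X)

/-- Power sums. -/
noncomputable def m (L : Finset κ) (a b c : κ → F) (k : ℕ) : F[X] :=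
  ∑ x : F, C (x ^ k) * u L a b c x

theorem coeff_m (L : Finset κ) (a b c : κ → F) :
    ∀ k j, #L + k < j + (Fintype.card F - 1) → (m L a b c k).coeff j = 0 := by
  classical
  induction L using Finset.induction_on with
  | empty =>
    intro k j h
    simp only [m, u, prod_empty, mul_one, ← map_sum, coeff_C]
    split_ifs with hj
    · exact FiniteField.sum_pow_lt_card_sub_one F k (by simpa [hj] using h)
    · rfl
  | insert i L hi ih =>
    intro k j h
    rw [card_insert_of_notMem hi] at h
    have e : m (insert i L) a b c k = C (a i) * m L a b c (k + 1) + C (c i) * m L a b c k +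
        C (b i) * (X * m L a b c k) := by
      simp only [m, u, prod_insert hi, mul_sum, ← sum_add_distrib]
      refine sum_congr rfl fun x _ => ?_
      simp only [map_add, map_mul, pow_succ]
      ring
    rw [e, coeff_add, coeff_add, coeff_C_mul, coeff_C_mul, coeff_C_mul, ih _ _ (by omega),
      ih _ _ (by omega)]
    cases j with
    | zero => simp
    | succ j => rw [coeff_X_mul, ih _ _ (by omega)]; simp

theorem natDegree_m (L : Finset κ) (a b c : κ → F) (k : ℕ) :
    (X ^ (Fintype.card F - 1) * m L a b c k).natDegree ≤ #L + k := by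
  rw [natDegree_le_iff_coeff_eq_zero]
  intro N hN
  rw [coeff_X_pow_mul']
  split_ifs with h
  · exact coeff_m L a b c _ _ (by omega)
  · rfl

theorem eval_u_ne (L : Finset κ) (a b c : κ → F) (x y : F) :
    (u L a b c x).eval y ≠ 0 ↔ ∀ i ∈ L, a i * x + b i * y + c i ≠ 0 := by
  simp only [u, eval_prod, prod_ne_zero_iff, eval_add, eval_C, eval_mul, eval_X, add_right_comm]

/-- The Hankel matrix. -/
noncomputable def H (L : Finset κ) (a b c : κ → F) (s : ℕ) : Matrix (Fin s) (Fin s) F[X] :=
  Matrix.of fun i j => m L a b c (i + j)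

theorem det_H_deg (L : Finset κ) (a b c : κ → F) (s : ℕ) (h : (H L a b c s).det ≠ 0) :
    (H L a b c s).det.natDegree + s * Fintype.card F ≤ s * #L + s * s := by
  have h1 := natDegree_det_le ((X ^ (Fintype.card F - 1) : F[X]) • H L a b c s) #L fun i j =>
    natDegree_m L a b c _
  rw [Matrix.det_smul, natDegree_mul (pow_ne_zero _ (pow_ne_zero _ X_ne_zero)) h, ← pow_mul,
    natDegree_X_pow, Fintype.card_fin] at h1
  obtain ⟨q, hq⟩ : ∃ q, Fintype.card F = q + 1 := ⟨_, (Nat.succ_pred_eq_of_pos Fintype.card_pos).symm⟩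
  rw [hq] at h1 ⊢
  rw [Nat.add_sub_cancel, mul_comm q] at h1
  rw [mul_add]
  omega

theorem det_H_dvd (L : Finset κ) (a b c : κ → F) (s : ℕ) (y : F) :
    (X - C y) ^ (s - #(flt univ fun x : F => ∀ i ∈ L, a i * x + b i * y + c i ≠ 0)) ∣
      (H L a b c s).det := by
  have e : H L a b c s = (Matrix.of fun (i : Fin s) (x : F) => C (x ^ (i : ℕ))) *
      Matrix.of fun (x : F) (j : Fin s) => C (x ^ (j : ℕ)) * u L a b c x := by
    ext1 i j
    simp only [H, m, Matrix.mul_apply, Matrix.of_apply, pow_add, map_mul, mul_assoc]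
  rw [e]
  refine pow_dvd_det _ _ _ _ fun x hx j => ?_
  rw [mem_flt, ← eval_u_ne] at hx
  have h : X - C y ∣ u L a b c x := dvd_iff_isRoot.2 (by simpa using hx)
  exact h.mul_left _

theorem det_H_ne (L : Finset κ) (a b c : κ → F) (y : F) :
    (H L a b c #(flt univ fun x : F => ∀ i ∈ L, a i * x + b i * y + c i ≠ 0)).det ≠ 0 := by
  set S := flt univ fun x : F => ∀ i ∈ L, a i * x + b i * y + c i ≠ 0 with hS
  have hmem : ∀ x, x ∈ S ↔ (u L a b c x).eval y ≠ 0 := fun x => by
    rw [hS, mem_flt, eval_u_ne]; simp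
  let v : Fin #S → F := fun k => S.equivFin.symm k
  have hv : Function.Injective v := Subtype.val_injective.comp S.equivFin.symm.injective
  have e : (evalRingHom y).mapMatrix (H L a b c #S) = (Matrix.vandermonde v).transpose *
      Matrix.diagonal (fun k => (u L a b c (v k)).eval y) * Matrix.vandermonde v := by
    ext i j
    rw [Matrix.mul_apply]
    simp only [Matrix.mul_diagonal, Matrix.transpose_apply, Matrix.vandermonde_apply,
      RingHom.mapMatrix_apply, Matrix.map_apply, H, m, Matrix.of_apply, coe_evalRingHom,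
      eval_finsetSum, eval_mul, eval_C]
    rw [Equiv.sum_comp S.equivFin.symm
      fun x : S => (x : F) ^ (i : ℕ) * (u L a b c x).eval y * (x : F) ^ (j : ℕ),
      sum_coe_sort S fun x => x ^ (i : ℕ) * (u L a b c x).eval y * x ^ (j : ℕ),
      sum_subset (subset_univ S) fun x _ hx => by
        rw [hmem, not_not] at hx; simp [hx]]
    exact sum_congr rfl fun x _ => by ring
  intro h0
  have h1 := (evalRingHom y).map_det (H L a b c #S)
  rw [h0, map_zero, e, Matrix.det_mul, Matrix.det_mul, Matrix.det_transpose,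
    Matrix.det_diagonal] at h1
  have h2 := Matrix.det_vandermonde_ne_zero_iff.2 hv
  refine mul_ne_zero (mul_ne_zero h2 (prod_ne_zero_iff.2 fun k _ => ?_)) h2 h1.symm
  exact (hmem _).1 (S.equivFin.symm k).2

theorem sum_le_natDegree {P : F[X]} (hP : P ≠ 0) {n : F → ℕ} (h : ∀ y, (X - C y) ^ n y ∣ P) :
    ∑ y, n y ≤ P.natDegree := by
  refine le_trans ?_ (card_roots' P)
  rw [← Multiset.sum_count_eq_card (s := univ) fun _ _ => mem_univ _]
  refine sum_le_sum fun y _ => ?_
  rw [count_roots]
  exact (le_rootMultiplicity_iff hP).2 (h y)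

end Crest.Agent.R34.SW
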