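import Crest.Agent.R34.Defs
import Crest.Agent.R34.Samp

/-! Row 34: the weight function of a sample and its atypical lines. -/

set_option autoImplicit false
set_option linter.unusedSectionVars false

namespace Crest.Agent.R34

open Finset

variable {F : Type} [Field F] [Fintype F] [DecidableEq F]

variable {k : ℕ}

/-- Number of sampled lines through a point. -/
noncomputable def mult (B : Fin k → Line F) (x : Pt F) : ℕ := (flt univ fun j => On x (B j)).card

noncomputable def wt (lam : ℝ) (P' : Finset (Pt F)) (B : Fin k → Line F) (x : Pt F) : ℝ :=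
  if x ∈ P' then (1 + lam) * (if 1 ≤ mult B x then 1 else 0) - lam * mult B x else 0

/-- The lines on which the weight is small. -/
noncomputable def atyp (δ : ℝ) (P' : Finset (Pt F)) (B : Fin k → Line F) : Finset (Line F) :=
  flt univ fun l => ∑ p ∈ pts l, wt (δ * Fintype.card F / (40 * k)) P' B p ≤ 3 / 10 * (k * δ)

theorem wt_card_flt {α : Type} (s : Finset α) (P : α → Prop) [DecidablePred P] :
    ((flt s P).card : ℝ) = ∑ a ∈ s, if P a then (1 : ℝ) else 0 := by
  rw [flt_eq]; simp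

theorem wt_mult_eq (B : Fin k → Line F) (x : Pt F) :
    (mult B x : ℝ) = ∑ j, if On x (B j) then (1 : ℝ) else 0 := wt_card_flt _ _

theorem wt_card_inter (l : Line F) (P : Finset (Pt F)) :
    ((pts l ∩ P).card : ℝ) = ∑ x ∈ P, if On x l then (1 : ℝ) else 0 := by
  have : pts l ∩ P = P.filter fun x => On x l := by ext x; simp [and_comm]
  rw [this]; simp

theorem wt_sum_mult (B : Fin k → Line F) (P : Finset (Pt F)) :
    ∑ x ∈ P, (mult B x : ℝ) = ∑ j, ((pts (B j) ∩ P).card : ℝ) := by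
  simp only [wt_mult_eq, wt_card_inter]
  exact sum_comm

/-- On a line that was not sampled, the sum of the weights is the collision statistic. -/
theorem wt_line (lam : ℝ) (P' : Finset (Pt F)) (B : Fin k → Line F) (l : Line F)
    (hl : ∀ j, B j ≠ l) : ∑ p ∈ pts l, wt lam P' B p = stat lam (phi P' l) B := by
  classical
  have e1 : ((vals fun j => phi P' l (B j)).card : ℝ) =
      ∑ p ∈ pts l, if p ∈ P' ∧ 1 ≤ mult B p then (1 : ℝ) else 0 := by
    rw [← wt_card_flt]
    congr 2
    ext p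
    simp only [mem_vals, phi_eq_some, mem_flt, mem_pts, mult, one_le_card]
    constructor
    · rintro ⟨j, h1, -, h2, h3⟩
      exact ⟨h2, h1, j, by simpa using h3⟩
    · rintro ⟨h2, h1, j, h3⟩
      exact ⟨j, h1, hl j, h2, by simpa using h3⟩
  have e2 : (hits (phi P' l) B : ℝ) = ∑ p ∈ pts l, if p ∈ P' then (mult B p : ℝ) else 0 := by
    rw [hits, wt_card_flt]
    calc _ = ∑ j, ∑ p ∈ pts l, if phi P' l (B j) = some p then (1 : ℝ) else 0 := by
          refine sum_congr rfl fun j _ => ?_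
          rcases h : phi P' l (B j) with _ | x
          · simp
          · have hx : x ∈ pts l := mem_pts.2 (phi_eq_some.1 h).2.2.1
            simp [hx]
      _ = _ := by
          rw [sum_comm]
          refine sum_congr rfl fun p hp => ?_
          by_cases hP : p ∈ P'
          · rw [if_pos hP, wt_mult_eq]
            simp only [phi_eq_some, hP, hl, mem_pts.1 hp, ne_eq, not_false_eq_true, true_and]
          · simp [phi_eq_some, hP]
  rw [stat, e1, e2, mul_sum, mul_sum, ← sum_sub_distrib]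
  refine sum_congr rfl fun p _ => ?_
  by_cases hP : p ∈ P' <;> simp [wt, hP]

/-- `∑ x, m (m-1) = ∑_{j ≠ j'} |B j ∩ B j'|`. -/
theorem sum_mult_pairs (B : Fin k → Line F) :
    ∑ x, (mult B x : ℝ) * (mult B x - 1) ≤ (k : ℝ) ^ 2 + Fintype.card F * rep B := by
  classical
  have e1 : ∀ x, (mult B x : ℝ) * (mult B x - 1) =
      ∑ j, ∑ j', if j ≠ j' ∧ On x (B j) ∧ On x (B j') then (1 : ℝ) else 0 := fun x => by
    rw [mul_sub, mul_one, wt_mult_eq, sum_mul_sum, ← sum_sub_distrib]
    refine sum_congr rfl fun j _ => ?_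
    rw [sub_eq_iff_eq_add, ← add_sum_erase _ _ (mem_univ j), ← add_sum_erase _ _ (mem_univ j),
      add_right_comm]
    congr 1
    · by_cases h : On x (B j) <;> simp [h]
    · refine sum_congr rfl fun j' hj' => ?_
      have := (ne_of_mem_erase hj').symm
      by_cases h : On x (B j) <;> by_cases h' : On x (B j') <;> simp [h, h', this]
  have e2 : (rep B : ℝ) = ∑ j, ∑ j', if j ≠ j' ∧ B j = B j' then (1 : ℝ) else 0 := by
    rw [rep, wt_card_flt, Fintype.sum_prod_type]
  have e3 : (k : ℝ) ^ 2 = ∑ _j : Fin k, ∑ _j' : Fin k, (1 : ℝ) := by simp [sq]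
  simp only [e1]
  rw [e2, e3, mul_sum, ← sum_add_distrib, sum_comm]
  refine sum_le_sum fun j _ => ?_
  rw [mul_sum, ← sum_add_distrib, sum_comm]
  refine sum_le_sum fun j' _ => ?_
  by_cases hj : j = j'
  · simp [hj]
  · have e4 : ∑ x, (if j ≠ j' ∧ On x (B j) ∧ On x (B j') then (1 : ℝ) else 0) =
        (pts (B j') ∩ pts (B j)).card := by
      rw [wt_card_inter, pts, sum_filter]
      refine sum_congr rfl fun x _ => ?_
      by_cases h : On x (B j) <;> simp [h, hj]
    rw [e4]
    by_cases hB : B j = B j'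
    · simp [hB, hj, card_pts]
    · have : ((pts (B j') ∩ pts (B j)).card : ℝ) ≤ 1 := by
        exact_mod_cast card_inter_le_one (Ne.symm hB)
      simpa [hB] using this

/-- Put `lam = δ q / (40 k) ≥ 1`, `W = ∑ wt`.  `∑ m(m-1) ≤ 9k²`, `∑_{P'} m ≥ 0.9 k δ q`, and
`(m-1)⁺ ≤ m(m-1)/2`, so `W ≥ 0.9 kδq - 2 lam * 4.5 k² = 0.675 kδq`.  And
`wt² ≤ 1[m ≥ 1] + lam² m(m-1)`, so `∑ wt² ≤ kq + 9 lam² k² ≤ q²`.  Use `few_atyp` with
`a = kδ/3`. -/
theorem card_atyp {δ e : ℝ} (hδ0 : 0 < δ) (hδ1 : δ ≤ 1) (he : 10 * e ≤ δ * Fintype.card F)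
    (hk : 0 < k) (hk2 : 40 * (k : ℝ) ≤ δ * Fintype.card F) (P' : Finset (Pt F))
    (B : Fin k → Line F) (hB : ∀ j, δ * Fintype.card F - e ≤ (pts (B j) ∩ P').card)
    (hrep : (rep B : ℝ) ≤ 8 * (k : ℝ) ^ 2 / Fintype.card F) :
    ((atyp δ P' B).card : ℝ) ≤ 9 * (Fintype.card F : ℝ) ^ 3 / (k * δ) ^ 2 := by
  have hq : (0 : ℝ) < Fintype.card F := by linarith [two_le_q (F := F)]
  have hk' : (0 : ℝ) < k := by exact_mod_cast hk
  have hpair := sum_mult_pairs B
  have hm1 := wt_sum_mult B univ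
  have hm2 := wt_sum_mult B P'
  simp only [inter_univ, card_pts, sum_const, card_univ, Fintype.card_fin, nsmul_eq_mul] at hm1
  have hm3 : k * (δ * Fintype.card F - e) ≤ ∑ x ∈ P', (mult B x : ℝ) := by
    rw [hm2]
    simpa using card_nsmul_le_sum univ _ _ fun j _ => hB j
  obtain ⟨lam, hlam⟩ : ∃ lam : ℝ, lam = δ * Fintype.card F / (40 * k) := ⟨_, rfl⟩
  have hfew := few_atyp (wt lam P' B) (atyp δ P' B) (a := k * δ / 3) (by positivity)
  simp only [atyp, mem_flt, mem_univ, true_and, ← hlam] at hfew ⊢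
  rw [le_div_iff₀ hq] at hrep
  generalize (Fintype.card F : ℝ) = q at *
  have hlk : lam * k = δ * q / 40 := by rw [hlam]; field_simp
  have hl1 : 1 ≤ lam := by rw [hlam, le_div_iff₀ (by positivity)]; linarith
  have h9 : ∑ x, (mult B x : ℝ) * (mult B x - 1) ≤ 9 * (k : ℝ) ^ 2 := by linarith
  have hmm : ∀ m : ℕ, 0 ≤ (m : ℝ) * (m - 1) := fun m => by
    rcases m with _ | m
    · simp
    · push_cast; rw [add_sub_cancel_right]; positivity
  have hW : 27 / 40 * (k * δ) * q ≤ ∑ x, wt lam P' B x := by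
    have h1 : ∀ x, (if x ∈ P' then (mult B x : ℝ) else 0) - lam * (mult B x * (mult B x - 1)) ≤
        wt lam P' B x := fun x => by
      unfold wt
      split_ifs with h h'
      · rcases h'.eq_or_lt with h2 | h2
        · rw [← h2]; simp
        · have h3 : (2 : ℝ) ≤ mult B x := by exact_mod_cast h2
          have h4 : 0 ≤ lam * ((mult B x - 1) * (mult B x - 2)) :=
            mul_nonneg (by linarith) (mul_nonneg (by linarith) (by linarith))
          have h5 : 0 ≤ (lam - 1) * (mult B x - 1) := mul_nonneg (by linarith) (by linarith)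
          nlinarith
      · have : mult B x = 0 := by omega
        simp [this]
      · have := mul_nonneg (by linarith : 0 ≤ lam) (hmm (mult B x))
        linarith
    have h2 := sum_le_sum fun x (_ : x ∈ univ) => h1 x
    rw [sum_sub_distrib, ← mul_sum, sum_ite_mem, univ_inter] at h2
    have h3 : lam * ∑ x, (mult B x : ℝ) * (mult B x - 1) ≤ lam * (9 * (k : ℝ) ^ 2) := by gcongr
    have h4 : lam * (9 * (k : ℝ) ^ 2) = 9 / 40 * (k * δ) * q := by
      calc _ = 9 * (lam * k) * k := by ring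
        _ = _ := by rw [hlk]; ring
    have h5 : (k : ℝ) * (10 * e) ≤ k * (δ * q) := by gcongr
    linarith
  have hS : ∑ x, wt lam P' B x ^ 2 ≤ q ^ 2 := by
    have h1 : ∀ x, wt lam P' B x ^ 2 ≤ mult B x + lam ^ 2 * (mult B x * (mult B x - 1)) :=
      fun x => by
        unfold wt
        split_ifs with h h'
        · have h3 : (1 : ℝ) ≤ mult B x := by exact_mod_cast h'
          have h4 : 0 ≤ lam * (mult B x - 1) := mul_nonneg (by linarith) (by linarith)
          have h5 : 0 ≤ lam ^ 2 * (mult B x - 1) := mul_nonneg (by positivity) (by linarith)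
          nlinarith
        · have : mult B x = 0 := by omega
          simp [this]
        · have := mul_nonneg (sq_nonneg lam) (hmm (mult B x))
          have h3 : (0 : ℝ) ≤ mult B x := Nat.cast_nonneg _
          linarith
    have h2 := sum_le_sum fun x (_ : x ∈ univ) => h1 x
    rw [sum_add_distrib, ← mul_sum, hm1] at h2
    have h3 : lam ^ 2 * ∑ x, (mult B x : ℝ) * (mult B x - 1) ≤ lam ^ 2 * (9 * (k : ℝ) ^ 2) := by
      gcongr
    have h4 : lam ^ 2 * (9 * (k : ℝ) ^ 2) = 9 / 1600 * (δ * q) ^ 2 := by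
      calc _ = 9 * (lam * k) ^ 2 := by ring
        _ = _ := by rw [hlk]; ring
    have h5 : δ * q ≤ q := mul_le_of_le_one_left hq.le hδ1
    have h6 : (δ * q) ^ 2 ≤ q ^ 2 := by gcongr
    have h7 : 40 * (k : ℝ) * q ≤ q * q := by gcongr; linarith
    nlinarith
  have h1 := hfew fun l hl => by
    have h2 : 27 / 40 * (k * δ) ≤ (∑ x, wt lam P' B x) / q := by rwa [le_div_iff₀ hq]
    have h3 : 0 < k * δ := by positivity
    rw [abs_sub_comm]
    exact le_trans (by linarith) (le_abs_self _)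
  rw [le_div_iff₀ (by positivity)]
  have h2 : q * ∑ x, wt lam P' B x ^ 2 ≤ q * q ^ 2 := by gcongr
  linarith

/-- An efficient cover.  With `m x` the number of lines of `L` through `x`:
`∑_{x ∈ P} (m x - 1) = ∑_l |l ∩ P| - |P| ≤ 3 q e`, so `∑_{x ∈ P, m ≥ 2} m x ≤ 6 q e`, and this sum
is `∑_{l ∈ L} |{x ∈ l ∩ P : x on another line of L}|`.  Also `|L| (δq + e) ≥ |P|`. -/
theorem junk {δ e h : ℝ} (hδ0 : 0 < δ) (he0 : 0 ≤ e) (he : 10 * e ≤ δ * Fintype.card F)
    (hh : 0 ≤ h) (P : Finset (Pt F)) (L : Finset (Line F)) (hL : L.card ≤ Fintype.card F)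
    (h1 : ∀ l ∈ L, ((pts l ∩ P).card : ℝ) ≤ δ * Fintype.card F + e) (hc : Covers L P)
    (hP : δ * (Fintype.card F : ℝ) ^ 2 - 2 * Fintype.card F * e ≤ P.card) :
    Fintype.card F ≤ 2 * L.card ∧
      ((flt L fun l => h < (flt (pts l ∩ P) fun x => ∃ l' ∈ L, l' ≠ l ∧ On x l').card).card : ℝ) *
        h ≤ 6 * Fintype.card F * e := by
  classical
  have hq : (0 : ℝ) < Fintype.card F := by linarith [two_le_q (F := F)]
  have hL' : (L.card : ℝ) ≤ Fintype.card F := by exact_mod_cast hL
  have hm1 : ∀ x ∈ P, 1 ≤ (flt L fun l => On x l).card := fun x hx => by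
    obtain ⟨l, hl, hx⟩ := hc x hx
    exact one_le_card.2 ⟨l, mem_flt.2 ⟨hl, hx⟩⟩
  have hsum : ∑ x ∈ P, ((flt L fun l => On x l).card : ℝ) ≤
      L.card * (δ * Fintype.card F + e) := by
    simp only [wt_card_flt]
    rw [sum_comm]
    simp only [← wt_card_inter]
    simpa only [nsmul_eq_mul] using sum_le_card_nsmul L _ _ h1
  have hP1 : (P.card : ℝ) ≤ ∑ x ∈ P, ((flt L fun l => On x l).card : ℝ) := by
    simpa using card_nsmul_le_sum P (fun x => ((flt L fun l => On x l).card : ℝ)) 1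
      fun x hx => by exact_mod_cast hm1 x hx
  have hL0 : (0 : ℝ) ≤ L.card := Nat.cast_nonneg _
  constructor
  · have : (Fintype.card F : ℝ) ≤ 2 * L.card := by
      generalize (Fintype.card F : ℝ) = q at *
      have h2 : (L.card : ℝ) * (10 * e) ≤ L.card * (δ * q) := by gcongr
      have h3 : q * (10 * e) ≤ q * (δ * q) := by gcongr
      have h4 : 0 < δ * q := by positivity
      refine le_of_mul_le_mul_right ?_ h4
      have h5 : 0 ≤ (L.card : ℝ) * (δ * q) := by positivity
      nlinarith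
    exact_mod_cast this
  · have h2 : ∀ x ∈ P, (∑ l ∈ L, if On x l ∧ ∃ l' ∈ L, l' ≠ l ∧ On x l' then (1 : ℝ) else 0) ≤
        2 * (((flt L fun l => On x l).card : ℝ) - 1) := fun x hx => by
      rw [← wt_card_flt]
      rcases (hm1 x hx).eq_or_lt with h3 | h3
      · have : (flt L fun l => On x l ∧ ∃ l' ∈ L, l' ≠ l ∧ On x l') = ∅ := by
          refine eq_empty_of_forall_notMem fun l hl => ?_
          obtain ⟨h4, h5, l', h6, h7, h8⟩ := mem_flt.1 hl
          exact h7 (card_le_one.1 h3.ge l' (mem_flt.2 ⟨h6, h8⟩) l (mem_flt.2 ⟨h4, h5⟩))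
        rw [this, ← h3]; simp
      · have h4 : (flt L fun l => On x l ∧ ∃ l' ∈ L, l' ≠ l ∧ On x l').card ≤
            (flt L fun l => On x l).card := card_le_card fun l hl =>
          mem_flt.2 ⟨(mem_flt.1 hl).1, (mem_flt.1 hl).2.1⟩
        have h5 : (2 : ℝ) ≤ (flt L fun l => On x l).card := by exact_mod_cast h3
        have h6 : ((flt L fun l => On x l ∧ ∃ l' ∈ L, l' ≠ l ∧ On x l').card : ℝ) ≤
            (flt L fun l => On x l).card := by exact_mod_cast h4
        linarith
    have h3 := sum_le_sum h2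
    rw [sum_comm, ← mul_sum, sum_sub_distrib] at h3
    simp only [sum_const, nsmul_eq_mul, mul_one] at h3
    have h4 : ∀ l, (∑ x ∈ P, if On x l ∧ ∃ l' ∈ L, l' ≠ l ∧ On x l' then (1 : ℝ) else 0) =
        (flt (pts l ∩ P) fun x => ∃ l' ∈ L, l' ≠ l ∧ On x l').card := fun l => by
      rw [← wt_card_flt]
      congr 2
      ext x
      simp only [mem_flt, mem_inter, mem_pts]
      tauto
    simp only [h4] at h3
    have h5 := card_nsmul_le_sum
      (flt L fun l => h < (flt (pts l ∩ P) fun x => ∃ l' ∈ L, l' ≠ l ∧ On x l').card)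
      (fun l => ((flt (pts l ∩ P) fun x => ∃ l' ∈ L, l' ≠ l ∧ On x l').card : ℝ)) h
      fun l hl => (mem_flt.1 hl).2.le
    rw [nsmul_eq_mul] at h5
    refine h5.trans ((sum_le_sum_of_subset_of_nonneg (flt_subset _ _)
      fun _ _ _ => Nat.cast_nonneg _).trans (h3.trans ?_))
    have h6 : (L.card : ℝ) * (δ * Fintype.card F + e) ≤
        Fintype.card F * (δ * Fintype.card F + e) := by gcongr
    linarith

end Crest.Agent.R34
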